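import Vale.Agent.P043.Defs
import Mathlib.Tactic

/-! Aperiodic systems of tiling equations: embedding, lifting, functional equations, clauses. -/

namespace Vale.Agent.P043

section general

variable {G : Type*} [AddCommGroup G]

/-- invariance under `N • G` -/
def NPer (A : Set G) : Prop := ∃ N : ℕ, 0 < N ∧ ∀ g, ∀ a ∈ A, a + N • g ∈ A

lemma IsPeriodic.nper {A : Set G} (h : IsPeriodic A) : NPer A := by
  obtain ⟨H, hH, hA⟩ := h
  refine ⟨H.index, Nat.pos_of_ne_zero hH.index_ne_zero, fun g a ha => ?_⟩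
  rw [← hA _ (H.nsmul_index_mem g)]
  exact ⟨a, ha, rfl⟩

lemma isTiling_iff {A F : Set G} : IsTiling A F ↔
    (∀ g, ∃ a ∈ A, ∃ f ∈ F, a + f = g) ∧
      ∀ a ∈ A, ∀ f ∈ F, ∀ a' ∈ A, ∀ f' ∈ F, a + f = a' + f' → a = a' := by
  constructor
  · intro h
    refine ⟨fun g => ?_, fun a ha f hf a' ha' f' hf' e => ?_⟩
    · obtain ⟨p, hp, -⟩ := h g
      exact ⟨p.1, hp.1, p.2, hp.2.1, hp.2.2⟩
    · have := (h (a + f)).unique (y₁ := (a, f)) (y₂ := (a', f')) ⟨ha, hf, rfl⟩ ⟨ha', hf', e.symm⟩
      exact congrArg Prod.fst this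
  · rintro ⟨h1, h2⟩ g
    obtain ⟨a, ha, f, hf, e⟩ := h1 g
    refine ⟨(a, f), ⟨ha, hf, e⟩, ?_⟩
    rintro ⟨a', f'⟩ ⟨ha', hf', e'⟩
    have h3 : a' = a := h2 a' ha' f' hf' a ha f hf (e'.trans e.symm)
    subst h3
    have : f' = f := add_left_cancel (e'.trans e.symm)
    rw [this]

/-- an aperiodic finite system of tiling equations -/
def AperSys (G : Type*) [AddCommGroup G] : Prop :=
  ∃ S : Set (Finset G), S.Finite ∧ (∃ A, ∀ F ∈ S, IsTiling A (F : Set G)) ∧
    ∀ A, (∀ F ∈ S, IsTiling A (F : Set G)) → ¬ NPer A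

/-- an aperiodic tile -/
def AperTile (F : Finset G) : Prop :=
  (∃ A, IsTiling A (F : Set G)) ∧ ∀ A, IsTiling A (F : Set G) → ¬ NPer A

lemma AperTile.nonempty {F : Finset G} (h : AperTile F) : F.Nonempty := by
  obtain ⟨A, hA⟩ := h.1
  obtain ⟨a, -, f, hf, -⟩ := (isTiling_iff.1 hA).1 0
  exact ⟨f, hf⟩

/-- Aperiodic tiles can be pushed along injective homomorphisms. -/
lemma AperTile.embed {G' : Type*} [AddCommGroup G'] [DecidableEq G'] (ι : G →+ G')
    (hι : Function.Injective ι) {F : Finset G} (h : AperTile F) : AperTile (F.image ι) := by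
  classical
  obtain ⟨⟨A, hA⟩, hn⟩ := h
  rw [isTiling_iff] at hA
  constructor
  · let R := ι.range
    let s : G' → G' := fun g => (QuotientAddGroup.mk g : G' ⧸ R).out
    have hs : ∀ g, ∃ u, g = s g + ι u := by
      intro g
      obtain ⟨⟨r, u, hu⟩, hr⟩ := QuotientAddGroup.mk_out_eq_add R g
      refine ⟨-u, ?_⟩
      simp only [s, hr, map_neg, hu]
      abel
    have hs2 : ∀ g g' u u', s g + ι u = s g' + ι u' → s g = s g' := by
      intro g g' u u' e
      have : (QuotientAddGroup.mk (s g) : G' ⧸ R) = QuotientAddGroup.mk (s g') := by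
        rw [QuotientAddGroup.eq]
        refine ⟨u - u', ?_⟩
        rw [map_sub]
        linear_combination (norm := abel) e
      simp only [s, QuotientAddGroup.out_eq'] at this
      simp only [s, this]
    refine ⟨{x | ∃ g, ∃ a ∈ A, x = s g + ι a}, isTiling_iff.2 ⟨fun g => ?_, ?_⟩⟩
    · obtain ⟨u, hu⟩ := hs g
      obtain ⟨a, ha, f, hf, e⟩ := hA.1 u
      refine ⟨s g + ι a, ⟨g, a, ha, rfl⟩, ι f, by simpa using ⟨f, hf, rfl⟩, ?_⟩
      rw [add_assoc, ← map_add, e, ← hu]
    · rintro _ ⟨g, a, ha, rfl⟩ x hx _ ⟨g', a', ha', rfl⟩ x' hx' e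
      simp only [Finset.coe_image, Set.mem_image] at hx hx'
      obtain ⟨f, hf, rfl⟩ := hx
      obtain ⟨f', hf', rfl⟩ := hx'
      rw [add_assoc, add_assoc, ← map_add, ← map_add] at e
      have e1 := hs2 _ _ _ _ e
      rw [e1] at e ⊢
      have e2 := hι (add_left_cancel e)
      rw [hA.2 a ha f hf a' ha' f' hf' e2]
  · intro B hB hper
    rw [isTiling_iff] at hB
    apply hn (ι ⁻¹' B)
    · refine isTiling_iff.2 ⟨fun g => ?_, ?_⟩
      · obtain ⟨b, hb, x, hx, e⟩ := hB.1 (ι g)
        simp only [Finset.coe_image, Set.mem_image] at hx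
        obtain ⟨f, hf, rfl⟩ := hx
        refine ⟨g - f, ?_, f, hf, by abel⟩
        have : ι (g - f) = b := by rw [map_sub, ← e]; abel
        simpa [this] using hb
      · intro a ha f hf a' ha' f' hf' e
        apply hι
        refine hB.2 _ ha (ι f) (by simpa using ⟨f, hf, rfl⟩) _ ha' (ι f')
          (by simpa using ⟨f', hf', rfl⟩) ?_
        rw [← map_add, ← map_add, e]
    · obtain ⟨N, hN, hp⟩ := hper
      refine ⟨N, hN, fun g a ha => ?_⟩
      have := hp (ι g) _ ha
      simpa using this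

/-- Aperiodic systems can be lifted along surjections with finitely generated kernel. -/
lemma AperSys.lift {G' : Type*} [AddCommGroup G'] (π : G' →+ G) (hπ : Function.Surjective π)
    (T : Set G') (hT : T.Finite) (hker : ∀ x, π x = 0 ↔ x ∈ AddSubgroup.closure T)
    (h : AperSys G) : AperSys G' := by
  classical
  obtain ⟨S, hS, ⟨A, hA⟩, hn⟩ := h
  obtain ⟨σ, hσ⟩ := hπ.hasRightInverse
  have hne : S.Nonempty := by
    by_contra h0
    rw [Set.not_nonempty_iff_eq_empty] at h0
    exact hn Set.univ (by simp [h0]) ⟨1, one_pos, by simp⟩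
  obtain ⟨F0, hF0⟩ := hne
  obtain ⟨a0, -, f0, hf0, -⟩ := (isTiling_iff.1 (hA F0 hF0)).1 0
  -- the lifted tile, with the point `f0` moved by `t`
  let L : Finset G → G' → Finset G' := fun F t => F.image fun f => σ f + if f = f0 then t else 0
  have hL : ∀ F t x, x ∈ (L F t : Set G') ↔ ∃ f ∈ F, σ f + (if f = f0 then t else 0) = x := by
    intro F t x; simp [L]
  have hπL : ∀ f t, π t = 0 → π (σ f + if f = f0 then t else 0) = f := by
    intro f t ht
    rw [map_add, hσ f]
    split_ifs <;> simp [ht]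
  refine ⟨(fun F => L F 0) '' S ∪ (fun t => L F0 t) '' T, (hS.image _).union (hT.image _),
    ⟨π ⁻¹' A, ?_⟩, ?_⟩
  · have key : ∀ F ∈ S, ∀ t, π t = 0 → IsTiling (π ⁻¹' A) (L F t : Set G') := by
      intro F hF t ht
      have hAF := isTiling_iff.1 (hA F hF)
      refine isTiling_iff.2 ⟨fun g => ?_, ?_⟩
      · obtain ⟨a, ha, f, hf, e⟩ := hAF.1 (π g)
        refine ⟨g - (σ f + if f = f0 then t else 0), ?_, _, (hL _ _ _).2 ⟨f, hf, rfl⟩, by abel⟩
        have : π (g - (σ f + if f = f0 then t else 0)) = a := by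
          rw [map_sub, hπL f t ht, ← e]; abel
        simpa [Set.mem_preimage, this] using ha
      · intro b hb x hx b' hb' x' hx' e
        obtain ⟨f, hf, rfl⟩ := (hL _ _ _).1 hx
        obtain ⟨f', hf', rfl⟩ := (hL _ _ _).1 hx'
        have e1 := congrArg π e
        rw [map_add π b, map_add π b', hπL f t ht, hπL f' t ht] at e1
        have e2 := hAF.2 _ hb f hf _ hb' f' hf' e1
        rw [e2] at e1
        have e3 : f = f' := add_left_cancel e1
        subst e3
        exact add_right_cancel e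
    rintro _ (⟨F, hF, rfl⟩ | ⟨t, ht, rfl⟩)
    · exact key F hF 0 (map_zero π)
    · exact key F0 hF0 t ((hker t).2 (AddSubgroup.subset_closure ht))
  · intro B hB hper
    have hB0 : ∀ F ∈ S, IsTiling B (L F 0 : Set G') := fun F hF => hB _ (Or.inl ⟨F, hF, rfl⟩)
    have hBt : ∀ t ∈ T, IsTiling B (L F0 t : Set G') := fun t ht => hB _ (Or.inr ⟨t, ht, rfl⟩)
    have hshift : ∀ t t' : G', π t = 0 → IsTiling B (L F0 t : Set G') →
        IsTiling B (L F0 t' : Set G') → ∀ b ∈ B, b + (t - t') ∈ B := by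
      intro t t' ht h1 h2 b hb
      obtain ⟨b', hb', x, hx, e⟩ := (isTiling_iff.1 h2).1 (b + (σ f0 + t))
      obtain ⟨f, hf, rfl⟩ := (hL _ _ _).1 hx
      by_cases hf' : f = f0
      · subst hf'
        simp only [if_true] at e
        have : b + (t - t') = b' := by linear_combination (norm := abel) e.symm
        rw [this]; exact hb'
      · exfalso
        simp only [hf', if_false] at e
        have h3 := (isTiling_iff.1 h1).2 b' hb' (σ f + 0) ((hL _ _ _).2 ⟨f, hf, by simp [hf']⟩) b hb
          (σ f0 + t) ((hL _ _ _).2 ⟨f0, hf0, by simp⟩) e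
        subst h3
        have h4 := congrArg π (add_left_cancel e)
        rw [map_add, map_add, hσ f, hσ f0, ht, map_zero, add_zero, add_zero] at h4
        exact hf' h4
    have hinv : ∀ x, π x = 0 → ∀ b ∈ B, b + x ∈ B := by
      intro x hx
      rw [hker] at hx
      have : (∀ b ∈ B, b + x ∈ B) ∧ ∀ b ∈ B, b + -x ∈ B := by
        induction hx using AddSubgroup.closure_induction with
        | mem t ht =>
          have h0 : π t = 0 := (hker t).2 (AddSubgroup.subset_closure ht)
          constructor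
          · simpa using hshift t 0 h0 (hBt t ht) (hB0 F0 hF0)
          · simpa using hshift 0 t (map_zero π) (hB0 F0 hF0) (hBt t ht)
        | zero => simp
        | add x y _ _ hx hy =>
          constructor
          · intro b hb; rw [← add_assoc]; exact hy.1 _ (hx.1 b hb)
          · intro b hb; rw [neg_add, ← add_assoc]; exact hy.2 _ (hx.2 b hb)
        | neg x _ hx => exact ⟨hx.2, by simpa using hx.1⟩
      exact this.1
    apply hn (π '' B)
    · intro F hF
      have hBF := isTiling_iff.1 (hB0 F hF)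
      refine isTiling_iff.2 ⟨fun g => ?_, ?_⟩
      · obtain ⟨b, hb, x, hx, e⟩ := hBF.1 (σ g)
        obtain ⟨f, hf, rfl⟩ := (hL _ _ _).1 hx
        refine ⟨π b, ⟨b, hb, rfl⟩, f, hf, ?_⟩
        rw [← hσ g, ← e, map_add π b, hπL f 0 (map_zero π)]
      · rintro _ ⟨b, hb, rfl⟩ f hf _ ⟨b', hb', rfl⟩ f' hf' e
        set x := σ f + (if f = f0 then 0 else 0) with hx
        set x' := σ f' + (if f' = f0 then 0 else 0) with hx'
        have hz : π (b' + x' - (b + x)) = 0 := by
          rw [map_sub, map_add π b, map_add π b', hπL f 0 (map_zero π), hπL f' 0 (map_zero π), e,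
            sub_self]
        have h1 := hBF.2 _ (hinv _ hz b hb) x ((hL _ _ _).2 ⟨f, hf, rfl⟩) b' hb' x'
          ((hL _ _ _).2 ⟨f', hf', rfl⟩) (by abel)
        rw [← h1, map_add, hz, add_zero]
    · obtain ⟨N, hN, hp⟩ := hper
      refine ⟨N, hN, ?_⟩
      rintro g _ ⟨b, hb, rfl⟩
      refine ⟨_, hp (σ g) b hb, ?_⟩
      rw [map_add, map_nsmul, hσ g]

end general

section functional

variable {B K : Type*} [AddCommGroup B] [AddCommGroup K]

/-- the functional equation given by `Φ = (h, κ)` -/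
def Sat (α : B → K) (Φ : (K → B) × (K → K)) : Prop :=
  ∀ b, Function.Bijective fun k => α (b + Φ.1 k) + Φ.2 k

lemma aperSys_of_fun [Finite K] (E : Set ((K → B) × (K → K))) (hE : E.Finite)
    (hex : ∃ α, ∀ Φ ∈ E, Sat α Φ)
    (hno : ∀ α, (∀ Φ ∈ E, Sat α Φ) → ∀ N : ℕ, 0 < N → (∀ b g, α (b + N • g) = α b) → False) :
    AperSys (B × K) := by
  classical
  have := Fintype.ofFinite K
  let tile : (K → B) × (K → K) → Finset (B × K) := fun Φ =>
    Finset.univ.image fun k => (-Φ.1 k, Φ.2 k)
  have htile : ∀ Φ x, x ∈ (tile Φ : Set (B × K)) ↔ ∃ k, (-Φ.1 k, Φ.2 k) = x := by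
    intro Φ x; simp [tile]
  have h1 : ∀ α Φ, Sat α Φ → IsTiling {x : B × K | α x.1 = x.2} (tile Φ : Set (B × K)) := by
    intro α Φ hs
    refine isTiling_iff.2 ⟨fun g => ?_, ?_⟩
    · obtain ⟨k, hk⟩ := (hs g.1).2 g.2
      refine ⟨(g.1 + Φ.1 k, α (g.1 + Φ.1 k)), rfl, _, (htile _ _).2 ⟨k, rfl⟩, ?_⟩
      ext
      · simp
      · simpa using hk
    · rintro ⟨b, y⟩ hb x hx ⟨b', y'⟩ hb' x' hx' e
      obtain ⟨k, rfl⟩ := (htile _ _).1 hx
      obtain ⟨k', rfl⟩ := (htile _ _).1 hx'
      simp only [Set.mem_ofPred_eq] at hb hb'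
      subst hb hb'
      simp only [Prod.mk_add_mk, Prod.mk.injEq] at e
      have e3 : k = k' := by
        apply (hs (b + -Φ.1 k)).1
        simp only
        have f1 : b + -Φ.1 k + Φ.1 k = b := by abel
        have f2 : b + -Φ.1 k + Φ.1 k' = b' := by rw [e.1]; abel
        rw [f1, f2, e.2]
      subst e3
      have : b = b' := add_right_cancel e.1
      rw [this]
  obtain ⟨α0, hα0⟩ := hex
  let Φ0 : (K → B) × (K → K) := (fun _ => 0, id)
  refine ⟨tile '' (insert Φ0 E), (hE.insert _).image _, ⟨{x : B × K | α0 x.1 = x.2}, ?_⟩, ?_⟩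
  · rintro _ ⟨Φ, hΦ | hΦ, rfl⟩
    · apply h1
      subst hΦ
      intro b
      simpa [Φ0] using (AddGroup.addLeft_bijective (α0 b))
    · exact h1 _ _ (hα0 Φ hΦ)
  · intro A hA hper
    have hA0 := isTiling_iff.1 (hA _ ⟨Φ0, Or.inl rfl, rfl⟩)
    have hex : ∀ b, ∃ y, (b, y) ∈ A := by
      intro b
      obtain ⟨⟨b', y⟩, ha, x, hx, e⟩ := hA0.1 (b, 0)
      obtain ⟨k, rfl⟩ := (htile _ _).1 hx
      simp only [Φ0, Prod.mk_add_mk, Prod.mk.injEq, neg_zero, add_zero] at e
      exact ⟨y, e.1 ▸ ha⟩
    choose α hα using hex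
    have huniq : ∀ b y, (b, y) ∈ A → y = α b := by
      intro b y hy
      have := hA0.2 _ hy _ ((htile _ _).2 ⟨-y, rfl⟩) _ (hα b) _ ((htile _ _).2 ⟨-α b, rfl⟩)
        (by simp [Φ0])
      exact congrArg Prod.snd this
    obtain ⟨N, hN, hp⟩ := hper
    refine hno α (fun Φ hΦ b => ?_) N hN (fun b g => ?_)
    · apply Function.Injective.bijective_of_finite
      intro k k' e
      have hT := isTiling_iff.1 (hA _ ⟨Φ, Or.inr hΦ, rfl⟩)
      simp only at e
      have h2 := hT.2 _ (hα (b + Φ.1 k)) _ ((htile _ _).2 ⟨k, rfl⟩) _ (hα (b + Φ.1 k')) _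
        ((htile _ _).2 ⟨k', rfl⟩) (by simp [e])
      simp only [Prod.mk.injEq, add_right_inj] at h2
      rw [h2.2] at e
      have h3 := add_left_cancel e
      apply (hα0 Φ hΦ b).1
      simp only [h2.1, h3]
    · have := hp (g, 0) _ (hα b)
      simp only [Prod.smul_mk, smul_zero, Prod.mk_add_mk, add_zero] at this
      exact (huniq _ _ this).symm

open Classical in
/-- the functional equation of a clause -/
noncomputable def clause {J : Type*} [Fintype J] (ν : J → J) (N : J → AddSubgroup K) (h : J → B)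
    (c : J → K) : (K → B) × (K → K) :=
  (fun k => ∑ j ∈ Finset.univ.filter (fun j => k ∈ N (ν j)), h j,
    fun k => k - ∑ j ∈ Finset.univ.filter (fun j => k ∈ N (ν j)), c j)

/-- `ν` connects everything -/
def Cyc {J : Type*} (ν : J → J) : Prop := ∀ P : J → Prop, (∃ j, P j) → (∀ i, P (ν i) → P i) → ∀ i, P i

lemma exists_cyc (J : Type*) [Finite J] : ∃ ν : J → J, Cyc ν := by
  cases isEmpty_or_nonempty J with
  | inl h => exact ⟨id, fun P ⟨j, _⟩ => h.elim j⟩
  | inr h =>
    obtain ⟨n, ⟨e⟩⟩ := Finite.exists_equiv_fin J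
    have : NeZero n := ⟨by rintro rfl; exact (e h.some).elim0⟩
    refine ⟨fun j => e.symm (e j + 1), ?_⟩
    rintro P ⟨j, hj⟩ hP i
    have key : ∀ t : ℕ, P (e.symm (e j - Fin.ofNat n t)) := by
      intro t
      induction t with
      | zero => simpa using hj
      | succ t ih =>
        apply hP
        have : Fin.ofNat n (t + 1) = Fin.ofNat n t + 1 := by
          ext; simp [Fin.val_add]
        simp only [Equiv.apply_symm_apply, this]
        have h2 : e j - (Fin.ofNat n t + 1) + 1 = e j - Fin.ofNat n t := by abel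
        rw [h2]; exact ih
    have := key (e j - e i).val
    simpa using this

lemma sat_clause_iff [Finite K] {J : Type*} [Fintype J] [Nonempty J] (ν : J → J) (hν : Cyc ν)
    (N : J → AddSubgroup K) (h : J → B) (c : J → K) (α : B → K)
    (hinv : ∀ i j, i ≠ j → ∀ b, α (b + h j) - α b ∈ N i) (hc : ∀ i j, i ≠ j → c j ∈ N i) :
    Sat α (clause ν N h c) ↔ ∀ b, ∃ j, α (b + h j) - α b - c j ∈ N j := by
  classical
  have hout : ∀ i (S : Finset J), i ∉ S → ∀ b,
      α (b + ∑ j ∈ S, h j) - α b - ∑ j ∈ S, c j ∈ N i := by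
    intro i S
    induction S using Finset.induction_on with
    | empty => simp
    | insert j S hj ih =>
      intro hi b
      rw [Finset.mem_insert, not_or] at hi
      rw [Finset.sum_insert hj, Finset.sum_insert hj]
      have h1 := ih hi.2 (b + h j)
      have h2 := hinv i j hi.1 b
      have h3 := hc i j hi.1
      have := (N i).sub_mem ((N i).add_mem h1 h2) h3
      rw [add_assoc] at this
      convert this using 1
      abel
  have hin : ∀ i (S : Finset J), i ∈ S → ∀ b,
      α (b + ∑ j ∈ S, h j) - α b - ∑ j ∈ S, c j - (α (b + h i) - α b - c i) ∈ N i := by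
    intro i S hi b
    rw [← Finset.add_sum_erase S h hi, ← Finset.add_sum_erase S c hi]
    have := hout i (S.erase i) (by simp) (b + h i)
    rw [add_assoc] at this
    convert this using 1
    abel
  constructor
  · intro hs b
    by_contra hcon
    push Not at hcon
    set k' := α (b + ∑ j, h j) - α b - ∑ j, c j with hk'
    have hk : ∀ i, k' ∉ N i := by
      intro i hi
      apply hcon i
      have := (N i).sub_mem hi (hin i Finset.univ (Finset.mem_univ i) b)
      convert this using 1
      rw [hk']; abel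
    have : (0 : K) = k' := by
      apply (hs b).1
      simp only [clause, zero_mem, Finset.filter_true, hk, Finset.filter_false, Finset.sum_empty]
      rw [hk']; simp only [add_zero]; abel
    exact hk (Classical.arbitrary J) (this ▸ zero_mem _)
  · intro hlit b
    apply Function.Injective.bijective_of_finite
    intro k k' e
    simp only [clause] at e
    set S := Finset.univ.filter (fun j => k ∈ N (ν j)) with hS
    set S' := Finset.univ.filter (fun j => k' ∈ N (ν j)) with hS'
    have e' : k - k' = (α (b + ∑ j ∈ S', h j) - α b - ∑ j ∈ S', c j) -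
        (α (b + ∑ j ∈ S, h j) - α b - ∑ j ∈ S, c j) := by
      linear_combination (norm := abel) e
    have hmem : ∀ i, k - k' ∈ N i → (k ∈ N i ↔ k' ∈ N i) := by
      intro i hi
      constructor
      · intro hk
        have := (N i).sub_mem hk hi
        simpa using this
      · intro hk
        have := (N i).add_mem hi hk
        simpa using this
    have hall : ∀ i, k - k' ∈ N i := by
      apply hν
      · obtain ⟨j, hj⟩ := hlit b
        refine ⟨j, ?_⟩
        have hany : ∀ S : Finset J, α (b + ∑ j ∈ S, h j) - α b - ∑ j ∈ S, c j ∈ N j := by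
          intro S
          by_cases hjS : j ∈ S
          · have := (N j).add_mem (hin j S hjS b) hj
            simpa using this
          · exact hout j S hjS b
        rw [e']
        exact (N j).sub_mem (hany _) (hany _)
      · intro i hi
        have hiff : i ∈ S ↔ i ∈ S' := by simp [hS, hS', hmem _ hi]
        rw [e']
        by_cases hiS : i ∈ S
        · have := (N i).sub_mem (hin i S' (hiff.1 hiS) b) (hin i S hiS b)
          convert this using 1
          abel
        · exact (N i).sub_mem (hout i S' (fun h => hiS (hiff.2 h)) b) (hout i S hiS b)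
    have hSS : S = S' := by
      ext i; simp [hS, hS', hmem _ (hall (ν i))]
    rw [hSS, sub_self] at e'
    exact sub_eq_zero.1 e'

lemma sat_unit_iff [Finite K] (N : AddSubgroup K) (h : B) (c : K) (α : B → K) :
    Sat α (clause (J := Unit) id (fun _ => N) (fun _ => h) (fun _ => c)) ↔
      ∀ b, α (b + h) - α b - c ∈ N := by
  rw [sat_clause_iff id (fun P ⟨_, hj⟩ _ _ => hj) _ _ _ _ (fun i j hij => (hij rfl).elim)
    (fun i j hij => (hij rfl).elim)]
  simp

end functional

end Vale.Agent.P043
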