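import Vale.Agent.P043.Basic

/-! Concatenation of a finite system of tiling equations in `G × ℤ` into a single one. -/

namespace Vale.Agent.P043

lemma exists_colouring_fin (k : ℕ) (hk : 0 < k) :
    ∃ (M C : ℕ) (c : ℕ → Fin k), 0 < C ∧ Even M ∧ C ≤ M ∧
      (∀ i j, ∀ h, 0 < h → h + C ≤ M → ∃ z, z + h < M ∧ c z = i ∧ c (z + h) = j) ∧
      ∀ i, ∃ z, C ≤ z ∧ z + C ≤ M ∧ c z = i := by
  set L := k * k with hL
  have hL0 : 0 < L := Nat.mul_pos hk hk
  let col : ℕ → ℕ := fun z =>
    if z < 2 * L * L then (if (z / L) % 2 = 0 then (z / L / 2) / k else (z / L / 2))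
    else if z < 2 * L * L + L then (z - 2 * L * L) / k else z
  refine ⟨2 * (2 * L * L + L) + 2 * k, 2 * L * L + L, fun z => ⟨col z % k, Nat.mod_lt _ hk⟩,
    by positivity, ⟨2 * L * L + L + k, by ring⟩, by omega, ?_, ?_⟩
  · intro i j h h0 hh
    have hi := i.2
    have hj := j.2
    by_cases hs : h ≤ L
    · -- adjacent long runs
      set p := i.1 * k + j.1 with hp
      have hpL : p < L := by
        have : i.1 * k + k ≤ k * k := by nlinarith
        omega
      have hb : (2 * p + 2) * L ≤ 2 * L * L := by nlinarith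
      have e1 : (2 * p + 1) * L - h = (L - h) + (2 * p) * L := by
        have : (2 * p + 1) * L = L + (2 * p) * L := by ring
        omega
      have e2 : (2 * p + 1) * L - h + h = 0 + (2 * p + 1) * L := by
        have : (2 * p + 1) * L = L + (2 * p) * L := by ring
        omega
      have d1 : ((2 * p + 1) * L - h) / L = 2 * p := by
        rw [e1, Nat.add_mul_div_right _ _ hL0, Nat.div_eq_of_lt (by omega), zero_add]
      have d2 : ((2 * p + 1) * L - h + h) / L = 2 * p + 1 := by
        rw [e2, Nat.add_mul_div_right _ _ hL0]; simp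
      have l2 : (2 * p + 1) * L - h + h < 2 * L * L := by
        have : (2 * p + 2) * L = (2 * p + 1) * L + L := by ring
        omega
      refine ⟨(2 * p + 1) * L - h, by omega, ?_, ?_⟩
      · ext
        have l1 : (2 * p + 1) * L - h < 2 * L * L := by omega
        have t1 : 2 * p % 2 = 0 := by omega
        have t2 : 2 * p / 2 = p := by omega
        simp only [col, l1, if_true, d1, t1, t2]
        rw [hp, add_comm, Nat.add_mul_div_right _ _ hk, Nat.div_eq_of_lt hj, zero_add,
          Nat.mod_eq_of_lt hi]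
      · ext
        have t1 : ¬ (2 * p + 1) % 2 = 0 := by omega
        have t2 : (2 * p + 1) / 2 = p := by omega
        simp only [col, l2, if_true, d2, t1, t2, if_false]
        rw [hp, add_comm, Nat.add_mul_mod_self_right, Nat.mod_eq_of_lt hj]
    · -- short run against the periodic tail
      set z0 := 2 * L * L + i.1 * k with hz0
      obtain ⟨r, hr, hrj⟩ : ∃ r, r < k ∧ (z0 + r + h) % k = j.1 := by
        refine ⟨(j.1 + (k - (z0 + h) % k)) % k, Nat.mod_lt _ hk, ?_⟩
        have h1 := Nat.mod_lt (z0 + h) hk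
        have h2 := Nat.div_add_mod (z0 + h) k
        have : z0 + (j.1 + (k - (z0 + h) % k)) % k + h =
            (j.1 + (k - (z0 + h) % k)) % k + (z0 + h) := by ring
        rw [this, Nat.mod_add_mod]
        have : j.1 + (k - (z0 + h) % k) + (z0 + h) = j.1 + k * ((z0 + h) / k + 1) := by
          rw [mul_add]; omega
        rw [this, Nat.add_mul_mod_self_left, Nat.mod_eq_of_lt hj]
      have hik : i.1 * k + k ≤ L := by nlinarith
      refine ⟨z0 + r, by omega, ?_, ?_⟩
      · ext
        have l1 : ¬ z0 + r < 2 * L * L := by omega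
        have l2 : z0 + r < 2 * L * L + L := by omega
        have e : z0 + r - 2 * L * L = r + i.1 * k := by omega
        simp only [col, l1, l2, if_true, if_false, e]
        rw [Nat.add_mul_div_right _ _ hk, Nat.div_eq_of_lt hr, zero_add, Nat.mod_eq_of_lt hi]
      · ext
        have l1 : ¬ z0 + r + h < 2 * L * L := by omega
        have l2 : ¬ z0 + r + h < 2 * L * L + L := by omega
        simp only [col, l1, l2, if_false, hrj]
  · intro i
    have hi := i.2
    set C := 2 * L * L + L with hC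
    have h1 := Nat.mod_lt C hk
    have h2 := Nat.div_add_mod C k
    refine ⟨i.1 + k * (C / k + 1), by rw [mul_add]; omega, by rw [mul_add]; omega, ?_⟩
    ext
    have l1 : ¬ i.1 + k * (C / k + 1) < 2 * L * L := by rw [mul_add]; omega
    have l2 : ¬ i.1 + k * (C / k + 1) < C := by rw [mul_add]; omega
    simp only [col, l1, ← hC, l2, if_false]
    rw [Nat.add_mul_mod_self_left, Nat.mod_eq_of_lt hi]

lemma exists_colouring (I : Type*) [Finite I] [Nonempty I] :
    ∃ (M C : ℕ) (c : ℕ → I), 0 < C ∧ Even M ∧ C ≤ M ∧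
      (∀ i j, ∀ h, 0 < h → h + C ≤ M → ∃ z, z + h < M ∧ c z = i ∧ c (z + h) = j) ∧
      ∀ i, ∃ z, C ≤ z ∧ z + C ≤ M ∧ c z = i := by
  obtain ⟨k, ⟨e⟩⟩ := Finite.exists_equiv_fin I
  have hk : 0 < k := (e (Classical.arbitrary I)).pos
  obtain ⟨M, C, c, h1, h2, h3, h4, h5⟩ := exists_colouring_fin k hk
  refine ⟨M, C, fun z => e.symm (c z), h1, h2, h3, fun i j h h0 hh => ?_, fun i => ?_⟩
  · obtain ⟨z, hz, hi, hj⟩ := h4 (e i) (e j) h h0 hh
    exact ⟨z, hz, by simp [hi], by simp [hj]⟩
  · obtain ⟨z, hz, hz', hi⟩ := h5 (e i)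
    exact ⟨z, hz, hz', by simp [hi]⟩

variable {G : Type*} [AddCommGroup G]

lemma concat_core {I : Type*} [Finite I] [Nonempty I] (F : I → Finset (G × ℤ)) :
    ∃ (M : ℕ) (F' : Finset (G × ℤ)), 0 < M ∧ Even M ∧
      (∀ A, (∀ m, IsTiling A (F m : Set (G × ℤ))) →
        IsTiling ((fun a : G × ℤ => (a.1, M * a.2)) '' A) (F' : Set (G × ℤ))) ∧
      ∀ A, IsTiling A (F' : Set (G × ℤ)) →
        (∀ g, ∃ r : ℤ, ∀ m y, (∃ a ∈ A, ∃ f ∈ F m, a.1 + f.1 = g ∧ a.2 + M * f.2 = y) ↔
          (M : ℤ) ∣ y - r) ∧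
        ∀ m, ∀ a ∈ A, ∀ f ∈ F m, ∀ a' ∈ A, ∀ f' ∈ F m, a.1 + f.1 = a'.1 + f'.1 →
          a.2 + M * f.2 = a'.2 + M * f'.2 → a = a' := by
  classical
  obtain ⟨M, C, c, hC, hM, hCM, hpair, hmid⟩ := exists_colouring I
  have hM0 : 0 < M := by omega
  let F' : Finset (G × ℤ) := (Finset.range M).biUnion fun z =>
    (F (c z)).image fun f => (f.1, M * f.2 + z)
  have hF' : ∀ x, x ∈ (F' : Set (G × ℤ)) ↔
      ∃ z < M, ∃ f ∈ F (c z), (f.1, M * f.2 + (z : ℤ)) = x := by
    intro x; simp [F']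
  have hres : ∀ (u u' : ℤ) (z z' : ℕ), z < M → z' < M → M * u + z = M * u' + z' → z = z' := by
    intro u u' z z' hz hz' e
    have h1 : (M : ℤ) ∣ (z : ℤ) - z' := ⟨u' - u, by linear_combination e⟩
    have := Int.eq_zero_of_abs_lt_dvd h1 (by rw [abs_lt]; constructor <;> omega)
    omega
  refine ⟨M, F', hM0, hM, fun A hA => ?_, fun A hA => ?_⟩
  · refine isTiling_iff.2 ⟨fun g => ?_, ?_⟩
    · have hz : (g.2 % M).toNat < M := by
        have := Int.emod_lt_of_pos g.2 (show (0 : ℤ) < M by omega)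
        have := Int.emod_nonneg g.2 (show (M : ℤ) ≠ 0 by omega)
        omega
      obtain ⟨a, ha, f, hf, e⟩ := (isTiling_iff.1 (hA (c (g.2 % M).toNat))).1 (g.1, g.2 / M)
      refine ⟨_, ⟨a, ha, rfl⟩, _, (hF' _).2 ⟨_, hz, f, hf, rfl⟩, ?_⟩
      have e1 := congrArg Prod.fst e
      have e2 := congrArg Prod.snd e
      simp only [Prod.fst_add, Prod.snd_add] at e1 e2
      ext
      · simpa using e1
      · have := Int.emod_nonneg g.2 (show (M : ℤ) ≠ 0 by omega)
        have h2 := Int.mul_ediv_add_emod g.2 M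
        simp only [Prod.snd_add, Int.toNat_of_nonneg this]
        rw [← e2] at h2
        linear_combination h2
    · rintro _ ⟨a, ha, rfl⟩ x hx _ ⟨a', ha', rfl⟩ x' hx' e
      obtain ⟨z, hz, f, hf, rfl⟩ := (hF' _).1 hx
      obtain ⟨z', hz', f', hf', rfl⟩ := (hF' _).1 hx'
      simp only [Prod.mk_add_mk, Prod.mk.injEq] at e
      have h1 : z = z' := hres (a.2 + f.2) (a'.2 + f'.2) z z' hz hz' (by linear_combination e.2)
      subst h1
      have h2 : a.2 + f.2 = a'.2 + f'.2 := by
        apply mul_left_cancel₀ (show (M : ℤ) ≠ 0 by omega)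
        linear_combination e.2
      rw [(isTiling_iff.1 (hA (c z))).2 a ha f hf a' ha' f' hf' (Prod.ext e.1 h2)]
  · rw [isTiling_iff] at hA
    have huniq : ∀ a ∈ A, ∀ z < M, ∀ f ∈ F (c z), ∀ a' ∈ A, ∀ z' < M, ∀ f' ∈ F (c z'),
        a.1 + f.1 = a'.1 + f'.1 → a.2 + M * f.2 + z = a'.2 + M * f'.2 + z' → a = a' ∧ z = z' := by
      intro a ha z hz f hf a' ha' z' hz' f' hf' e1 e2
      have := hA.2 a ha _ ((hF' _).2 ⟨z, hz, f, hf, rfl⟩) a' ha' _ ((hF' _).2 ⟨z', hz', f', hf', rfl⟩)
        (Prod.ext e1 (by simp only [Prod.snd_add]; linear_combination e2))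
      subst this
      exact ⟨rfl, hres f.2 f'.2 z z' hz hz' (by linear_combination e2)⟩
    refine ⟨fun g => ?_, fun m a ha f hf a' ha' f' hf' e1 e2 => ?_⟩
    swap
    · obtain ⟨z, hz, hz', rfl⟩ := hmid m
      exact (huniq a ha z (by omega) f hf a' ha' z (by omega) f' hf' e1 (by rw [e2])).1
    let P : I → ℤ → Prop := fun m y => ∃ a ∈ A, ∃ f ∈ F m, a.1 + f.1 = g ∧ a.2 + M * f.2 = y
    have hcover : ∀ y : ℤ, ∃ z < M, P (c z) (y - z) := by
      intro y
      obtain ⟨a, ha, x, hx, e⟩ := hA.1 (g, y)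
      obtain ⟨z, hz, f, hf, rfl⟩ := (hF' _).1 hx
      have e1 := congrArg Prod.fst e
      have e2 := congrArg Prod.snd e
      simp only [Prod.fst_add, Prod.snd_add] at e1 e2
      exact ⟨z, hz, a, ha, f, hf, e1, by linear_combination e2⟩
    have hPu : ∀ z < M, ∀ z' < M, ∀ y y' : ℤ, P (c z) y → P (c z') y' → y + z = y' + z' → z = z' := by
      rintro z hz z' hz' y y' ⟨a, ha, f, hf, e1, e2⟩ ⟨a', ha', f', hf', e1', e2'⟩ e
      exact (huniq a ha z hz f hf a' ha' z' hz' f' hf' (e1.trans e1'.symm) (by rw [e2, e2', e])).2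
    have hfar : ∀ m m' y y', P m y → P m' y' → y < y' → y' - y + C ≤ M → False := by
      intro m m' y y' h1 h2 hlt hle
      obtain ⟨z, hz, rfl, rfl⟩ := hpair m' m (y' - y).toNat (by omega) (by omega)
      have := hPu _ hz z (by omega) y y' h1 h2 (by push_cast; omega)
      omega
    have hall : ∀ m y, P m y → ∀ m', P m' y := by
      intro m y h m'
      obtain ⟨z0, h1, h2, rfl⟩ := hmid m'
      obtain ⟨z, hz, hP⟩ := hcover (y + z0)
      rcases lt_trichotomy z z0 with hlt | heq | hlt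
      · exact (hfar _ _ _ _ h hP (by omega) (by omega)).elim
      · subst heq
        simpa using hP
      · exact (hfar _ _ _ _ hP h (by omega) (by omega)).elim
    have hnear : ∀ m m' y y', P m y → P m' y' → y ≤ y' → y' < y + M → y' = y := by
      intro m m' y y' h1 h2 hle hlt
      have := hPu (y' - y).toNat (by omega) 0 hM0 y y' (hall _ _ h1 _) (hall _ _ h2 _) (by omega)
      omega
    have hup : ∀ m y, P m y → P m (y + M) := by
      intro m y h
      obtain ⟨z, hz, hP⟩ := hcover (y + M)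
      by_cases hz0 : z = 0
      · subst hz0
        exact hall _ _ (by simpa using hP) _
      · have := hnear _ _ _ _ h hP (by omega) (by omega)
        omega
    have hdown : ∀ m y, P m y → P m (y - M) := by
      intro m y h
      obtain ⟨z, hz, hP⟩ := hcover (y - 1)
      by_cases hz0 : z + 1 = M
      · have : y - 1 - z = y - M := by omega
        exact hall _ _ (this ▸ hP) _
      · have := hnear _ _ _ _ hP h (by omega) (by omega)
        omega
    have hmul : ∀ m y, P m y → ∀ q : ℤ, P m (y + M * q) := by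
      intro m y h q
      induction q using Int.induction_on with
      | zero => simpa using h
      | succ q ih =>
        have := hup _ _ ih
        have e : y + M * (q : ℤ) + M = y + M * ((q : ℤ) + 1) := by ring
        rwa [e] at this
      | pred q ih =>
        have := hdown _ _ ih
        have e : y + M * (-(q : ℤ)) - M = y + M * (-(q : ℤ) - 1) := by ring
        rwa [e] at this
    obtain ⟨z, hz, hP⟩ := hcover 0
    refine ⟨0 - z, fun m y => ⟨fun h => ?_, ?_⟩⟩
    · have h1 := hmul _ _ hP ((y - (0 - z)) / M)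
      have h2 := Int.mul_ediv_add_emod (y - (0 - z)) M
      have h3 := Int.emod_lt_of_pos (y - (0 - z)) (show (0 : ℤ) < M by omega)
      have h4 := Int.emod_nonneg (y - (0 - z)) (show (M : ℤ) ≠ 0 by omega)
      have := hnear _ _ _ _ h1 h (by omega) (by omega)
      exact ⟨(y - (0 - z)) / M, by omega⟩
    · rintro ⟨q, hq⟩
      have := hmul _ _ (hall _ _ hP m) q
      have e : 0 - (z : ℤ) + M * q = y := by omega
      rwa [e] at this

theorem concat (T : Set G) (hT : T.Finite) (hgen : AddSubgroup.closure T = ⊤)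
    (S : Set (Finset (G × ℤ))) (hS : S.Finite) (hne : S.Nonempty) :
    ∃ (M : ℕ) (F' : Finset (G × ℤ)), 0 < M ∧ Even M ∧
      (∀ A, (∀ F ∈ S, IsTiling A (F : Set (G × ℤ))) →
        IsTiling ((fun a : G × ℤ => (a.1, M * a.2)) '' A) (F' : Set (G × ℤ))) ∧
      ∀ A', IsTiling A' (F' : Set (G × ℤ)) → ∃ r : ℤ, ∃ A, (∀ F ∈ S, IsTiling A (F : Set (G × ℤ))) ∧
        A' = (fun a : G × ℤ => (a.1, M * a.2 + r)) '' A := by
  classical
  obtain ⟨F0, hF0⟩ := hne
  have := hS.to_subtype
  have := hT.to_subtype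
  have : Nonempty (S ⊕ T) := ⟨Sum.inl ⟨F0, hF0⟩⟩
  let F : S ⊕ T → Finset (G × ℤ) := Sum.elim (fun F => F.1) fun t => F0.image fun f => f + (t.1, 0)
  obtain ⟨M, F', hM0, hM, h1, h2⟩ := concat_core F
  refine ⟨M, F', hM0, hM, fun A hA => h1 A ?_, fun A' hA' => ?_⟩
  · rintro (F | t)
    · exact hA _ F.2
    · have h0 := isTiling_iff.1 (hA _ hF0)
      refine isTiling_iff.2 ⟨fun g => ?_, ?_⟩
      · obtain ⟨a, ha, f, hf, e⟩ := h0.1 (g - (t.1, 0))
        refine ⟨a, ha, f + (t.1, 0), Finset.mem_image_of_mem _ hf, ?_⟩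
        rw [← add_assoc, e]; abel
      · intro a ha x hx a' ha' x' hx' e
        simp only [F, Sum.elim_inr, Finset.coe_image, Set.mem_image] at hx hx'
        obtain ⟨f, hf, rfl⟩ := hx
        obtain ⟨f', hf', rfl⟩ := hx'
        rw [← add_assoc, ← add_assoc] at e
        exact h0.2 a ha f hf a' ha' f' hf' (add_right_cancel e)
  · obtain ⟨h3, h4⟩ := h2 A' hA'
    choose r hr using h3
    have hstep : ∀ t ∈ T, ∀ g, (M : ℤ) ∣ r (g + t) - r g := by
      intro t ht g
      obtain ⟨a, ha, f, hf, e1, e2⟩ := (hr g (Sum.inl ⟨F0, hF0⟩) (r g)).2 (by simp)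
      have := (hr (g + t) (Sum.inr ⟨t, ht⟩) (r g)).1
        ⟨a, ha, f + (t, 0), Finset.mem_image_of_mem _ hf, by simp [← e1, add_assoc], by simpa using e2⟩
      rw [← neg_sub]
      exact this.neg_right
    have hconst : ∀ h, ∀ g, (M : ℤ) ∣ r (g + h) - r g := by
      intro h
      have hh : h ∈ AddSubgroup.closure T := hgen ▸ AddSubgroup.mem_top h
      induction hh using AddSubgroup.closure_induction with
      | mem t ht => exact hstep t ht
      | zero => simp
      | add x y _ _ hx hy =>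
        intro g
        have := (hy (g + x)).add (hx g)
        rw [add_assoc] at this
        simpa using this
      | neg x _ hx =>
        intro g
        have := (hx (g + -x)).neg_right
        simpa using this
    have hr0 : ∀ g m y, (∃ a ∈ A', ∃ f ∈ F m, a.1 + f.1 = g ∧ a.2 + M * f.2 = y) ↔
        (M : ℤ) ∣ y - r 0 := by
      intro g m y
      rw [hr g m y]
      have h5 := hconst g 0
      rw [zero_add] at h5
      constructor
      · intro h; simpa using h.add h5
      · intro h; simpa using h.sub h5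
    have hdiv : ∀ a ∈ A', (M : ℤ) ∣ a.2 - r 0 := by
      intro a ha
      obtain ⟨-, -, f, hf, -⟩ := (hr0 0 (Sum.inl ⟨F0, hF0⟩) (r 0)).2 (by simp)
      obtain ⟨q, hq⟩ := (hr0 _ (Sum.inl ⟨F0, hF0⟩) _).1 ⟨a, ha, f, hf, rfl, rfl⟩
      exact ⟨q - f.2, by linear_combination hq⟩
    have hM' : (M : ℤ) ≠ 0 := by omega
    refine ⟨r 0, {a | (a.1, M * a.2 + r 0) ∈ A'}, fun Fm hFm => ?_, ?_⟩
    · refine isTiling_iff.2 ⟨fun g => ?_, ?_⟩
      · obtain ⟨a, ha, f, hf, e1, e2⟩ := (hr0 g.1 (Sum.inl ⟨Fm, hFm⟩) (M * g.2 + r 0)).2 (by simp)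
        refine ⟨(a.1, g.2 - f.2), ?_, f, hf, Prod.ext e1 (by simp)⟩
        have : ((a.1, M * (g.2 - f.2) + r 0) : G × ℤ) = a := Prod.ext rfl (by
          simp only; linear_combination -e2)
        simp only [Set.mem_ofPred_eq, this, ha]
      · intro a ha f hf a' ha' f' hf' e
        have e1 := congrArg Prod.fst e
        have e2 := congrArg Prod.snd e
        simp only [Prod.fst_add, Prod.snd_add] at e1 e2
        have := h4 (Sum.inl ⟨Fm, hFm⟩) _ ha f hf _ ha' f' hf' e1 (by
          simp only; linear_combination (M : ℤ) * e2)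
        simp only [Prod.mk.injEq, add_left_inj] at this
        exact Prod.ext this.1 (mul_left_cancel₀ hM' this.2)
    · ext a
      constructor
      · intro ha
        obtain ⟨q, hq⟩ := hdiv a ha
        have : ((a.1, M * q + r 0) : G × ℤ) = a := Prod.ext rfl (by
          simp only; linear_combination -hq)
        exact ⟨(a.1, q), by simp only [Set.mem_ofPred_eq, this, ha], this⟩
      · rintro ⟨a, ha, rfl⟩
        exact ha

lemma nper_of_scaled {A : Set (G × ℤ)} {M : ℕ} (hM : 0 < M) {r : ℤ}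
    (h : NPer ((fun a : G × ℤ => (a.1, M * a.2 + r)) '' A)) : NPer A := by
  obtain ⟨N, hN, hp⟩ := h
  refine ⟨N, hN, fun g a ha => ?_⟩
  obtain ⟨a', ha', e⟩ := hp (g.1, M * g.2) _ ⟨a, ha, rfl⟩
  simp only [Prod.smul_mk, Prod.mk_add_mk, Prod.mk.injEq, nsmul_eq_mul] at e
  have : a + N • g = a' := by
    refine Prod.ext e.1.symm ?_
    apply mul_left_cancel₀ (show (M : ℤ) ≠ 0 by omega)
    simp only [Prod.snd_add, Prod.smul_snd, nsmul_eq_mul]
    linear_combination -e.2
  rwa [this]

theorem AperSys.tile (T : Set G) (hT : T.Finite) (hgen : AddSubgroup.closure T = ⊤)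
    (h : AperSys (G × ℤ)) : ∃ F : Finset (G × ℤ), AperTile F := by
  obtain ⟨S, hS, ⟨A, hA⟩, hn⟩ := h
  have hne : S.Nonempty := by
    by_contra h0
    rw [Set.not_nonempty_iff_eq_empty] at h0
    exact hn Set.univ (by simp [h0]) ⟨1, one_pos, by simp⟩
  obtain ⟨M, F', hM0, -, h1, h2⟩ := concat T hT hgen S hS hne
  refine ⟨F', ⟨_, h1 A hA⟩, fun A' hA' hper => ?_⟩
  obtain ⟨r, B, hB, rfl⟩ := h2 A' hA'
  exact hn B hB (nper_of_scaled hM0 hper)

end Vale.Agent.P043
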