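import Mathlib.MeasureTheory.Measure.Lebesgue.Basic
import Mathlib.Algebra.Module.ZLattice.Basic
import Mathlib.GroupTheory.Index

/-! Definitions used in the statements about translational tilings. -/

namespace Vale.Agent.P043

/-- `A ⊕ F = G`: every `g` has a unique expression `g = a + f` with `a ∈ A`, `f ∈ F`. -/
def IsTiling {G : Type*} [AddCommGroup G] (A F : Set G) : Prop :=
  ∀ g : G, ∃! p : G × G, p.1 ∈ A ∧ p.2 ∈ F ∧ p.1 + p.2 = g

/-- `A + h = A` for all `h` in some subgroup of finite index. -/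
def IsPeriodic {G : Type*} [AddCommGroup G] (A : Set G) : Prop :=
  ∃ H : AddSubgroup G, H.FiniteIndex ∧ ∀ h ∈ H, (fun a => a + h) '' A = A

/-- The translates `Ω + a`, `a ∈ A`, cover `ℝ^d` up to a null set and pairwise
intersect in null sets. -/
def IsMeasTiling {d : ℕ} (A Ω : Set (Fin d → ℝ)) : Prop :=
  MeasureTheory.volume (⋃ a ∈ A, (fun x => x + a) '' Ω)ᶜ = 0 ∧
    ∀ a ∈ A, ∀ a' ∈ A, a ≠ a' →
      MeasureTheory.volume ((fun x => x + a) '' Ω ∩ (fun x => x + a') '' Ω) = 0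

/-- `A` is invariant under a lattice of rank `d` in `ℝ^d`. -/
def IsLatticePeriodic {d : ℕ} (A : Set (Fin d → ℝ)) : Prop :=
  ∃ (L : Submodule ℤ (Fin d → ℝ)) (_ : DiscreteTopology L),
    IsZLattice ℝ L ∧ ∀ h ∈ L, (fun a => a + h) '' A = A

end Vale.Agent.P043
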