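import Mathlib.NumberTheory.Padics.PadicVal.Basic
import Mathlib.Tactic

/-! A small 2-adic Sudoku puzzle on `ℤ × ℤ` with a solution but no periodic solution. -/

namespace Vale.Agent.P043

/-- variables: twelve digit bits and three parity bits -/
abbrev SV := (Fin 3 × Fin 4) ⊕ Fin 3

/-- direction of invariance of the digit bit `(c, j)` -/
def dirW (c : Fin 3) (j : ℤ) : ℤ × ℤ :=
  if c = 0 then (1, -2 * j) else if c = 1 then (-2 * j, 1) else (-(2 * j + 1), 1)

/-- the linear form attached to the digit bit `(c, j)` -/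
def formL (c : Fin 3) (j : ℤ) (y : ℤ × ℤ) : ℤ :=
  if c = 0 then y.2 + 2 * j * y.1 else if c = 1 then y.1 + 2 * j * y.2 else y.1 + (2 * j + 1) * y.2

def sW : SV → ℤ × ℤ
  | Sum.inl (c, j) => dirW c (j : ℕ)
  | Sum.inr c => dirW c 0

def Deep (p : SV → Bool) (c : Fin 3) : Prop :=
  (∀ c' c'' : Fin 3, c' ≠ c → c'' ≠ c → ∀ j j', p (Sum.inl (c', j)) = p (Sum.inl (c'', j'))) ∧
    ∃ j j', p (Sum.inl (c, j)) ≠ p (Sum.inl (c, j'))

def SOmega : Set (SV → Bool) :=
  {p | ∃ c, Deep p c ∧ p (Sum.inr c) = false ∧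
    ∀ c' c'' : Fin 3, c' ≠ c → c'' ≠ c → p (Sum.inr c') = p (Sum.inr c'')}

lemma Deep.unique {p : SV → Bool} {c c' : Fin 3} (h : Deep p c) (h' : Deep p c') : c = c' := by
  by_contra hne
  obtain ⟨j, j', hj⟩ := h'.2
  exact hj (h.1 c' c' (Ne.symm hne) (Ne.symm hne) j j')

lemma inv_zsmul {β : Type*} (f : ℤ × ℤ → β) (w : ℤ × ℤ) (h : ∀ x, f (x + w) = f x) (n : ℤ) :
    ∀ x, f (x + n • w) = f x := by
  induction n using Int.induction_on with
  | zero => intro x; simp
  | succ n ih =>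
    intro x
    have : x + ((n : ℤ) + 1) • w = (x + (n : ℤ) • w) + w := by rw [add_smul, one_smul, add_assoc]
    rw [this, h, ih]
  | pred n ih =>
    intro x
    have : x + (-(n : ℤ)) • w = (x + (-(n : ℤ) - 1) • w) + w := by
      rw [sub_smul, one_smul]; abel
    rw [← ih x, this, h]

/-- A function invariant under the basic directions of two different classes is constant. -/
lemma const_of_two {β : Type*} (f : ℤ × ℤ → β) (c' c'' : Fin 3) (hne : c' ≠ c'')
    (h1 : ∀ x, f (x + dirW c' 0) = f x) (h2 : ∀ x, f (x + dirW c'' 0) = f x) (x : ℤ × ℤ) :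
    f x = f 0 := by
  have key : ∃ m n : ℤ, x = 0 + m • dirW c' 0 + n • dirW c'' 0 := by
    obtain ⟨a, b⟩ := x
    fin_cases c' <;> fin_cases c'' <;> simp [dirW] at hne ⊢
    · exact ⟨a + b, by ring⟩
    · exact ⟨a + b, -a, by ring, by ring⟩
    · exact ⟨a + b, by ring⟩
    · exact ⟨-a, by ring, a + b, by ring⟩
  obtain ⟨m, n, rfl⟩ := key
  rw [inv_zsmul f _ h2, inv_zsmul f _ h1]

lemma other_two (c : Fin 3) : ∃ c' c'' : Fin 3, c' ≠ c ∧ c'' ≠ c ∧ c' ≠ c'' := by
  revert c; decide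

/-- If the deep class is constant, all digits outside of it are globally constant. -/
lemma shallow_const (b : ℤ × ℤ → SV → Bool) (hw : ∀ x v, b (x + sW v) v = b x v) (c : Fin 3)
    (hd : ∀ x, Deep (b x) c) (c' : Fin 3) (hc' : c' ≠ c) (j : Fin 4) (x : ℤ × ℤ)
    (c'' : Fin 3) (hc'' : c'' ≠ c) (j' : Fin 4) :
    b x (Sum.inl (c', j)) = b 0 (Sum.inl (c'', j')) := by
  obtain ⟨c1, c2, h1, h2, h12⟩ := other_two c
  have := const_of_two (fun x => b x (Sum.inl (c1, 0))) c1 c2 h12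
    (fun x => by simpa [sW] using hw x (Sum.inl (c1, 0)))
    (fun x => by
      have e1 := (hd (x + dirW c2 0)).1 c1 c2 h1 h2 0 0
      have e2 := (hd x).1 c1 c2 h1 h2 0 0
      have e3 := hw x (Sum.inl (c2, 0))
      simp only [sW, Fin.val_zero, Nat.cast_zero] at e3
      simp only [e1, e2, e3]) x
  rw [(hd x).1 c' c1 hc' h1 j 0, (hd 0).1 c'' c1 hc'' h1 j' 0]
  exact this

lemma dirW_mod (c : Fin 3) (j : ℤ) : ∃ g : ℤ × ℤ, dirW c j = dirW c 0 + (2 : ℤ) • g := by
  fin_cases c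
  · exact ⟨(0, -j), by simp [dirW]⟩
  · exact ⟨(-j, 0), by simp [dirW]⟩
  · exact ⟨(-j, 0), by simp [dirW]⟩

set_option synthInstance.maxSize 1000 in
lemma four_cosets : ∀ (p q r t : Fin 3),
    (p = 0 → q = 0) ∧ (p = 1 → r = 1) ∧ (p = 2 → t = 2) →
      (q = 0 → p = 0) ∧ (q = 1 → t = 1) ∧ (q = 2 → r = 2) →
        (r = 0 → t = 0) ∧ (r = 1 → p = 1) ∧ (r = 2 → q = 2) →
          (t = 0 → r = 0) ∧ (t = 1 → q = 1) ∧ (t = 2 → p = 2) → q = p ∧ r = p ∧ t = p := by
  decide

lemma deep_const_two_pow (s : ℕ) : ∀ (b : ℤ × ℤ → SV → Bool), (∀ x v, b (x + sW v) v = b x v) →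
    (∀ x, ∃ c, Deep (b x) c) → (∀ x g, b (x + ((2 : ℤ) ^ s) • g) = b x) →
    ∃ c, ∀ x, Deep (b x) c := by
  induction s with
  | zero =>
    intro b _ hd hp
    obtain ⟨c, hc⟩ := hd 0
    refine ⟨c, fun x => ?_⟩
    have := hp 0 x
    simp only [pow_zero, one_smul, zero_add] at this
    rw [this]; exact hc
  | succ s ih =>
    intro b hw hd hp
    have hsub : ∀ x0 : ℤ × ℤ, ∃ c, ∀ x, Deep (b (x0 + (2 : ℤ) • x)) c := by
      intro x0
      apply ih (fun x => b (x0 + (2 : ℤ) • x))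
      · intro x v
        have : x0 + (2 : ℤ) • (x + sW v) = x0 + (2 : ℤ) • x + sW v + sW v := by
          rw [smul_add, two_smul ℤ (sW v)]; abel
        rw [this, hw, hw]
      · intro x; exact hd _
      · intro x g
        have : x0 + (2 : ℤ) • (x + ((2 : ℤ) ^ s) • g) = x0 + (2 : ℤ) • x + ((2 : ℤ) ^ (s + 1)) • g := by
          rw [smul_add, smul_smul, pow_succ']; abel
        rw [this, hp]
    choose δ hδ using hsub
    have hδ0 : ∀ x, Deep (b x) (δ x) := fun x => by simpa using hδ x 0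
    have hper : ∀ x g, δ (x + (2 : ℤ) • g) = δ x := fun x g =>
      (hδ0 _).unique (hδ x g)
    have hstep : ∀ x, δ (x + dirW (δ x) 0) = δ x := by
      intro x
      by_contra hne
      set x1 := x + dirW (δ x) 0 with hx1
      have hw' : ∀ y v, b (x1 + (2 : ℤ) • (y + sW v)) v = b (x1 + (2 : ℤ) • y) v := by
        intro y v
        have : x1 + (2 : ℤ) • (y + sW v) = x1 + (2 : ℤ) • y + sW v + sW v := by
          rw [smul_add, two_smul ℤ (sW v)]; abel
        rw [this, hw, hw]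
      have hc := shallow_const (fun y => b (x1 + (2 : ℤ) • y)) hw' (δ x1) (hδ x1) (δ x)
        (Ne.symm hne)
      obtain ⟨j, j', hj⟩ := (hδ0 x).2
      apply hj
      have hval : ∀ j : Fin 4, b x (Sum.inl (δ x, j)) = b (x1 + (2 : ℤ) • (0 : ℤ × ℤ)) (Sum.inl (δ x, 0)) := by
        intro j
        obtain ⟨g, hg⟩ := dirW_mod (δ x) (j : ℕ)
        rw [← hw x (Sum.inl (δ x, j))]
        have : x + sW (Sum.inl (δ x, j)) = x1 + (2 : ℤ) • g := by
          simp only [sW, hx1, hg]; abel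
        rw [this]
        exact hc j g (δ x) (Ne.symm hne) 0
      rw [hval j, hval j']
    have hred : ∀ a b' : ℤ, δ (a, b') = δ (a % 2, b' % 2) := by
      intro a b'
      rw [← hper (a % 2, b' % 2) (a / 2, b' / 2)]
      congr 1
      ext <;> simp <;> omega
    have hstep' : ∀ a b' : ℤ, ∀ c, δ (a, b') = c →
        δ ((a + (dirW c 0).1) % 2, (b' + (dirW c 0).2) % 2) = c := by
      intro a b' c hc
      have := hstep (a, b')
      rw [hc] at this
      rw [← hred]; exact this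
    have hall : δ (1, 0) = δ (0, 0) ∧ δ (0, 1) = δ (0, 0) ∧ δ (1, 1) = δ (0, 0) := by
      have h00 := hstep' 0 0
      have h10 := hstep' 1 0
      have h01 := hstep' 0 1
      have h11 := hstep' 1 1
      have d0 : dirW 0 0 = (1, 0) := by decide
      have d1 : dirW 1 0 = (0, 1) := by decide
      have d2 : dirW 2 0 = (-1, 1) := by decide
      simp only [Fin.forall_fin_succ, Fin.succ_zero_eq_one, Fin.succ_one_eq_two, d0, d1, d2]
        at h00 h10 h01 h11
      norm_num at h00 h10 h01 h11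
      exact four_cosets _ _ _ _ h00 h10 h01 h11
    refine ⟨δ (0, 0), fun x => ?_⟩
    have : δ x = δ (0, 0) := by
      obtain ⟨a, b'⟩ := x
      rw [hred]
      rcases Int.emod_two_eq_zero_or_one a with ha | ha <;>
        rcases Int.emod_two_eq_zero_or_one b' with hb | hb <;> rw [ha, hb]
      · exact hall.2.1
      · exact hall.1
      · exact hall.2.2
    rw [← this]; exact hδ0 x

/-- Solutions of the puzzle. -/
def SSol (b : ℤ × ℤ → SV → Bool) : Prop :=
  (∀ x v, b (x + sW v) v = b x v) ∧ (∀ x, b x ∈ SOmega) ∧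
    ∀ x, b (x + (0, 1)) (Sum.inr 0) = !(b x (Sum.inr 0))

lemma not_two_pow_periodic (b : ℤ × ℤ → SV → Bool) (hb : SSol b) (s : ℕ)
    (hp : ∀ x g, b (x + ((2 : ℤ) ^ s) • g) = b x) : False := by
  obtain ⟨hw, hΩ, hm⟩ := hb
  obtain ⟨c, hc⟩ := deep_const_two_pow s b hw (fun x => (hΩ x).imp fun c h => h.1) hp
  have hz : ∀ x, b x (Sum.inr c) = false ∧
      ∀ c' c'' : Fin 3, c' ≠ c → c'' ≠ c → b x (Sum.inr c') = b x (Sum.inr c'') := by
    intro x
    obtain ⟨c1, h1, h2, h3⟩ := hΩ x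
    have := h1.unique (hc x)
    subst this
    exact ⟨h2, h3⟩
  have key : b (0 + (0, 1)) (Sum.inr 0) = b 0 (Sum.inr 0) := by
    by_cases h0 : c = 0
    · subst h0
      rw [(hz _).1, (hz _).1]
    · obtain ⟨c1, c2, h1, h2, h12⟩ := other_two c
      have := const_of_two (fun x => b x (Sum.inr c1)) c1 c2 h12
        (fun x => by simpa [sW] using hw x (Sum.inr c1))
        (fun x => by
          have e1 := (hz (x + dirW c2 0)).2 c1 c2 h1 h2
          have e2 := (hz x).2 c1 c2 h1 h2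
          have e3 := hw x (Sum.inr c2)
          simp only [sW] at e3
          simp only [e1, e2, e3]) (0 + (0, 1))
      rw [(hz _).2 0 c1 (Ne.symm h0) h1, (hz 0).2 0 c1 (Ne.symm h0) h1]
      exact this
  rw [hm] at key
  revert key
  cases b 0 (Sum.inr 0) <;> simp

theorem not_periodic (b : ℤ × ℤ → SV → Bool) (hb : SSol b) (N : ℕ) (hN : 0 < N)
    (hp : ∀ x g, b (x + N • g) = b x) : False := by
  obtain ⟨s, r, hr, rfl⟩ := Nat.exists_eq_two_pow_mul_odd hN.ne'
  obtain ⟨hw, hΩ, hm⟩ := hb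
  apply not_two_pow_periodic (fun x => b ((r : ℤ) • x)) ⟨?_, fun x => hΩ _, ?_⟩ s
  · intro x g
    have : (r : ℤ) • (x + ((2 : ℤ) ^ s) • g) = (r : ℤ) • x + (2 ^ s * r) • g := by
      rw [smul_add, smul_smul, ← natCast_zsmul]
      push_cast
      rw [mul_comm]
    simp only [this, hp]
  · intro x v
    simp only [smul_add]
    exact inv_zsmul (fun x => b x v) _ (fun x => hw x v) r _
  · intro x
    obtain ⟨k, rfl⟩ := hr
    have h2 : ∀ y, b (y + ((0 : ℤ), (2 : ℤ))) (Sum.inr 0) = b y (Sum.inr 0) := by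
      intro y
      have : y + ((0 : ℤ), (2 : ℤ)) = y + (0, 1) + (0, 1) := by
        rw [add_assoc]; rfl
      rw [this, hm, hm]; simp
    have := inv_zsmul (fun x => b x (Sum.inr 0)) _ h2 k (((2 * k + 1 : ℕ) : ℤ) • x + (0, 1))
    beta_reduce at this ⊢
    rw [← hm, ← this]
    congr 1
    ext <;> simp
    ring

/-- parity of the 2-adic valuation -/
def gbit (m : ℤ) : Bool := decide (Odd (padicValInt 2 m))

lemma gbit_pow (i : ℕ) (u : ℤ) (hu : Odd u) : gbit (2 ^ i * u) = decide (Odd i) := by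
  have hu0 : u ≠ 0 := by rintro rfl; simp at hu
  have h1 : padicValInt 2 u = 0 := by
    apply padicValInt.eq_zero_of_not_dvd
    rw [← Int.not_even_iff_odd, even_iff_two_dvd] at hu
    exact_mod_cast hu
  have h2 : padicValInt 2 ((2 : ℤ) ^ i) = i := by
    have : ((2 : ℤ) ^ i) = ((2 ^ i : ℕ) : ℤ) := by push_cast; rfl
    rw [this, padicValInt.of_nat, padicValNat.prime_pow]
  unfold gbit
  rw [padicValInt.mul (by positivity) hu0, h1, h2, add_zero]

lemma exists_two_pow_prim (n : ℕ) : ∀ a b : ℤ, a.natAbs + b.natAbs ≤ n → (a ≠ 0 ∨ b ≠ 0) →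
    ∃ i : ℕ, ∃ a' b' : ℤ, a = 2 ^ i * a' ∧ b = 2 ^ i * b' ∧ (a' % 2 = 1 ∨ b' % 2 = 1) := by
  induction n with
  | zero => intro a b h hab; omega
  | succ n ih =>
    intro a b h hab
    by_cases hodd : a % 2 = 1 ∨ b % 2 = 1
    · exact ⟨0, a, b, by simp, by simp, hodd⟩
    · obtain ⟨i, a', b', ha, hb, h'⟩ := ih (a / 2) (b / 2) (by omega) (by omega)
      refine ⟨i + 1, a', b', ?_, ?_, h'⟩
      · rw [pow_succ', mul_assoc, ← ha]; omega
      · rw [pow_succ', mul_assoc, ← hb]; omega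

def patt (y : ℤ × ℤ) : SV → Bool
  | Sum.inl (c, j) => gbit (formL c (j : ℕ) y)
  | Sum.inr c => decide (formL c 0 y % 2 = 1)

lemma exists_witness (P Q : ℤ) (hP : P % 2 = 0) (hQ : Q % 2 = 1) :
    ∃ j j' : Fin 4, ∃ u u' : ℤ, Odd u ∧ Odd u' ∧ P + 2 * ((j : ℕ) : ℤ) * Q = 2 * u ∧
      P + 2 * ((j' : ℕ) : ℤ) * Q = 4 * u' := by
  have h8 : P % 8 = 0 ∨ P % 8 = 2 ∨ P % 8 = 4 ∨ P % 8 = 6 := by omega
  have h4 : Q % 4 = 1 ∨ Q % 4 = 3 := by omega
  rcases h8 with h8 | h8 | h8 | h8 <;> rcases h4 with h4 | h4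
  · exact ⟨1, 2, (P + 2 * Q) / 2, (P + 4 * Q) / 4, Int.odd_iff.2 (by omega), Int.odd_iff.2 (by omega),
      by simp; omega, by simp; omega⟩
  · exact ⟨1, 2, (P + 2 * Q) / 2, (P + 4 * Q) / 4, Int.odd_iff.2 (by omega), Int.odd_iff.2 (by omega),
      by simp; omega, by simp; omega⟩
  · exact ⟨0, 1, P / 2, (P + 2 * Q) / 4, Int.odd_iff.2 (by omega), Int.odd_iff.2 (by omega),
      by simp; omega, by simp; omega⟩
  · exact ⟨0, 3, P / 2, (P + 6 * Q) / 4, Int.odd_iff.2 (by omega), Int.odd_iff.2 (by omega),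
      by simp; omega, by simp; omega⟩
  · exact ⟨1, 0, (P + 2 * Q) / 2, P / 4, Int.odd_iff.2 (by omega), Int.odd_iff.2 (by omega),
      by simp; omega, by simp; omega⟩
  · exact ⟨1, 0, (P + 2 * Q) / 2, P / 4, Int.odd_iff.2 (by omega), Int.odd_iff.2 (by omega),
      by simp; omega, by simp; omega⟩
  · exact ⟨0, 3, P / 2, (P + 6 * Q) / 4, Int.odd_iff.2 (by omega), Int.odd_iff.2 (by omega),
      by simp; omega, by simp; omega⟩
  · exact ⟨0, 1, P / 2, (P + 2 * Q) / 4, Int.odd_iff.2 (by omega), Int.odd_iff.2 (by omega),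
      by simp; omega, by simp; omega⟩

/-- second form of the basis attached to a class -/
def formQ (c : Fin 3) (y : ℤ × ℤ) : ℤ := if c = 0 then y.1 else y.2

lemma formL_eq (c : Fin 3) (j : ℤ) (y : ℤ × ℤ) :
    formL c j y = formL c 0 y + 2 * j * formQ c y := by
  fin_cases c <;> simp [formL, formQ]
  ring

lemma formL_smul (c : Fin 3) (j : ℤ) (k a b : ℤ) :
    formL c j (k * a, k * b) = k * formL c j (a, b) := by
  fin_cases c <;> simp [formL] <;> ring

lemma patt_mem (y : ℤ × ℤ) (hy : y ≠ 0) : patt y ∈ SOmega := by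
  obtain ⟨a, b⟩ := y
  have hab : a ≠ 0 ∨ b ≠ 0 := by
    by_contra h
    push Not at h
    exact hy (by simp [h.1, h.2])
  obtain ⟨i, a', b', rfl, rfl, h'⟩ := exists_two_pow_prim _ a b le_rfl hab
  have hcl : ∃ c : Fin 3, formL c 0 (a', b') % 2 = 0 ∧ formQ c (a', b') % 2 = 1 ∧
      ∀ c' : Fin 3, c' ≠ c → formL c' 0 (a', b') % 2 = 1 := by
    by_cases ha : a' % 2 = 1 <;> by_cases hb : b' % 2 = 1
    · refine ⟨2, by simp [formL]; omega, by simp [formQ]; omega, ?_⟩
      intro c' hc'; fin_cases c' <;> simp [formL] at hc' ⊢ <;> omega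
    · refine ⟨0, by simp [formL]; omega, by simp [formQ]; omega, ?_⟩
      intro c' hc'; fin_cases c' <;> simp [formL] at hc' ⊢ <;> omega
    · refine ⟨1, by simp [formL]; omega, by simp [formQ]; omega, ?_⟩
      intro c' hc'; fin_cases c' <;> simp [formL] at hc' ⊢ <;> omega
    · omega
  obtain ⟨c, hP, hQ, hother⟩ := hcl
  have hshallow : ∀ c' : Fin 3, c' ≠ c → ∀ j : Fin 4,
      patt (2 ^ i * a', 2 ^ i * b') (Sum.inl (c', j)) = decide (Odd i) := by
    intro c' hc' j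
    simp only [patt, formL_smul]
    apply gbit_pow
    rw [formL_eq, Int.odd_iff]
    have := hother c' hc'
    rw [mul_assoc]
    omega
  refine ⟨c, ⟨?_, ?_⟩, ?_, ?_⟩
  · intro c' c'' h1 h2 j j'
    rw [hshallow c' h1, hshallow c'' h2]
  · obtain ⟨j, j', u, u', hu, hu', e1, e2⟩ := exists_witness _ _ hP hQ
    refine ⟨j, j', ?_⟩
    simp only [patt, formL_smul]
    rw [formL_eq, e1, formL_eq c (j' : ℕ), e2]
    have f1 : (2 : ℤ) ^ i * (2 * u) = 2 ^ (i + 1) * u := by ring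
    have f2 : (2 : ℤ) ^ i * (4 * u') = 2 ^ (i + 2) * u' := by ring
    rw [f1, f2, gbit_pow _ _ hu, gbit_pow _ _ hu']
    rcases Nat.even_or_odd i with hi | hi
    · have h1 : Odd (i + 1) := hi.add_one
      have h2 : ¬ Odd (i + 2) := Nat.not_odd_iff_even.2 (hi.add (by decide))
      simp [h1, h2]
    · have h1 : ¬ Odd (i + 1) := Nat.not_odd_iff_even.2 hi.add_one
      have h2 : Odd (i + 2) := hi.add_even (by decide)
      simp [h1, h2]
  · simp only [patt, formL_smul, decide_eq_false_iff_not]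
    obtain ⟨k, hk⟩ : ∃ k, formL c 0 (a', b') = 2 * k := ⟨formL c 0 (a', b') / 2, by omega⟩
    rw [hk, mul_left_comm]
    omega
  · intro c' c'' h1 h2
    simp only [patt, formL_smul]
    have e1 := hother c' h1
    have e2 := hother c'' h2
    rw [Int.mul_emod, e1, Int.mul_emod _ (formL c'' 0 _), e2]

lemma formL_add_dir (c : Fin 3) (j : ℤ) (x : ℤ × ℤ) :
    formL c j ((3 : ℤ) • (x + dirW c j) + (1, 0)) = formL c j ((3 : ℤ) • x + (1, 0)) := by
  fin_cases c <;> simp [formL, dirW] <;> ring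

theorem exists_sol : ∃ b, SSol b := by
  refine ⟨fun x => patt ((3 : ℤ) • x + (1, 0)), ?_, ?_, ?_⟩
  · rintro x (⟨c, j⟩ | c)
    · simp only [patt, sW, formL_add_dir]
    · simp only [patt, sW, formL_add_dir]
  · intro x
    apply patt_mem
    intro h
    have := congrArg Prod.fst h
    simp at this
    omega
  · intro x
    simp only [patt, formL]
    simp
    by_cases h : (3 * x.2) % 2 = 1
    · simp [h]
      omega
    · simp [h]
      omega

lemma sW_zero : sW (Sum.inr 0) = (1, 0) := by simp [sW, dirW]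

end Vale.Agent.P043
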