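import Vale.Agent.P043.Basic
import Vale.Agent.P043.Sudoku
import Mathlib.Data.ZMod.QuotientRing
import Mathlib.Data.Nat.Nth
import Mathlib.NumberTheory.PrimeCounting

/-! Encoding of a Sudoku type puzzle as a system of tiling equations over a finite group of rank two. -/

namespace Vale.Agent.P043

section encode

variable {V : Type} [Fintype V] [DecidableEq V] (n : V → ℕ)

abbrev TT := (v : V) → ZMod (n v)
abbrev KK := TT n × (ZMod 4 × ZMod 4)
abbrev BB := (ℤ × ℤ) × TT n

def NV (v : V) : AddSubgroup (KK n) where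
  carrier := {k | k.1 v = 0}
  add_mem' := by intro a b ha hb; simp_all
  zero_mem' := by simp
  neg_mem' := by intro a ha; simp_all

def NL (p q : ZMod 4) : AddSubgroup (KK n) where
  carrier := {k | p * k.2.1 + q * k.2.2 = 0}
  add_mem' := by
    intro a b ha hb
    simp only [Set.mem_ofPred_eq, Prod.snd_add, Prod.fst_add] at *
    linear_combination ha + hb
  zero_mem' := by simp
  neg_mem' := by
    intro a ha
    simp only [Set.mem_ofPred_eq, Prod.snd_neg, Prod.fst_neg] at *
    linear_combination -ha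

omit [Fintype V] [DecidableEq V] in
@[simp] lemma mem_NV (v : V) (k : KK n) : k ∈ NV n v ↔ k.1 v = 0 := Iff.rfl

omit [Fintype V] [DecidableEq V] in
@[simp] lemma mem_NL (p q : ZMod 4) (k : KK n) : k ∈ NL n p q ↔ p * k.2.1 + q * k.2.2 = 0 :=
  Iff.rfl

/-- data of the unit clauses -/
def unitData (w : V → ℤ × ℤ) : Set (AddSubgroup (KK n) × BB n × KK n) :=
  Set.range (fun p : V × TT n => (NV n p.1, ((0, Function.update p.2 p.1 0) : BB n), (0 : KK n))) ∪
  Set.range (fun v : V => (NV n v, ((w v, 0) : BB n), (0 : KK n))) ∪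
  Set.range (fun t : TT n => (NL n 1 0, ((0, t) : BB n), (0 : KK n))) ∪
  Set.range (fun t : TT n => (NL n 0 1, ((0, t) : BB n), (0 : KK n))) ∪
  {(NL n 1 0, (((0, 1), 0) : BB n), (0 : KK n)), (NL n 0 1, (((1, -1), 0) : BB n), (0 : KK n)),
    (NL n 0 1, (((2, 0), 0) : BB n), (0 : KK n)),
    (NL n 2 0, (((1, 0), 0) : BB n), ((0, (1, 0)) : KK n)),
    (NL n 0 2, (((1, 0), 0) : BB n), ((0, (0, 1)) : KK n))}

def Units (w : V → ℤ × ℤ) (α : BB n → KK n) : Prop :=
  (∀ v t, t v = 0 → ∀ b, (α (b + (0, t))).1 v = (α b).1 v) ∧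
  (∀ v b, (α (b + (w v, 0))).1 v = (α b).1 v) ∧
  (∀ t b, (α (b + (0, t))).2.1 = (α b).2.1) ∧
  (∀ t b, (α (b + (0, t))).2.2 = (α b).2.2) ∧
  (∀ b, (α (b + ((0, 1), 0))).2.1 = (α b).2.1) ∧
  (∀ b, (α (b + ((1, -1), 0))).2.2 = (α b).2.2) ∧
  (∀ b, (α (b + ((2, 0), 0))).2.2 = (α b).2.2) ∧
  (∀ b, 2 * ((α (b + ((1, 0), 0))).2.1 - (α b).2.1 - 1) = 0) ∧
  (∀ b, 2 * ((α (b + ((1, 0), 0))).2.2 - (α b).2.2 - 1) = 0)

omit [Fintype V] in
lemma units_iff (w : V → ℤ × ℤ) (α : BB n → KK n) :
    (∀ u ∈ unitData n w, ∀ b, α (b + u.2.1) - α b - u.2.2 ∈ u.1) ↔ Units n w α := by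
  simp only [unitData, Units, Set.mem_union, or_imp, forall_and, Set.forall_mem_range,
    Set.mem_insert_iff, Set.mem_singleton_iff, forall_eq, mem_NV, mem_NL, and_assoc]
  simp only [sub_zero, Prod.fst_sub, Prod.snd_sub, Pi.sub_apply, one_mul, zero_mul, add_zero,
    zero_add, sub_eq_zero]
  refine and_congr_left' ⟨fun h v t ht b => ?_, fun h p b => ?_⟩
  · have := h (v, t) b
    simp only at this
    rwa [Function.update_eq_self_iff.2 ht.symm] at this
  · exact h p.1 _ (by simp) b

/-- the two clauses that link the marker to the variable `v0` -/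
noncomputable def linkEq (v0 : V) (s : Bool) : (KK n → BB n) × (KK n → KK n) :=
  clause (J := Bool) (fun j => !j) (fun j => if j then NV n v0 else NL n 1 (if s then -1 else 1))
    (fun j => if j then (0, Pi.single v0 1) else ((1, 0), 0))
    (fun j => if j then (Pi.single v0 (if s then 1 else 0), 0) else 0)

/-- the clause that forbids the pattern `c` -/
noncomputable def forbEq (ν : V → V) (c : V → Bool) : (KK n → BB n) × (KK n → KK n) :=
  clause ν (NV n) (fun v => (0, Pi.single v 1)) (fun v => (Pi.single v (if c v then 0 else 1), 0))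

lemma sat_link_iff [∀ v, NeZero (n v)] (w : V → ℤ × ℤ) (v0 : V) (hw0 : w v0 = (1, 0))
    (α : BB n → KK n) (hu : Units n w α) (s : Bool) :
    Sat α (linkEq n v0 s) ↔ ∀ b,
      ((α (b + ((1, 0), 0))).2.1 - (α b).2.1) +
          (if s then -1 else 1) * ((α (b + ((1, 0), 0))).2.2 - (α b).2.2) = 0 ∨
        (α (b + (0, Pi.single v0 1))).1 v0 - (α b).1 v0 = if s then 1 else 0 := by
  unfold linkEq
  rw [sat_clause_iff]
  · simp [sub_eq_zero]
  · rintro P ⟨j, hj⟩ hP i
    by_cases h : i = j
    · rwa [h]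
    · apply hP
      have : (!i) = j := by revert h; cases i <;> cases j <;> simp
      simpa only [this] using hj
  · rintro (_ | _) (_ | _) hij b
    · exact (hij rfl).elim
    · simp [hu.2.2.1, hu.2.2.2.1]
    · have := hu.2.1 v0 b
      rw [hw0] at this
      simp [this]
    · exact (hij rfl).elim
  · rintro (_ | _) (_ | _) hij
    · exact (hij rfl).elim
    · simp
    · simp
    · exact (hij rfl).elim

lemma sat_forb_iff [∀ v, NeZero (n v)] [Nonempty V] (w : V → ℤ × ℤ) (ν : V → V) (hν : Cyc ν)
    (α : BB n → KK n) (hu : Units n w α) (c : V → Bool) :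
    Sat α (forbEq n ν c) ↔ ∀ b, ∃ v,
        (α (b + (0, Pi.single v 1))).1 v - (α b).1 v = if c v then 0 else 1 := by
  unfold forbEq
  rw [sat_clause_iff ν hν]
  · simp [sub_eq_zero]
  · intro i j hij b
    simp [hu.1 i (Pi.single j 1) (by simp [hij]) b]
  · intro i j hij
    simp [hij]

/-- parity -/
def par (a : ℤ) : Bool := decide (a % 2 = 1)

lemma par_add_one (a : ℤ) : par (a + 1) = !par a := by
  unfold par
  by_cases h : a % 2 = 1
  · simp [h]; omega
  · simp [h]; omega

lemma par_add_two (a : ℤ) : par (a + 2) = par a := by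
  have : a + 2 = a + 1 + 1 := by ring
  rw [this, par_add_one, par_add_one, Bool.not_not]

/-- value of a bit -/
def bval (b : Bool) : ZMod 4 := if b then 1 else 0

theorem aperSys_encode (hn : ∀ v, 1 < n v) (w : V → ℤ × ℤ) (v0 : V) (hw0 : w v0 = (1, 0))
    (Ω : Set (V → Bool))
    (hex : ∃ b : ℤ × ℤ → V → Bool, (∀ x v, b (x + w v) v = b x v) ∧ (∀ x, b x ∈ Ω) ∧
      ∀ x, b (x + (0, 1)) v0 = !(b x v0))
    (hno : ∀ b : ℤ × ℤ → V → Bool, ((∀ x v, b (x + w v) v = b x v) ∧ (∀ x, b x ∈ Ω) ∧
      ∀ x, b (x + (0, 1)) v0 = !(b x v0)) → ∀ N : ℕ, 0 < N → (∀ x g, b (x + N • g) = b x) → False) :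
    AperSys (BB n × KK n) := by
  classical
  have : ∀ v, NeZero (n v) := fun v => ⟨by have := hn v; omega⟩
  have : ∀ v, Fact (1 < n v) := fun v => ⟨hn v⟩
  have : Nonempty V := ⟨v0⟩
  obtain ⟨ν, hν⟩ := exists_cyc V
  let E : Set ((KK n → BB n) × (KK n → KK n)) :=
    (fun u : AddSubgroup (KK n) × BB n × KK n =>
      clause (J := Unit) id (fun _ => u.1) (fun _ => u.2.1) (fun _ => u.2.2)) '' unitData n w ∪
    Set.range (linkEq n v0) ∪ forbEq n ν '' Ωᶜ
  have hE : ∀ α, (∀ Φ ∈ E, Sat α Φ) ↔ Units n w α ∧ (∀ s, Sat α (linkEq n v0 s)) ∧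
      ∀ c, c ∉ Ω → Sat α (forbEq n ν c) := by
    intro α
    simp only [E, Set.mem_union, or_imp, forall_and, Set.forall_mem_image, Set.forall_mem_range,
      sat_unit_iff, units_iff, and_assoc, Set.mem_compl_iff]
  apply aperSys_of_fun E
  · refine Set.Finite.union (Set.Finite.union (Set.Finite.image _ ?_) (Set.finite_range _))
      (Set.Finite.image _ (Set.toFinite _))
    unfold unitData
    refine Set.Finite.union (Set.Finite.union (Set.Finite.union (Set.Finite.union
      (Set.finite_range _) (Set.finite_range _)) (Set.finite_range _)) (Set.finite_range _)) ?_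
    exact Set.toFinite _
  · obtain ⟨b, hb1, hb2, hb3⟩ := hex
    have hb0 : ∀ x y : ℤ, b (x + 1, y) v0 = b (x, y) v0 := by
      intro x y
      have := hb1 (x, y) v0
      simpa [hw0] using this
    have hb3' : ∀ x y : ℤ, b (x, y + -1) v0 = !(b (x, y) v0) := by
      intro x y
      have := hb3 (x, y + -1)
      simp only [Prod.mk_add_mk, add_zero, neg_add_cancel_right] at this
      rw [this]; simp
    let α : BB n → KK n := fun p => (fun v => (if b p.1 v then 1 else 0) * p.2 v,
      (bval (par p.1.1), bval (par p.1.1 ^^ b p.1 v0)))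
    have hu : Units n w α := by
      refine ⟨?_, ?_, ?_, ?_, ?_, ?_, ?_, ?_, ?_⟩
      · intro v t ht p; simp [α, ht]
      · intro v p; simp [α, hb1]
      · intro t p; simp [α]
      · intro t p; simp [α]
      · intro p; simp [α]
      · rintro ⟨⟨x, y⟩, t⟩
        simp only [α, Prod.mk_add_mk, hb0, hb3', par_add_one]
        cases par x <;> cases b (x, y) v0 <;> rfl
      · rintro ⟨⟨x, y⟩, t⟩
        have : b (x + 2, y) v0 = b (x, y) v0 := by
          have e : x + 2 = x + 1 + 1 := by ring
          rw [e, hb0, hb0]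
        simp only [α, Prod.mk_add_mk, add_zero, par_add_two, this]
      · rintro ⟨⟨x, y⟩, t⟩
        simp only [α, Prod.mk_add_mk, par_add_one]
        cases par x <;> decide
      · rintro ⟨⟨x, y⟩, t⟩
        simp only [α, Prod.mk_add_mk, add_zero, hb0, par_add_one]
        cases par x <;> cases b (x, y) v0 <;> decide
    refine ⟨α, (hE α).2 ⟨hu, fun s => ?_, fun c hc => ?_⟩⟩
    · rw [sat_link_iff n w v0 hw0 α hu]
      rintro ⟨⟨x, y⟩, t⟩
      simp only [α, Prod.mk_add_mk, add_zero, hb0, par_add_one, Pi.add_apply,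
        Pi.single_eq_same]
      cases s <;> cases par x <;> cases b (x, y) v0 <;> simp
    · rw [sat_forb_iff n w ν hν α hu]
      rintro ⟨x, t⟩
      have : ∃ v, b x v ≠ c v := by
        by_contra h
        push Not at h
        exact hc ((funext h : b x = c) ▸ hb2 x)
      obtain ⟨v, hv⟩ := this
      refine ⟨v, ?_⟩
      simp only [α, Prod.mk_add_mk, add_zero, Pi.add_apply, Pi.single_eq_same]
      revert hv
      cases b x v <;> cases c v <;> simp
  · intro α hα N hN hper
    obtain ⟨hu, hl, hf⟩ := (hE α).1 hα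
    let D : ℤ × ℤ → TT n → (v : V) → ZMod (n v) := fun x t v =>
      (α ((x, t) + (0, Pi.single v 1))).1 v - (α (x, t)).1 v
    have hD : ∀ x t t' v, t v = t' v → D x t v = D x t' v := by
      intro x t t' v h
      have h1 := hu.1 v (t' - t) (by simp [h]) (x, t)
      have h2 := hu.1 v (t' - t) (by simp [h]) ((x, t) + (0, Pi.single v 1))
      have e1 : ((x, t) : BB n) + (0, t' - t) = (x, t') := by simp
      have e2 : ((x, t) : BB n) + (0, Pi.single v 1) + (0, t' - t) =
          (x, t') + (0, Pi.single v 1) := by rw [add_right_comm, e1]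
      rw [e1] at h1
      rw [e2] at h2
      simp only [D, h1, h2]
    refine hno (fun x v => decide (∀ t, D x t v = 1)) ⟨?_, ?_, ?_⟩ N hN ?_
    · intro x v
      have : ∀ t, D (x + w v) t v = D x t v := by
        intro t
        have h1 := hu.2.1 v (x, t)
        have h2 := hu.2.1 v ((x, t) + (0, Pi.single v 1))
        have e1 : ((x, t) : BB n) + (w v, 0) = (x + w v, t) := by simp
        have e2 : ((x, t) : BB n) + (0, Pi.single v 1) + (w v, 0) =
          (x + w v, t) + (0, Pi.single v 1) := by rw [add_right_comm, e1]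
        rw [e1] at h1
        rw [e2] at h2
        simp only [D, h1, h2]
      simp only [this]
    · intro x
      by_contra hc
      have h1 := (sat_forb_iff n w ν hν α hu _).1 (hf _ hc)
      have h2 : ∃ v, ∀ t, D x t v = if decide (∀ t, D x t v = 1) then 0 else 1 := by
        by_contra h
        push Not at h
        choose τ hτ using h
        obtain ⟨v, hv⟩ := h1 (x, fun v => τ v v)
        exact hτ v ((hD x (τ v) (fun v => τ v v) v rfl).trans hv)
      obtain ⟨v, hv⟩ := h2
      by_cases h3 : ∀ t, D x t v = 1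
      · have := hv 0
        rw [h3 0, if_pos (decide_eq_true h3)] at this
        exact one_ne_zero this
      · apply h3
        intro t
        rw [hv t, if_neg (by simpa using h3)]
    · let P : ℤ × ℤ → ZMod 4 := fun x => (α ((x, 0) + ((1, 0), 0))).2.1 - (α (x, 0)).2.1
      let Q : ℤ × ℤ → ZMod 4 := fun x => (α ((x, 0) + ((1, 0), 0))).2.2 - (α (x, 0)).2.2
      have hP : ∀ x t, (α ((x, t) + ((1, 0), 0))).2.1 - (α (x, t)).2.1 = P x := by
        intro x t
        have h1 := hu.2.2.1 t (x, 0)
        have h2 := hu.2.2.1 t ((x, 0) + ((1, 0), 0))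
        simp only [Prod.mk_add_mk, add_zero, zero_add] at h1 h2
        simp only [P, Prod.mk_add_mk, add_zero, h1, h2]
      have hQ : ∀ x t, (α ((x, t) + ((1, 0), 0))).2.2 - (α (x, t)).2.2 = Q x := by
        intro x t
        have h1 := hu.2.2.2.1 t (x, 0)
        have h2 := hu.2.2.2.1 t ((x, 0) + ((1, 0), 0))
        simp only [Prod.mk_add_mk, add_zero, zero_add] at h1 h2
        simp only [Q, Prod.mk_add_mk, add_zero, h1, h2]
      have hbit : ∀ x, (∀ t, D x t v0 = 1) ↔ P x ≠ Q x := by
        intro x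
        constructor
        · intro h hPQ
          have h1 := (sat_link_iff n w v0 hw0 α hu false).1 (hl false) (x, 0)
          rw [hP, hQ] at h1
          rcases h1 with h1 | h1
          · have h2 : 2 * (P x - 1) = 0 := hu.2.2.2.2.2.2.2.1 (x, 0)
            rw [← hPQ] at h1
            revert h1 h2
            generalize P x = p
            revert p
            decide
          · have := h 0
            simp only [D] at this
            rw [this] at h1
            simp at h1
        · intro h t
          have h1 := (sat_link_iff n w v0 hw0 α hu true).1 (hl true) (x, t)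
          rw [hP, hQ] at h1
          rcases h1 with h1 | h1
          · exact (h (by simp only [if_true] at h1; linear_combination h1)).elim
          · simpa [D] using h1
      rintro ⟨x, y⟩
      have hP' : P ((x, y) + (0, 1)) = P (x, y) := by
        have h1 := hu.2.2.2.2.1 ((x, y), 0)
        have h2 := hu.2.2.2.2.1 ((x + 1, y), 0)
        simp only [Prod.mk_add_mk, add_zero] at h1 h2
        simp only [P, Prod.mk_add_mk, add_zero, h1, h2]
      have hQ' : Q ((x, y) + (0, 1)) = -Q (x, y) := by
        have h1 := hu.2.2.2.2.2.1 ((x, y + 1), 0)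
        have h2 := hu.2.2.2.2.2.1 ((x + 1, y + 1), 0)
        have h3 := hu.2.2.2.2.2.2.1 ((x, y), 0)
        have e : x + 1 + 1 = x + 2 := by ring
        simp only [Prod.mk_add_mk, add_zero, add_neg_cancel_right, e] at h1 h2 h3
        simp only [Q, Prod.mk_add_mk, add_zero, ← h1, ← h2, h3]
        ring
      have h2 : 2 * (P (x, y) - 1) = 0 := hu.2.2.2.2.2.2.2.1 ((x, y), 0)
      have h3 : 2 * (Q (x, y) - 1) = 0 := hu.2.2.2.2.2.2.2.2 ((x, y), 0)
      simp only [hbit, hP', hQ']
      revert h2 h3
      generalize P (x, y) = p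
      generalize Q (x, y) = q
      revert p q
      decide
    · intro x g
      have : ∀ t v, D (x + N • g) t v = D x t v := by
        intro t v
        have h1 := hper (x, t) (g, 0)
        have h2 := hper ((x, t) + (0, Pi.single v 1)) (g, 0)
        have e1 : ((x, t) : BB n) + N • (g, 0) = (x + N • g, t) := by simp
        have e2 : ((x, t) : BB n) + (0, Pi.single v 1) + N • (g, 0) =
          (x + N • g, t) + (0, Pi.single v 1) := by rw [add_right_comm, e1]
        rw [e1] at h1
        rw [e2] at h2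
        simp only [D, h1, h2]
      simp only [this]

end encode

end Vale.Agent.P043
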