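import Vale.Agent.P043.Four
import Mathlib.LinearAlgebra.Matrix.Adjugate
import Mathlib.LinearAlgebra.Matrix.Basis
import Mathlib.LinearAlgebra.Determinant

/-! From `ℤ^d` to `ℝ^d`. -/

namespace Vale.Agent.P043

open MeasureTheory

lemma IsTiling.map_equiv {G G' : Type*} [AddCommGroup G] [AddCommGroup G'] (e : G ≃+ G')
    {A F : Set G} (h : IsTiling A F) : IsTiling (e '' A) (e '' F) := by
  rw [isTiling_iff] at h ⊢
  refine ⟨fun g => ?_, ?_⟩
  · obtain ⟨a, ha, f, hf, h1⟩ := h.1 (e.symm g)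
    exact ⟨_, ⟨a, ha, rfl⟩, _, ⟨f, hf, rfl⟩, by rw [← map_add, h1]; simp⟩
  · rintro _ ⟨a, ha, rfl⟩ _ ⟨f, hf, rfl⟩ _ ⟨a', ha', rfl⟩ _ ⟨f', hf', rfl⟩ h1
    rw [← map_add, ← map_add] at h1
    rw [h.2 a ha f hf a' ha' f' hf' (e.injective h1)]

lemma NPer.map_equiv {G G' : Type*} [AddCommGroup G] [AddCommGroup G'] (e : G ≃+ G')
    {A : Set G} (h : NPer A) : NPer (e '' A) := by
  obtain ⟨N, hN, hp⟩ := h
  refine ⟨N, hN, ?_⟩
  rintro g _ ⟨a, ha, rfl⟩
  exact ⟨_, hp (e.symm g) a ha, by simp⟩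

/-- splitting off one coordinate -/
def splitAt {d : ℕ} (i : Fin d) : (Fin d → ℤ) ≃+ ({j // j ≠ i} → ℤ) × ℤ where
  toFun x := (fun j => x j.1, x i)
  invFun p := fun j => if h : j = i then p.2 else p.1 ⟨j, h⟩
  left_inv x := by ext j; by_cases h : j = i <;> simp [h]
  right_inv p := by
    ext j
    · simp [j.2]
    · simp
  map_add' x y := rfl

lemma rigid_step {d : ℕ} (i : Fin d) (F : Finset (Fin d → ℤ)) (hF : AperTile F) :
    ∃ F' : Finset (Fin d → ℤ), AperTile F' ∧ ∀ A', IsTiling A' (F' : Set (Fin d → ℤ)) →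
      ∃ A, IsTiling A (F : Set (Fin d → ℤ)) ∧ (∀ a ∈ A', ∀ b ∈ A', Even (a i - b i)) ∧
        ∀ a' ∈ A', ∃ a ∈ A, ∀ j, j ≠ i → a' j = a j := by
  classical
  obtain ⟨T, hT, hgen⟩ := exists_gen (⊤ : AddSubgroup ({j // j ≠ i} → ℤ))
  let e := splitAt i
  obtain ⟨M, F1, hM0, hM, h1, h2⟩ := concat T hT hgen {F.image e} (Set.finite_singleton _)
    (Set.singleton_nonempty _)
  simp only [Set.mem_singleton_iff, forall_eq, Finset.coe_image] at h1 h2
  have key : ∀ A', IsTiling A' (F1.image e.symm : Set (Fin d → ℤ)) → ∃ r : ℤ, ∃ B,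
      IsTiling (e.symm '' B) (F : Set (Fin d → ℤ)) ∧
        e '' A' = (fun a : ({j // j ≠ i} → ℤ) × ℤ => (a.1, M * a.2 + r)) '' B := by
    intro A' hA'
    have h3 := hA'.map_equiv e
    simp only [Finset.coe_image, Set.image_image, AddEquiv.apply_symm_apply, Set.image_id'] at h3
    obtain ⟨r, B, hB, h4⟩ := h2 _ h3
    have h5 := hB.map_equiv e.symm
    simp only [Set.image_image, AddEquiv.symm_apply_apply, Set.image_id'] at h5
    exact ⟨r, B, h5, h4⟩
  refine ⟨F1.image e.symm, ⟨?_, fun A' hA' hper => ?_⟩, fun A' hA' => ?_⟩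
  · obtain ⟨A, hA⟩ := hF.1
    have := (h1 _ (hA.map_equiv e)).map_equiv e.symm
    exact ⟨_, by simpa only [Finset.coe_image] using this⟩
  · obtain ⟨r, B, hB, h4⟩ := key A' hA'
    have := hper.map_equiv e
    rw [h4] at this
    exact hF.2 _ hB ((nper_of_scaled hM0 this).map_equiv e.symm)
  · obtain ⟨r, B, hB, h4⟩ := key A' hA'
    have h5 : ∀ a' ∈ A', ∃ b ∈ B, (b.1, M * b.2 + r) = e a' := by
      intro a' ha'
      have : e a' ∈ e '' A' := ⟨a', ha', rfl⟩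
      rw [h4] at this
      exact this
    refine ⟨_, hB, fun a ha b hb => ?_, fun a' ha' => ?_⟩
    · obtain ⟨p, -, hp⟩ := h5 a ha
      obtain ⟨q, -, hq⟩ := h5 b hb
      have hp2 : M * p.2 + r = a i := congrArg Prod.snd hp
      have hq2 : M * q.2 + r = b i := congrArg Prod.snd hq
      obtain ⟨k, rfl⟩ := hM
      refine ⟨k * (p.2 - q.2), ?_⟩
      rw [← hp2, ← hq2]; push_cast; ring
    · obtain ⟨p, hpB, hp⟩ := h5 a' ha'
      refine ⟨_, ⟨p, hpB, rfl⟩, fun j hj => ?_⟩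
      have hp1 : p.1 ⟨j, hj⟩ = a' j := congrFun (congrArg Prod.fst hp) ⟨j, hj⟩
      simp [e, splitAt, hj, hp1]

lemma exists_rigid {d : ℕ} (h : ∃ F : Finset (Fin d → ℤ), AperTile F) (s : Finset (Fin d)) :
    ∃ F : Finset (Fin d → ℤ), AperTile F ∧ ∀ A, IsTiling A (F : Set (Fin d → ℤ)) →
      ∀ a ∈ A, ∀ b ∈ A, ∀ j ∈ s, Even (a j - b j) := by
  classical
  induction s using Finset.induction_on with
  | empty => obtain ⟨F, hF⟩ := h; exact ⟨F, hF, by simp⟩
  | insert i s hi ih =>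
    obtain ⟨F, hF, hr⟩ := ih
    obtain ⟨F', hF', h1⟩ := rigid_step i F hF
    refine ⟨F', hF', fun A' hA' a ha b hb j hj => ?_⟩
    obtain ⟨A, hA, h2, h3⟩ := h1 A' hA'
    by_cases hji : j = i
    · subst hji; exact h2 a ha b hb
    · obtain ⟨a0, ha0, e1⟩ := h3 a ha
      obtain ⟨b0, hb0, e2⟩ := h3 b hb
      rw [e1 j hji, e2 j hji]
      exact hr A hA a0 ha0 b0 hb0 j (by simpa [hji] using hj)

/-- the union of unit cubes attached to a finite set -/
def cubes {d : ℕ} (F : Finset (Fin d → ℤ)) : Set (Fin d → ℝ) :=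
  ⋃ f ∈ F, Set.pi Set.univ fun i => Set.Ico (f i : ℝ) (f i + 1)

lemma mem_cubes_shift {d : ℕ} (F : Finset (Fin d → ℤ)) (a x : Fin d → ℝ) :
    x ∈ (fun x => x + a) '' cubes F ↔
      ∃ f ∈ F, ∀ i, (f i : ℝ) ≤ x i - a i ∧ x i - a i < f i + 1 := by
  simp [cubes, Set.image_add_right, sub_eq_add_neg]

lemma volume_box_pos {d : ℕ} (l u : Fin d → ℝ) (h : ∀ i, l i < u i) :
    volume (Set.pi Set.univ fun i => Set.Ico (l i) (u i)) ≠ 0 := by
  rw [Real.volume_pi_Ico]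
  refine Finset.prod_ne_zero_iff.2 fun i _ => ?_
  simpa using h i

lemma measTiling_of_tiling {d : ℕ} (F : Finset (Fin d → ℤ)) (A : Set (Fin d → ℤ))
    (hA : IsTiling A (F : Set (Fin d → ℤ))) :
    IsMeasTiling ((fun a : Fin d → ℤ => fun i => (a i : ℝ)) '' A) (cubes F) := by
  rw [isTiling_iff] at hA
  constructor
  · have : (⋃ a ∈ (fun a : Fin d → ℤ => fun i => (a i : ℝ)) '' A, (fun x => x + a) '' cubes F) =
        Set.univ := by
      refine Set.eq_univ_of_forall fun x => ?_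
      obtain ⟨a, ha, f, hf, e⟩ := hA.1 fun i => ⌊x i⌋
      refine Set.mem_biUnion ⟨a, ha, rfl⟩ ((mem_cubes_shift _ _ _).2 ⟨f, hf, fun i => ?_⟩)
      have h1 : a i + f i = ⌊x i⌋ := congrFun e i
      have h2 : (a i : ℝ) + f i = ⌊x i⌋ := by exact_mod_cast h1
      have := Int.floor_le (x i)
      have := Int.lt_floor_add_one (x i)
      constructor <;> linarith
    rw [this]; simp
  · rintro _ ⟨a, ha, rfl⟩ _ ⟨a', ha', rfl⟩ hne
    refine measure_mono_null (t := ∅) ?_ measure_empty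
    rintro x ⟨h1, h2⟩
    obtain ⟨f, hf, h1⟩ := (mem_cubes_shift _ _ _).1 h1
    obtain ⟨f', hf', h2⟩ := (mem_cubes_shift _ _ _).1 h2
    have : a + f = a' + f' := by
      ext i
      have e1 : ⌊x i⌋ = a i + f i := by
        rw [Int.floor_eq_iff]; push_cast; constructor <;> linarith [(h1 i).1, (h1 i).2]
      have e2 : ⌊x i⌋ = a' i + f' i := by
        rw [Int.floor_eq_iff]; push_cast; constructor <;> linarith [(h2 i).1, (h2 i).2]
      simp only [Pi.add_apply, ← e1, ← e2]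
    exact hne (by rw [hA.2 a ha f hf a' ha' f' hf' this])

lemma exists_good {d : ℕ} (F : Finset (Fin d → ℤ)) (A : Set (Fin d → ℝ))
    (hA : IsMeasTiling A (cubes F)) (l u : Fin d → ℝ) (h : ∀ i, l i < u i) :
    ∃ t : Fin d → ℝ, (∀ i, l i ≤ t i ∧ t i < u i) ∧
      IsTiling ((fun a : Fin d → ℝ => fun i => ⌈a i - t i⌉) '' A) (F : Set (Fin d → ℤ)) := by
  set N := (⋃ a ∈ A, (fun x => x + a) '' cubes F)ᶜ with hN
  have hnull : volume (⋃ z : Fin d → ℤ, (fun t => (fun i => (z i : ℝ)) + t) ⁻¹' N) = 0 := by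
    refine measure_iUnion_null fun z => ?_
    rw [measure_preimage_add]
    exact hA.1
  have hex : ∃ t ∈ Set.pi Set.univ fun i => Set.Ico (l i) (u i),
      t ∉ ⋃ z : Fin d → ℤ, (fun t => (fun i => (z i : ℝ)) + t) ⁻¹' N := by
    by_contra hc
    push Not at hc
    exact volume_box_pos l u h (measure_mono_null hc hnull)
  obtain ⟨t, ht, htN⟩ := hex
  have hceil : ∀ (a : Fin d → ℝ) (f z : Fin d → ℤ), (fun i => ⌈a i - t i⌉) + f = z ↔
      ∀ i, (f i : ℝ) ≤ ((fun i => (z i : ℝ)) + t) i - a i ∧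
        ((fun i => (z i : ℝ)) + t) i - a i < f i + 1 := by
    intro a f z
    rw [funext_iff]
    refine forall_congr' fun i => ?_
    simp only [Pi.add_apply]
    rw [← eq_sub_iff_add_eq, Int.ceil_eq_iff]
    push_cast
    constructor <;> rintro ⟨h1, h2⟩ <;> constructor <;> linarith
  refine ⟨t, fun i => ht i (Set.mem_univ i), isTiling_iff.2 ⟨fun z => ?_, ?_⟩⟩
  · have htz : ((fun i => (z i : ℝ)) + t) ∉ N := fun h => htN (Set.mem_iUnion.2 ⟨z, h⟩)
    rw [hN, Set.notMem_compl_iff, Set.mem_iUnion₂] at htz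
    obtain ⟨a, ha, hx⟩ := htz
    obtain ⟨f, hf, hx⟩ := (mem_cubes_shift _ _ _).1 hx
    exact ⟨_, ⟨a, ha, rfl⟩, f, hf, (hceil a f z).2 hx⟩
  · rintro _ ⟨a, ha, rfl⟩ f hf _ ⟨a', ha', rfl⟩ f' hf' e
    have h1 := (hceil a f _).1 e
    have h2 := (hceil a' f' _).1 rfl
    set x := ((fun i => ((((fun i => ⌈a' i - t i⌉) + f') i : ℤ) : ℝ)) + t) with hx
    by_cases haa : a = a'
    · rw [haa]
    · exfalso
      apply volume_box_pos x (fun i => min (a i + f i + 1) (a' i + f' i + 1))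
        (fun i => lt_min (by linarith [(h1 i).2]) (by linarith [(h2 i).2]))
      refine measure_mono_null ?_ (hA.2 a ha a' ha' haa)
      intro y hy
      have hy' : ∀ i, x i ≤ y i ∧ y i < a i + f i + 1 ∧ y i < a' i + f' i + 1 := fun i => by
        have := hy i (Set.mem_univ i)
        exact ⟨this.1, lt_min_iff.1 this.2⟩
      exact ⟨(mem_cubes_shift _ _ _).2 ⟨f, hf, fun i =>
          ⟨by linarith [(h1 i).1, (hy' i).1], by linarith [(hy' i).2.1]⟩⟩,
        (mem_cubes_shift _ _ _).2 ⟨f', hf', fun i =>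
          ⟨by linarith [(h2 i).1, (hy' i).1], by linarith [(hy' i).2.2]⟩⟩⟩

lemma int_diff {d : ℕ} (F : Finset (Fin d → ℤ))
    (hr : ∀ A, IsTiling A (F : Set (Fin d → ℤ)) → ∀ a ∈ A, ∀ b ∈ A, ∀ j, Even (a j - b j))
    (A : Set (Fin d → ℝ)) (hA : IsMeasTiling A (cubes F)) (a : Fin d → ℝ) (ha : a ∈ A)
    (b : Fin d → ℝ) (hb : b ∈ A) (i : Fin d) : ∃ k : ℤ, a i - b i = k := by
  by_contra hc
  push Not at hc
  set k := ⌊a i - b i⌋ with hk
  have h1 : (k : ℝ) < a i - b i := lt_of_le_of_ne (Int.floor_le _) (hc k).symm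
  have h2 : a i - b i < k + 1 := Int.lt_floor_add_one _
  obtain ⟨t, ht, hT⟩ := exists_good F A hA (fun _ => a i - k) (fun _ => b i + 1)
    (fun _ => by linarith)
  obtain ⟨t', ht', hT'⟩ := exists_good F A hA (fun _ => b i) (fun _ => a i - k)
    (fun _ => by linarith)
  have e1 := hr _ hT _ ⟨a, ha, rfl⟩ _ ⟨b, hb, rfl⟩ i
  have e2 := hr _ hT' _ ⟨a, ha, rfl⟩ _ ⟨b, hb, rfl⟩ i
  have f1 : ⌈a i - t i⌉ = k := by
    rw [Int.ceil_eq_iff]; constructor <;> linarith [(ht i).1, (ht i).2]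
  have f2 : ⌈b i - t i⌉ = 0 := by
    rw [Int.ceil_eq_iff]; push_cast; constructor <;> linarith [(ht i).1, (ht i).2]
  have f3 : ⌈a i - t' i⌉ = k + 1 := by
    rw [Int.ceil_eq_iff]; push_cast; constructor <;> linarith [(ht' i).1, (ht' i).2]
  have f4 : ⌈b i - t' i⌉ = 0 := by
    rw [Int.ceil_eq_iff]; push_cast; constructor <;> linarith [(ht' i).1, (ht' i).2]
  simp only [f1, f2, f3, f4, sub_zero] at e1 e2
  rw [Int.even_add_one] at e2
  exact e2 e1

lemma exists_mul_mem {d : ℕ} (L : Submodule ℤ (Fin d → ℝ)) [DiscreteTopology L] [IsZLattice ℝ L]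
    (hint : ∀ l ∈ L, ∀ i, ∃ k : ℤ, l i = k) :
    ∃ N : ℕ, 0 < N ∧ ∀ g : Fin d → ℤ, (fun i => ((N • g) i : ℝ)) ∈ L := by
  classical
  let b := IsZLattice.basis L
  have h1 : ∀ j i, ∃ k : ℤ, (b j : Fin d → ℝ) i = k := fun j i => hint _ (b j).2 i
  choose B hB using h1
  let B' : Matrix (Fin d) (Fin d) ℤ := Matrix.of B
  have hdet : B'.det ≠ 0 := by
    intro h0
    have h2 := (Pi.basisFun ℝ (Fin d)).isUnit_det (b.ofZLatticeBasis ℝ L)
    rw [Module.Basis.det_apply] at h2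
    have h3 : (Pi.basisFun ℝ (Fin d)).toMatrix (b.ofZLatticeBasis ℝ L) =
        (B'.map (Int.castRingHom ℝ)).transpose := by
      ext i j
      simp [Module.Basis.toMatrix_apply, B', hB]
    rw [h3, Matrix.det_transpose, ← RingHom.mapMatrix_apply, ← RingHom.map_det, h0] at h2
    simp at h2
  refine ⟨B'.det.natAbs, Int.natAbs_pos.2 hdet, fun g => ?_⟩
  have key : ∀ g : Fin d → ℤ, (fun i => ((B'.det • g) i : ℝ)) ∈ L := by
    intro g
    have h4 : Matrix.vecMul (Matrix.vecMul g B'.adjugate) B' = B'.det • g := by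
      rw [Matrix.vecMul_vecMul, Matrix.adjugate_mul, Matrix.vecMul_smul, Matrix.vecMul_one]
    have h5 : (fun i => ((B'.det • g) i : ℝ)) =
        ∑ j, (Matrix.vecMul g B'.adjugate j) • (b j : Fin d → ℝ) := by
      ext i
      rw [← h4]
      simp [Matrix.vecMul, dotProduct, Finset.sum_apply, hB, B']
    rw [h5]
    exact L.sum_mem fun j _ => L.smul_mem _ (b j).2
  rcases Int.natAbs_eq B'.det with h | h
  · have := key g
    rw [h] at this
    simpa using this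
  · have := key (-g)
    rw [h] at this
    simpa using this

theorem exists_euclid (d : ℕ) (h : ∃ F : Finset (Fin d → ℤ), AperTile F) :
    ∃ Ω : Set (Fin d → ℝ), Bornology.IsBounded Ω ∧ MeasurableSet Ω ∧ 0 < volume Ω ∧
      (∃ A, IsMeasTiling A Ω) ∧ ∀ A, IsMeasTiling A Ω → ¬ IsLatticePeriodic A := by
  obtain ⟨F, hF, hr⟩ := exists_rigid h Finset.univ
  refine ⟨cubes F, ?_, ?_, ?_, ?_, ?_⟩
  · refine (Bornology.isBounded_biUnion_finset F).2 fun f _ => ?_
    exact Bornology.IsBounded.pi fun i => Metric.isBounded_Ico _ _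
  · exact Finset.measurableSet_biUnion F fun f _ => MeasurableSet.univ_pi fun i => measurableSet_Ico
  · obtain ⟨f, hf⟩ := hF.nonempty
    refine lt_of_lt_of_le (pos_iff_ne_zero.2 (volume_box_pos (fun i => (f i : ℝ))
      (fun i => (f i : ℝ) + 1) fun i => by linarith)) (measure_mono ?_)
    exact Set.subset_biUnion_of_mem (u := fun f : Fin d → ℤ =>
      Set.pi Set.univ fun i => Set.Ico (f i : ℝ) (f i + 1)) (Finset.mem_coe.2 hf)
  · obtain ⟨A, hA⟩ := hF.1
    exact ⟨_, measTiling_of_tiling F A hA⟩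
  · rintro A hA ⟨L, _, hL, hp⟩
    obtain ⟨t, -, hT⟩ := exists_good F A hA (fun _ => 0) (fun _ => 1) (fun _ => one_pos)
    obtain ⟨-, ⟨a0, ha0, -⟩, -⟩ := (isTiling_iff.1 hT).1 0
    have hmem : ∀ l ∈ L, ∀ a ∈ A, a + l ∈ A := by
      intro l hl a ha
      rw [← hp l hl]
      exact ⟨a, ha, rfl⟩
    obtain ⟨N, hN, hNL⟩ := exists_mul_mem L fun l hl i => by
      obtain ⟨k, hk⟩ := int_diff F (fun A hA a ha b hb j => hr A hA a ha b hb j (Finset.mem_univ j))
        A hA _ (hmem l hl a0 ha0) a0 ha0 i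
      exact ⟨k, by simpa using hk⟩
    refine hF.2 _ hT ⟨N, hN, ?_⟩
    rintro g _ ⟨a, ha, rfl⟩
    refine ⟨_, hmem _ (hNL g) a ha, ?_⟩
    ext i
    simp only [Pi.add_apply]
    rw [add_sub_right_comm, Int.ceil_add_intCast]

end Vale.Agent.P043
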