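import Vale.Agent.P043.Setup
import Vale.Agent.P043.Sudoku

/-! The intended solution of the label machine. -/

namespace Vale.Agent.P043

/-- the top digit -/
def top (u : ℕ) (τ : ZMod (u * u)) : ZMod u := ((τ.val / u : ℕ) : ZMod u)

lemma top_add_mu (u : ℕ) [NeZero u] (τ : ZMod (u * u)) (k : ZMod u) :
    top u (τ + mu u k) = top u τ + k := by
  have : NeZero (u * u) := ⟨mul_ne_zero (NeZero.ne u) (NeZero.ne u)⟩
  obtain ⟨s, rfl⟩ := ZMod.natCast_zmod_surjective k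
  have h1 : τ + mu u (s : ZMod u) = ((τ.val + s * u : ℕ) : ZMod (u * u)) := by
    have := mu_int u s
    rw [Int.cast_natCast, Int.cast_natCast] at this
    rw [this]; simp
  rw [h1, top, ZMod.val_natCast, Nat.mod_mul_right_div_self, ZMod.natCast_mod,
    Nat.add_mul_div_right _ _ (NeZero.pos u), Nat.cast_add, top]

lemma exists_mu {u : ℕ} {τ : ZMod (u * u)} (h : lay u τ = 0) : ∃ k, τ = mu u k := by
  obtain ⟨s, rfl⟩ := ZMod.intCast_surjective τ
  rw [lay_int, ZMod.intCast_zmod_eq_zero_iff_dvd] at h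
  obtain ⟨t, rfl⟩ := h
  exact ⟨t, by rw [mu_int]; push_cast; ring⟩

lemma cast_zero_of {m : ℕ} {t : ℤ} (h : (m : ℤ) ∣ t) : (t : ZMod m) = 0 :=
  (ZMod.intCast_zmod_eq_zero_iff_dvd t m).2 h

lemma cast_one_of {m : ℕ} {t : ℤ} (h : (m : ℤ) ∣ t - 1) : (t : ZMod m) = 1 := by
  have := cast_zero_of h
  push_cast at this
  exact sub_eq_zero.1 this

namespace Par

variable {V : Type} (P : Par V) (b : ℤ × ℤ → V → Bool)

lemma Q_mul_eq_zero (t : ℤ) : (P.Q : ZMod P.q) * t = 0 ↔ 2 ∣ t := by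
  rw [show (P.Q : ZMod P.q) * t = ((P.Q * t : ℤ) : ZMod P.q) by push_cast; rfl,
    ZMod.intCast_zmod_eq_zero_iff_dvd, show ((P.q : ℕ) : ℤ) = P.Q * 2 by push_cast; ring]
  exact mul_dvd_mul_iff_left (by positivity)

lemma two_mul_eq_zero (t : ℤ) : 2 * (t : ZMod P.q) = 0 ↔ (P.Q : ℤ) ∣ t := by
  rw [show 2 * (t : ZMod P.q) = ((2 * t : ℤ) : ZMod P.q) by push_cast; rfl,
    ZMod.intCast_zmod_eq_zero_iff_dvd, show ((P.q : ℕ) : ℤ) = 2 * P.Q by push_cast; ring]
  exact mul_dvd_mul_iff_left (by positivity)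

/-- agreement of two species -/
def lamv (v : V) (s : Fin (P.u v)) (g : P.G) : Prop :=
  (P.Q : ℤ) ∣ P.n v g.1 - (s : ℕ) * P.a v g.1 ∧
    top (P.u v) (g.2.2.1 v) = top (P.u v) (g.2.2.1 v - Int.cast g.1.1) + Nat.cast s.1

noncomputable instance (v : V) (s : Fin (P.u v)) (g : P.G) : Decidable (P.lamv v s g) :=
  Classical.dec _

/-- the bits of the lines -/
def bv (v : V) (x : ℤ × ℤ) : Bool :=
  if (P.Q : ℤ) ∣ P.n v x then b ((P.n v x / P.Q) • P.T v) v else true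

/-- values of the labels -/
noncomputable def val0 : LL V P.q P.u → P.G → Bool
  | Sum.inl (PL.X c), g => decide (((g.1.1 : ℤ) : ZMod P.q) = c)
  | Sum.inl (PL.Y c), g => decide (((g.1.2 : ℤ) : ZMod P.q) = c)
  | Sum.inl PL.D, g => decide (2 ∣ g.1.1 + g.1.2)
  | Sum.inl (PL.tau v), g => decide (¬ 2 ∣ P.a v g.1)
  | Sum.inl (PL.lam v s), g => decide (P.lamv v s g)
  | Sum.inr v, g => P.bv b v g.1

open Classical in
/-- the offset of a species -/
noncomputable def off (v : V) (s t : ZMod P.Q) : ZMod (P.u v) :=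
  if h : ∃ i : Fin (P.u v), t = (i : ℕ) * s then (h.choose : ℕ) else 0

/-- the ordinary components -/
noncomputable def al : (o : OO V P.q P.u) → P.G → ZMod (P.r o)
  | Sum.inl p, g => if ¬ 2 ∣ P.a p.1 g.1 ∨ (P.lamv p.1 (P.s0 p.1) g ∧ P.bv b p.1 g.1 = p.2)
      then (P.a p.1 g.1 : ℤ) else 0
  | Sum.inr l, g => if P.val0 b l g then (P.a (P.lv l) g.1 : ℤ) else 0

/-- the layer components -/
noncomputable def ku (v : V) (g : P.G) : ZMod (P.u v) :=
  if 2 ∣ P.a v g.1 then top (P.u v) (g.2.2.1 v) else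
    top (P.u v) (g.2.2.1 v - Int.cast g.1.1) + P.off v (P.a v g.1 : ℤ) (P.n v g.1 : ℤ)

/-- the height function -/
noncomputable def ka (g : P.G) : P.K :=
  (g.2.1 - (g.1.1 : ℤ) * (g.1.2 : ℤ), fun v => P.ku v g, fun o => g.2.2.2 o - P.al b o g)

lemma off_eq (v : V) (i : Fin (P.u v)) {s t : ℤ} (hs : ¬ 2 ∣ s) (h : (P.Q : ℤ) ∣ t - (i : ℕ) * s) :
    P.off v s t = (i : ℕ) := by
  have h1 : ∃ i : Fin (P.u v), (t : ZMod P.Q) = (i : ℕ) * (s : ZMod P.Q) :=
    ⟨i, by have := cast_zero_of h; push_cast at this; exact sub_eq_zero.1 this⟩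
  rw [off, dif_pos h1]
  have h2 := h1.choose_spec
  have h3 : (P.Q : ℤ) ∣ t - (h1.choose : ℕ) * s := by
    rw [← ZMod.intCast_zmod_eq_zero_iff_dvd]; push_cast; exact sub_eq_zero.2 h2
  have h4 : (P.Q : ℤ) ∣ (((h1.choose : ℕ) : ℤ) - (i : ℕ)) * s := by
    have := h.sub h3
    rwa [sub_sub_sub_cancel_left, ← sub_mul] at this
  have h5 : IsCoprime (P.Q : ℤ) s := by
    push_cast
    exact ((Int.prime_two.coprime_iff_not_dvd).2 hs).pow_left
  have h6 := Int.eq_zero_of_abs_lt_dvd (h5.dvd_of_dvd_mul_right h4) (by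
    have := h1.choose.2
    have := i.2
    have := P.huQ v
    rw [abs_lt]
    simp only [Q]
    constructor <;> omega)
  have : (h1.choose : ℕ) = i := by omega
  rw [this]

lemma lamv_inv {v : V} {s : Fin (P.u v)} {h : P.G} (hh : h ∈ P.I' (Sum.inl (PL.lam v s)))
    (g : P.G) : P.lamv v s (g + h) ↔ P.lamv v s g := by
  simp only [I', AddSubgroup.mem_inf, mem_dv, AddMonoidHom.mem_ker, AddMonoidHom.sub_apply,
    AddMonoidHom.smul_apply, B_apply, A_apply, x1_apply, AddMonoidHom.comp_apply, yu_apply,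
    smul_eq_mul] at hh
  obtain ⟨k, hk⟩ := exists_mu hh.2
  simp only [lamv, Prod.fst_add, Prod.snd_add, Pi.add_apply, map_add, Int.cast_add,
    cast_zero_of hh.1.2, add_zero, hk]
  rw [add_sub_right_comm (g.2.2.1 v), top_add_mu, top_add_mu, add_right_comm _ k, add_left_inj,
    mul_add, add_sub_add_comm, dvd_add_left hh.1.1]

lemma val0_inv {l : LL V P.q P.u} {h : P.G} (hh : h ∈ P.I' l) (g : P.G) :
    P.val0 b l (g + h) = P.val0 b l g := by
  rcases l with (c | c | _ | v | ⟨v, s⟩) | v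
  · simp [val0, cast_zero_of (show (P.q : ℤ) ∣ h.1.1 from mem_dv.1 hh)]
  · simp [val0, cast_zero_of (show (P.q : ℤ) ∣ h.1.2 from mem_dv.1 hh)]
  · have : 2 ∣ h.1.1 + h.1.2 := mem_dv.1 hh
    simp only [val0, Prod.fst_add, Prod.snd_add, decide_eq_decide]
    omega
  · have : 2 ∣ P.a v h.1 := mem_dv.1 hh
    simp only [val0, Prod.fst_add, map_add, decide_eq_decide]
    omega
  · simp only [val0, P.lamv_inv hh]
  · have : P.n v h.1 = 0 := hh
    simp [val0, bv, this]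

lemma ι_I' (l : LL V P.q P.u) (k : P.K) : P.ι k ∈ P.I' l := by
  rcases l with (c | c | _ | v | ⟨v, s⟩) | v <;> simp [I', ι_apply, lay_mu]

lemma al_inv (v : V) (s : Bool) {h : P.G} (h1 : P.n v h.1 = 0) (h2 : 2 ∣ P.a v h.1)
    (h3 : ((P.u v * P.u v : ℕ) : ℤ) ∣ h.1.1) (h4 : (P.r (Sum.inl (v, s)) : ℤ) ∣ P.a v h.1)
    (h5 : lay _ (h.2.2.1 v) = 0) (g : P.G) :
    P.al b (Sum.inl (v, s)) (g + h) = P.al b (Sum.inl (v, s)) g := by
  have e1 : P.lamv v (P.s0 v) (g + h) ↔ P.lamv v (P.s0 v) g :=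
    P.lamv_inv ⟨⟨by simp [h1, s0], mem_dv.2 h3⟩, h5⟩ g
  have e2 : P.bv b v (g.1 + h.1) = P.bv b v g.1 := by simp [bv, h1]
  simp only [al, e1, Prod.fst_add, e2, map_add, dvd_add_left h2, Int.cast_add, cast_zero_of h4,
    add_zero]

lemma al_ι (o : OO V P.q P.u) (g : P.G) (k : P.K) : P.al b o (g + P.ι k) = P.al b o g := by
  rcases o with ⟨v, s⟩ | l
  · exact P.al_inv b v s (by simp [ι_apply]) (by simp [ι_apply]) (by simp [ι_apply])
      (by simp [ι_apply]) (by simp [ι_apply, lay_mu]) g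
  · simp only [al, P.val0_inv b (P.ι_I' l k)]
    simp [ι_apply]

lemma equi_ka : Equi P.ι (P.ka b) := by
  intro g k
  refine Prod.ext ?_ (Prod.ext (funext fun v => ?_) (funext fun o => ?_))
  · simp [ka, ι_apply]; ring
  · simp only [ka, ku, ι_apply, Prod.fst_add, Prod.snd_add, add_zero, Pi.add_apply]
    rw [add_sub_right_comm, top_add_mu, top_add_mu]
    split_ifs
    · rfl
    · ring
  · simp only [ka, al_ι, Prod.snd_add, Pi.add_apply]
    simp [ι_apply]; ring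

lemma Q_form (φ : ℤ × ℤ →+ ℤ) {m : ℤ} {x : ℤ × ℤ} (h1 : m ∣ x.1) (h2 : m ∣ x.2) : m ∣ φ x := by
  obtain ⟨s, hs⟩ := h1
  obtain ⟨t, ht⟩ := h2
  have : x = m • (s, t) := Prod.ext hs ht
  rw [this, map_zsmul]
  exact dvd_mul_right _ _

lemma ku_inv (v : V) {h : P.G} (h1 : (P.Q : ℤ) ∣ h.1.1) (h2 : (P.Q : ℤ) ∣ h.1.2) (g : P.G) :
    P.ku v (g + h) = if 2 ∣ P.a v g.1 then top (P.u v) (g.2.2.1 v + h.2.2.1 v) else
      top (P.u v) (g.2.2.1 v + h.2.2.1 v - Int.cast (g.1.1 + h.1.1)) +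
        P.off v (P.a v g.1 : ℤ) (P.n v g.1 : ℤ) := by
  have e1 := Q_form (P.a v) h1 h2
  have e2 := Q_form (P.n v) h1 h2
  have h2Q : (2 : ℤ) ∣ P.Q := by push_cast; exact dvd_pow_self _ (by omega)
  simp only [ku, Prod.fst_add, Prod.snd_add, map_add, dvd_add_left (h2Q.trans e1), Int.cast_add,
    cast_zero_of e1, cast_zero_of e2, add_zero, Pi.add_apply]

variable [DecidableEq V]

lemma inv_ka : P.M.Inv (P.ka b) := by
  rintro (_ | v | ⟨v, s⟩ | l) h hh g
  · obtain ⟨⟨h1, h2⟩, h3⟩ := hh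
    have h3 : h.2.1 = 0 := h3
    simp [M, ka, h3, cast_zero_of (show (P.q : ℤ) ∣ h.1.1 from mem_dv.1 h1),
      cast_zero_of (show (P.q : ℤ) ∣ h.1.2 from mem_dv.1 h2)]
  · obtain ⟨⟨⟨h1, h2⟩, h3⟩, h4⟩ := hh
    have h4 : h.2.2.1 v = 0 := h4
    have := P.ku_inv v (mem_dv.1 h1) (mem_dv.1 h2) g
    rw [h4, Int.cast_add, cast_zero_of (show ((P.u v * P.u v : ℕ) : ℤ) ∣ h.1.1 from mem_dv.1 h3),
      add_zero, add_zero] at this
    exact sub_eq_zero.2 this
  · obtain ⟨⟨⟨⟨⟨h1, h2⟩, h3⟩, h4⟩, h5⟩, h6⟩ := hh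
    have h6 : h.2.2.2 (Sum.inl (v, s)) = 0 := h6
    simp [M, ka, P.al_inv b v s h1 (mem_dv.1 h2) (mem_dv.1 h3) (mem_dv.1 h4) h5, h6]
  · obtain ⟨⟨h1, h2⟩, h3⟩ := hh
    have h3 : h.2.2.2 (Sum.inr l) = 0 := h3
    simp [M, ka, al, P.val0_inv b h1, h3,
      cast_zero_of (show (P.r (Sum.inr l) : ℤ) ∣ P.a (P.lv l) h.1 from mem_dv.1 h2)]

lemma lab_ka (l : LL V P.q P.u) (g : P.G) :
    P.ka b (g + (P.M.dir l + if P.val0 b l g then P.M.ι (P.M.un l) else 0)) - P.ka b g ∈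
      P.M.N (P.M.cl l) := by
  have h1 : P.val0 b l (g + P.M.dir l) = P.val0 b l g :=
    P.val0_inv b (P.dir_I' l l (Or.inr rfl)) g
  have h2 : (P.ka b (g + P.M.dir l) - P.ka b g).2.2 (Sum.inr l) =
      - if P.val0 b l g then 1 else 0 := by
    simp only [ka, al, h1, Prod.snd_sub, Pi.sub_apply]
    have : ((P.c (P.cl l) : ℤ) : ZMod (P.r (Sum.inr l))) = 1 := cast_one_of (P.c1 (P.cl l))
    split_ifs <;> simp [M, P.aw, this]
  split_ifs at h2 ⊢
  · rw [← add_assoc, show P.M.ι = P.ι from rfl, P.equi_ka, add_sub_right_comm]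
    show (P.ka b (g + P.M.dir l) - P.ka b g).2.2 (Sum.inr l) + (P.M.un l).2.2 (Sum.inr l) = 0
    rw [h2]
    simp [M, eo]
  · rw [add_zero]
    exact h2.trans neg_zero

theorem sys_ka {R : ℤ} (hQ : (P.Q : ℤ) ∣ R) (hu : ∀ v, ((P.u v * P.u v : ℕ) : ℤ) ∣ R)
    {Ω : Set (V → Bool)} (hw : ∀ x v, b (x + P.w v) v = b x v) (hΩ : ∀ x, b x ∈ Ω)
    (hm : ∀ x, b (x + (0, 1)) P.v0 = !(b x P.v0)) (h00 : b 0 P.v0 = false) :
    P.Sys R Ω (P.ka b) (P.val0 b) := by
  have c2q : ((P.c2 : ℤ) : ZMod P.q) = 1 := cast_one_of (P.c1 (Sum.inl ()))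
  have c2Q : (P.Q : ℤ) ∣ P.c2 - 1 := P.Q_q.trans (P.c1 (Sum.inl ()))
  have h2R := P.two_Q.trans hQ
  have hbv : ∀ y v, P.bv b v ((P.Q : ℤ) • y) = b y v := fun y v => by
    rw [bv, map_zsmul, smul_eq_mul, if_pos (dvd_mul_right _ _),
      Int.mul_ediv_cancel_left _ (by positivity)]
    conv_rhs => rw [P.dec v y, add_comm]
    exact (inv_zsmul (fun x => b x v) _ (fun x => hw x v) _ _).symm
  refine ⟨fun c g h => ?_, fun c g h => ?_, fun e g h => ?_, fun g => ⟨⟨(g.1.1 : ℤ), by simp [val0]⟩,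
    ⟨(g.1.2 : ℤ), by simp [val0]⟩, fun c c' h h' => ?_⟩, fun c g h => ?_, fun v e g h => ?_,
    fun v s g h => ?_, fun v s e g h h' => ?_, fun v s e g h => ?_, fun v s g h h' => ?_,
    fun p hp g => ?_⟩
  · rw [← of_decide_eq_true h]
    simp [ka, ι_apply, c2q]; ring
  · rw [← of_decide_eq_true h]
    simp [ka, ι_apply, c2q]; ring
  · have : (P.ka b (g + (P.hz P.c2 (1, 1) + P.ι (if e then 1 else 0, 0, 0))) - P.ka b g).1 =
        (((if e then 1 else 0) - g.1.1 - g.1.2 - 1 : ℤ) : ZMod P.q) := by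
      simp [ka, ι_apply, c2q]; ring
    rw [this, Q_mul_eq_zero, ← h]
    simp only [val0, decide_eq_true_eq]
    split_ifs <;> omega
  · rw [← of_decide_eq_true h, ← of_decide_eq_true h']
    refine ⟨?_, fun v => ?_, fun h1 h2 v => ?_⟩
    · have : ((g.1.1 : ℤ) : ZMod P.q) + (g.1.2 : ℤ) + 1 -
          (if P.val0 b (Sum.inl PL.D) g then 1 else 0) =
          ((g.1.1 + g.1.2 + 1 - (if 2 ∣ g.1.1 + g.1.2 then 1 else 0) : ℤ) : ZMod P.q) := by
        simp [val0]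
      rw [this, Q_mul_eq_zero]
      split_ifs <;> omega
    · have : P.a v g.1 = P.a v (1, 0) * g.1.1 + P.a v (0, 1) * g.1.2 := by
        rw [mul_comm, mul_comm (P.a v (0, 1)), ← smul_eq_mul, ← smul_eq_mul, ← map_zsmul,
          ← map_zsmul, ← map_add]
        simp
      rw [← Int.cast_mul, ← Int.cast_mul, ← Int.cast_add, ← this, Ne, Q_mul_eq_zero]
      simp [val0]
    · rw [two_mul_eq_zero] at h1 h2
      set s := top (P.u v) (g.2.2.1 v) - top (P.u v) (g.2.2.1 v - Int.cast g.1.1) with hs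
      refine ⟨⟨s.val, ZMod.val_lt s⟩, decide_eq_true ⟨(Q_form _ h1 h2).sub
        ((Q_form _ h1 h2).mul_left _), ?_⟩⟩
      simp [hs]
  · rw [← of_decide_eq_true h]
    simp only [val0, bv, P.n0, ne_eq, ZMod.intCast_zmod_eq_zero_iff_dvd]
    split_ifs with h1
    · obtain ⟨t, ht⟩ := h1
      have hq : ((P.q : ℕ) : ℤ) ∣ g.1.2 ↔ 2 ∣ t := by
        rw [ht, show ((P.q : ℕ) : ℤ) = P.Q * 2 by push_cast; ring,
          mul_dvd_mul_iff_left (by positivity)]
      simp only [hq]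
      rw [ht, Int.mul_ediv_cancel_left _ (by positivity)]
      have hT : ∀ t : ℤ, b (t • P.T P.v0) P.v0 = b (0, t) P.v0 := fun t => by
        have h2 := P.nT P.v0
        rw [P.n0] at h2
        have : t • P.T P.v0 = (0, t) + (t * (P.T P.v0).1) • P.w P.v0 := by
          rw [P.w0]; ext <;> simp [h2]
        rw [this]
        exact inv_zsmul (fun x => b x P.v0) _ (fun x => hw x P.v0) _ _
      rw [hT]
      clear ht hq
      induction t using Int.induction_on with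
      | zero => exact h00.trans (by simp)
      | succ t ih =>
        have := hm (0, t)
        simp only [Prod.mk_add_mk, add_zero] at this
        rw [this, ih]
        by_cases h2 : (2 : ℤ) ∣ t
        · simp [h2]; omega
        · simp [h2]; omega
      | pred t ih =>
        have := hm (0, -(t : ℤ) - 1)
        simp only [Prod.mk_add_mk, add_zero, sub_add_cancel] at this
        rw [ih] at this
        rw [← Bool.not_not (b _ _), ← this]
        by_cases h2 : (2 : ℤ) ∣ -(t : ℤ)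
        · simp only [h2]; simp; omega
        · simp only [h2]; simp; omega
    · simpa using fun h2 => h1 (P.Q_q.trans h2)
  · have hc : (P.Q : ℤ) ∣ P.cu v := P.Q_q.trans (P.q_c (by simp))
    have hc1 : ((P.cu v : ℤ) : ZMod (P.u v * P.u v)) = 1 := cast_one_of (P.c1 (Sum.inr (Sum.inl v)))
    have := P.ku_inv v (h := P.hz (P.cu v) (1, 0) + P.eu v (if e then 1 else 0))
      (by simpa [Par.eu] using hc) (by simp [Par.eu]) g
    refine sub_eq_zero.2 (this.trans ?_)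
    subst h
    by_cases h2 : 2 ∣ P.a v g.1 <;> simp [ka, ku, val0, h2, Par.eu, hc1]
  · have h1 : P.lamv v s g := of_decide_eq_true h
    have key : ∀ g, P.lamv v s g → P.ku v g = top (P.u v) (g.2.2.1 v) := fun g hg => by
      rw [ku]
      split_ifs with h2
      · rfl
      · rw [P.off_eq v s h2 hg.1, hg.2]
    have h2 : P.lamv v s (g + P.hz P.c2 (P.w v + ((s : ℕ) : ℤ) • P.T v)) :=
      (P.lamv_inv ⟨⟨by simp [-zsmul_eq_mul, -natCast_zsmul, P.aw, P.nw, P.aT, P.nT, mul_comm],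
        by simpa using (P.u_c v (i := Sum.inl ()) (by simp)).mul_right _⟩, by simp⟩ g).2 h1
    refine sub_eq_zero.2 (((key _ h2).trans ?_).trans (key _ h1).symm)
    simp
  · have h1 : 2 ∣ P.a v g.1 := by simpa [val0] using h
    have h2 : ¬ P.lamv v (P.s0 v) g := by simpa [val0] using h'
    have h3 := (P.lamv_inv (v := v) (s := P.s0 v) (h := P.hz R (if e then (1, 0) else (0, 1)))
      ⟨⟨by simpa [s0] using hQ.mul_right _, by simpa using (hu v).mul_right _⟩, by simp⟩ g)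
    simp [ka, al, h1, h2, h3, dvd_add_left (h2R.mul_right _), -Int.two_dvd_ne_zero]
  · have h1 : ¬ 2 ∣ P.a v g.1 := by simpa only [val0, decide_eq_true_eq] using h
    rw [← add_assoc, P.equi_ka]
    simp only [ka, al, Prod.snd_sub, Prod.snd_add, Pi.sub_apply, Pi.add_apply, Prod.fst_add, map_add,
      hz_a, dvd_add_left (h2R.mul_right _), h1, not_false_eq_true, true_or, if_true]
    simp [eo]
    ring
  · have h1 : P.lamv v (P.s0 v) g := of_decide_eq_true h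
    have h2 : P.bv b v g.1 = s := h'
    have h3 := (P.lamv_inv (v := v) (s := P.s0 v) (h := P.hz P.c2 (P.w v))
      ⟨⟨by simp [s0, P.nw], by simpa using (P.u_c v (i := Sum.inl ()) (by simp)).mul_right _⟩,
        by simp⟩ g).2 h1
    have h4 : P.bv b v (g.1 + (P.hz P.c2 (P.w v)).1) = s := by rw [← h2]; simp [bv, P.nw]
    simp [ka, al, h1, h2, h3, h4, cast_zero_of (P.r_c (i := Sum.inl ()) (Sum.inl (v, s)) (by simp))]
  · have : ∃ v, ∀ g' : P.G, g'.1 = g.1 → ¬ (P.lamv v (P.s0 v) g' ∧ P.bv b v g'.1 = p v) := by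
      by_cases h1 : (P.Q : ℤ) ∣ g.1.1
      · by_cases h2 : (P.Q : ℤ) ∣ g.1.2
        · obtain ⟨s, hs⟩ := h1
          obtain ⟨t, ht⟩ := h2
          have e : g.1 = (P.Q : ℤ) • (s, t) := Prod.ext hs ht
          by_contra hc
          push Not at hc
          refine hp ((funext fun v => ?_ : b (s, t) = p) ▸ hΩ _)
          obtain ⟨g', h3, -, h4⟩ := hc v
          rw [← h4, h3, e, hbv]
        · exact ⟨P.v0, fun g' e h => h2 (by simpa [s0, P.n0, e] using h.1.1)⟩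
      · exact ⟨P.v1, fun g' e h => h1 (by simpa [s0, P.n1, e] using h.1.1)⟩
    obtain ⟨v, hv⟩ := this
    refine ⟨v, ?_⟩
    have h1 := hv g rfl
    have h2 := hv (g + P.eu v 1) (by simp [Par.eu])
    simp only [ka, al, h1, h2, Prod.snd_sub, Pi.sub_apply]
    simp [Par.eu]

end Par

end Vale.Agent.P043
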