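import Vale.Agent.P043.Encode
import Vale.Agent.P043.Concat

/-! An aperiodic tile in `ℤ^d` for every `d ≥ 4`. -/

namespace Vale.Agent.P043

lemma exists_gen {G : Type*} [AddCommGroup G] [Module.Finite ℤ G] (H : AddSubgroup G) :
    ∃ T : Set G, T.Finite ∧ AddSubgroup.closure T = H := by
  have h : (AddSubgroup.toIntSubmodule H).FG := IsNoetherian.noetherian _
  rw [Submodule.fg_iff_addSubgroup_fg] at h
  obtain ⟨S, hS⟩ := h
  exact ⟨S, S.finite_toSet, hS⟩

lemma exists_moduli (V : Type) [Fintype V] : ∃ n : V → ℕ, (∀ v, 1 < n v) ∧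
    ∀ (r : ZMod 4) (t : TT n), ∃ s : ℤ, (s : ZMod 4) = r ∧ ∀ v, (s : ZMod (n v)) = t v := by
  classical
  let e := Fintype.equivFin V
  let n : V → ℕ := fun v => Nat.nth Nat.Prime (e v + 1)
  have hp : ∀ v, (n v).Prime := fun v => Nat.prime_nth_prime _
  have hinj : Function.Injective (Nat.nth Nat.Prime) := Nat.nth_injective Nat.infinite_setOfPred_prime
  have h2 : ∀ v, n v ≠ 2 := by
    intro v h
    have : Nat.nth Nat.Prime (e v + 1) = Nat.nth Nat.Prime 0 := by
      rw [Nat.nth_prime_zero_eq_two]; exact h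
    have := hinj this
    omega
  let a : Option V → ℕ := fun o => o.elim 4 n
  have h4 : ∀ v, Nat.Coprime 4 (n v) := by
    intro v
    have : Nat.Coprime 2 (n v) := (Nat.coprime_primes Nat.prime_two (hp v)).2 (h2 v).symm
    exact Nat.Coprime.pow_left 2 this
  have hcop : Pairwise (Function.onFun Nat.Coprime a) := by
    rintro (_ | v) (_ | v') h
    · exact (h rfl).elim
    · exact h4 v'
    · exact (h4 v).symm
    · refine (Nat.coprime_primes (hp v) (hp v')).2 fun h' => h ?_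
      have := hinj h'
      have h3 : e v = e v' := Fin.ext (by omega)
      rw [e.injective h3]
  refine ⟨n, fun v => (hp v).one_lt, fun r t => ?_⟩
  let y : (o : Option V) → ZMod (a o) := fun o => match o with
    | none => r
    | some v => t v
  obtain ⟨x, hx⟩ := (ZMod.prodEquivPi a hcop).surjective y
  obtain ⟨s, rfl⟩ := ZMod.intCast_surjective x
  rw [map_intCast] at hx
  exact ⟨s, congrFun hx none, fun v => congrFun hx (some v)⟩

theorem aperSys_four : AperSys (((ℤ × ℤ) × ℤ) × ℤ) := by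
  classical
  obtain ⟨n, hn, hs⟩ := exists_moduli SV
  have h := aperSys_encode n hn sW (Sum.inr 0) sW_zero SOmega exists_sol
    (fun b hb N hN hp => not_periodic b hb N hN hp)
  let π : ((ℤ × ℤ) × ℤ) × ℤ →+ BB n × KK n :=
    { toFun := fun p => ((p.1.1, fun v => (p.1.2 : ZMod (n v))),
        (fun v => (p.2 : ZMod (n v)), ((p.1.2 : ZMod 4), (p.2 : ZMod 4))))
      map_zero' := by ext <;> simp
      map_add' := by intro p q; ext <;> simp }
  obtain ⟨T, hT, hgen⟩ := exists_gen π.ker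
  refine h.lift π ?_ T hT (fun x => by rw [hgen, AddMonoidHom.mem_ker])
  rintro ⟨⟨x, t⟩, y, r1, r2⟩
  obtain ⟨s1, h1, h1'⟩ := hs r1 t
  obtain ⟨s2, h2, h2'⟩ := hs r2 y
  refine ⟨((x, s1), s2), ?_⟩
  ext <;> simp [π, h1, h2, h1', h2']

theorem exists_aperTile (d : ℕ) (hd : 4 ≤ d) : ∃ F : Finset (Fin d → ℤ), AperTile F := by
  classical
  obtain ⟨T, hT, hgen⟩ := exists_gen (⊤ : AddSubgroup ((ℤ × ℤ) × ℤ))
  obtain ⟨F, hF⟩ := aperSys_four.tile T hT hgen
  let ι : ((ℤ × ℤ) × ℤ) × ℤ →+ (Fin d → ℤ) :=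
    { toFun := fun p i => if i.1 = 0 then p.1.1.1 else if i.1 = 1 then p.1.1.2 else
        if i.1 = 2 then p.1.2 else if i.1 = 3 then p.2 else 0
      map_zero' := by ext; simp
      map_add' := by intro p q; ext i; simp only [Pi.add_apply]; split_ifs <;> simp }
  refine ⟨_, hF.embed ι ?_⟩
  intro p q h
  have h0 := congrFun h ⟨0, by omega⟩
  have h1 := congrFun h ⟨1, by omega⟩
  have h2 := congrFun h ⟨2, by omega⟩
  have h3 := congrFun h ⟨3, by omega⟩
  simp [ι] at h0 h1 h2 h3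
  exact Prod.ext (Prod.ext (Prod.ext h0 h1) h2) h3

end Vale.Agent.P043
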