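import Vale.Agent.P043.Four

/-! Equivariant height functions, labels and gated clauses. -/

namespace Vale.Agent.P043

variable {G K : Type*} [AddCommGroup G] [AddCommGroup K]

/-- equivariance of a height function -/
def Equi (ι : K →+ G) (κ : G → K) : Prop := ∀ g k, κ (g + ι k) = κ g + k

lemma aperSys_of_equi [Finite K] (ι : K →+ G) (E : Set ((K → G) × (K → K))) (hE : E.Finite)
    (hex : ∃ κ, Equi ι κ ∧ ∀ Φ ∈ E, Sat κ Φ)
    (hno : ∀ κ, Equi ι κ → (∀ Φ ∈ E, Sat κ Φ) → ∀ N : ℕ, 0 < N →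
      (∀ b g, κ (b + N • g) = κ b) → False) : AperSys G := by
  classical
  have := Fintype.ofFinite K
  let tile : (K → G) × (K → K) → Finset G := fun Φ =>
    Finset.univ.image fun k => -(Φ.1 k + ι (Φ.2 k))
  have htile : ∀ Φ x, x ∈ (tile Φ : Set G) ↔ ∃ k, -(Φ.1 k + ι (Φ.2 k)) = x := by
    intro Φ x; simp [tile]
  have h1 : ∀ κ Φ, Equi ι κ → Sat κ Φ → IsTiling {x : G | κ x = 0} (tile Φ : Set G) := by
    intro κ Φ he hs
    refine isTiling_iff.2 ⟨fun g => ?_, ?_⟩
    · obtain ⟨k, hk⟩ := (hs g).2 0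
      refine ⟨g + Φ.1 k + ι (Φ.2 k), ?_, _, (htile _ _).2 ⟨k, rfl⟩, by abel⟩
      show κ _ = 0
      rw [he]; exact hk
    · intro a ha x hx a' ha' x' hx' e
      obtain ⟨k, rfl⟩ := (htile _ _).1 hx
      obtain ⟨k', rfl⟩ := (htile _ _).1 hx'
      have e3 : k = k' := by
        apply (hs (a + -(Φ.1 k + ι (Φ.2 k)))).1
        simp only
        rw [← he, ← he]
        have f1 : a + -(Φ.1 k + ι (Φ.2 k)) + Φ.1 k + ι (Φ.2 k) = a := by abel
        have f2 : a + -(Φ.1 k + ι (Φ.2 k)) + Φ.1 k' + ι (Φ.2 k') = a' := by rw [e]; abel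
        rw [f1, f2]
        exact ha.trans ha'.symm
      subst e3
      exact add_right_cancel e
  obtain ⟨κ0, he0, hκ0⟩ := hex
  have hinj : Function.Injective ι := fun k k' h => by
    have := he0 0 k
    rw [h, he0] at this
    exact (add_left_cancel this).symm
  let Φ0 : (K → G) × (K → K) := (fun _ => 0, id)
  refine ⟨tile '' (insert Φ0 E), (hE.insert _).image _, ⟨{x : G | κ0 x = 0}, ?_⟩, ?_⟩
  · rintro _ ⟨Φ, hΦ | hΦ, rfl⟩
    · refine h1 _ _ he0 ?_
      subst hΦ
      intro b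
      simpa [Φ0] using (AddGroup.addLeft_bijective (κ0 b))
    · exact h1 _ _ he0 (hκ0 Φ hΦ)
  · intro A hA hper
    have hA0 := isTiling_iff.1 (hA _ ⟨Φ0, Or.inl rfl, rfl⟩)
    have hex : ∀ b, ∃ y, b - ι y ∈ A := by
      intro b
      obtain ⟨a, ha, x, hx, e⟩ := hA0.1 b
      obtain ⟨k, rfl⟩ := (htile _ _).1 hx
      refine ⟨-k, ?_⟩
      have : b - ι (-k) = a := by rw [← e]; simp [Φ0]
      rwa [this]
    choose κ hκ using hex
    have huniq : ∀ b y, b - ι y ∈ A → y = κ b := by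
      intro b y hy
      have := hA0.2 _ hy _ ((htile _ _).2 ⟨-y, rfl⟩) _ (hκ b) _ ((htile _ _).2 ⟨-κ b, rfl⟩)
        (by simp [Φ0])
      exact hinj (sub_right_injective this)
    have he : Equi ι κ := fun g k => (huniq _ _ (by simpa using hκ g)).symm
    obtain ⟨N, hN, hp⟩ := hper
    refine hno κ he (fun Φ hΦ b => ?_) N hN (fun b g => ?_)
    · apply Function.Injective.bijective_of_finite
      intro k k' e
      have hT := isTiling_iff.1 (hA _ ⟨Φ, Or.inr hΦ, rfl⟩)
      simp only at e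
      have h2 := hT.2 _ (hκ (b + Φ.1 k + ι (Φ.2 k))) _ ((htile _ _).2 ⟨k, rfl⟩) _
        (hκ (b + Φ.1 k' + ι (Φ.2 k'))) _ ((htile _ _).2 ⟨k', rfl⟩) (by rw [he, he, e]; abel)
      rw [he, he, e] at h2
      apply (hκ0 Φ hΦ b).1
      simp only
      rw [← he0, ← he0, sub_left_injective h2]
    · refine (huniq _ _ ?_).symm
      have := hp g _ (hκ b)
      rwa [sub_add_eq_add_sub] at this

/-- The data of a label machine. -/
structure Mach (G K C L : Type*) [AddCommGroup G] [AddCommGroup K] where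
  ι : K →+ G
  N : C → AddSubgroup K
  I : C → AddSubgroup G
  cl : L → C
  dir : L → G
  un : L → K
  un_not : ∀ l, un l ∉ N (cl l)

/-- Gated clauses. -/
structure Cl (G K C L : Type*) [AddCommGroup G] [AddCommGroup K] where
  S : Finset L
  pat : L → Bool
  T : Finset (C × AddSubgroup K × G)

variable {C L : Type*}

namespace Mach

variable (M : Mach G K C L)

/-- the side conditions of a clause -/
def Valid (c : Cl G K C L) : Prop :=
  (c.S.Nonempty ∨ c.T.Nonempty) ∧
  (∀ l ∈ c.S, ∀ l' ∈ c.S, l ≠ l' → M.dir l ∈ M.I (M.cl l') ∧ M.un l ∈ M.N (M.cl l')) ∧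
  (∀ l ∈ c.S, ∀ t ∈ c.T, M.dir l ∈ M.I t.1 ∧ M.un l ∈ M.N t.1 ∧ t.2.2 ∈ M.I (M.cl l)) ∧
  (∀ t ∈ c.T, M.N t.1 ≤ t.2.1) ∧ ∀ t ∈ c.T, ∀ t' ∈ c.T, t ≠ t' → t.2.2 ∈ M.I t'.1

/-- the meaning of a clause -/
def Holds (κ : G → K) (val : L → G → Bool) (c : Cl G K C L) : Prop :=
  ∀ g, (∀ l ∈ c.S, val l g = c.pat l) → ∃ t ∈ c.T, κ (g + t.2.2) - κ g ∈ t.2.1

/-- invariance of the components -/
def Inv (κ : G → K) : Prop := ∀ c, ∀ h ∈ M.I c, ∀ g, κ (g + h) - κ g ∈ M.N c

/-- properties expressible by clauses -/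
def Expr (P : (G → K) → (L → G → Bool) → Prop) : Prop :=
  ∃ E : Set (Cl G K C L), E.Finite ∧ (∀ c ∈ E, M.Valid c) ∧
    ∀ κ val, (∀ c ∈ E, Holds κ val c) ↔ P κ val

variable {M}

lemma Expr.and {P Q : (G → K) → (L → G → Bool) → Prop} (hP : M.Expr P) (hQ : M.Expr Q) :
    M.Expr fun κ val => P κ val ∧ Q κ val := by
  obtain ⟨E, h1, h2, h3⟩ := hP
  obtain ⟨E', h1', h2', h3'⟩ := hQ
  refine ⟨E ∪ E', h1.union h1', fun c hc => hc.elim (h2 c) (h2' c), fun κ val => ?_⟩
  simp only [Set.mem_union, or_imp, forall_and, h3, h3']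

lemma Expr.all {J : Type*} [Finite J] {P : J → (G → K) → (L → G → Bool) → Prop}
    (hP : ∀ j, M.Expr (P j)) : M.Expr fun κ val => ∀ j, P j κ val := by
  choose E h1 h2 h3 using hP
  refine ⟨⋃ j, E j, Set.finite_iUnion h1, fun c hc => ?_, fun κ val => ?_⟩
  · obtain ⟨j, hj⟩ := Set.mem_iUnion.1 hc
    exact h2 j c hj
  · simp only [Set.mem_iUnion, forall_exists_index, ← h3]
    exact ⟨fun h j c hc => h c j hc, fun h c j hc => h j c hc⟩

lemma Expr.of_iff {P Q : (G → K) → (L → G → Bool) → Prop} (hP : M.Expr P)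
    (h : ∀ κ val, P κ val ↔ Q κ val) : M.Expr Q := by
  obtain ⟨E, h1, h2, h3⟩ := hP
  exact ⟨E, h1, h2, fun κ val => (h3 κ val).trans (h κ val)⟩

lemma Expr.single {c : Cl G K C L} (hc : M.Valid c) : M.Expr fun κ val => Holds κ val c :=
  ⟨{c}, Set.finite_singleton _, by simpa using hc, by simp⟩

lemma Expr.imp {p : Prop} {P : (G → K) → (L → G → Bool) → Prop} (hP : M.Expr P) :
    M.Expr fun κ val => p → P κ val := by
  by_cases h : p
  · exact hP.of_iff fun κ val => by simp [h]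
  · exact ⟨∅, Set.finite_empty, by simp, by simp [h]⟩

lemma Expr.gate1 (l : L) (b : Bool) (c : C) (N : AddSubgroup K) (h : G) (h1 : M.dir l ∈ M.I c)
    (h2 : M.un l ∈ M.N c) (h3 : h ∈ M.I (M.cl l)) (h4 : M.N c ≤ N) :
    M.Expr fun κ val => ∀ g, val l g = b → κ (g + h) - κ g ∈ N :=
  (Expr.single (c := ⟨{l}, fun _ => b, {(c, N, h)}⟩)
    ⟨by simp, by simp, by simp [h1, h2, h3], by simp [h4], by simp⟩).of_iff
    fun κ val => by simp [Holds]

lemma Expr.gate2 (l l' : L) (hne : l ≠ l') (b b' : Bool) (c : C) (h : G)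
    (h1 : M.dir l ∈ M.I c) (h2 : M.un l ∈ M.N c) (h3 : h ∈ M.I (M.cl l))
    (h1' : M.dir l' ∈ M.I c) (h2' : M.un l' ∈ M.N c) (h3' : h ∈ M.I (M.cl l'))
    (h5 : M.dir l ∈ M.I (M.cl l')) (h6 : M.un l ∈ M.N (M.cl l'))
    (h5' : M.dir l' ∈ M.I (M.cl l)) (h6' : M.un l' ∈ M.N (M.cl l)) :
    M.Expr fun κ val => ∀ g, val l g = b → val l' g = b' → κ (g + h) - κ g ∈ M.N c := by
  classical
  exact (Expr.single (c := ⟨{l, l'}, fun x => if x = l then b else b', {(c, M.N c, h)}⟩)
    ⟨by simp, by simp [*], by simp [*], by simp, by simp⟩).of_iff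
    fun κ val => by simp [Holds, hne.symm]

lemma Expr.bool2 (l l' : L) (hne : l ≠ l') (b b' : Bool)
    (h5 : M.dir l ∈ M.I (M.cl l')) (h6 : M.un l ∈ M.N (M.cl l'))
    (h5' : M.dir l' ∈ M.I (M.cl l)) (h6' : M.un l' ∈ M.N (M.cl l)) :
    M.Expr fun _ val => ∀ g, val l g = b → val l' g = b' := by
  classical
  exact (Expr.single (c := ⟨{l, l'}, fun x => if x = l then b else !b', ∅⟩)
    ⟨by simp, by simp [*], by simp, by simp, by simp⟩).of_iff
    fun κ val => by simp [Holds, hne.symm]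

lemma Expr.bool {P : Type*} [Finite P] [Nonempty P] (e : P → L) (he : Function.Injective e)
    (h : ∀ p p', p ≠ p' → M.dir (e p) ∈ M.I (M.cl (e p')) ∧ M.un (e p) ∈ M.N (M.cl (e p')))
    (Ω : (P → Bool) → Prop) : M.Expr fun _ val => ∀ g, Ω fun p => val (e p) g := by
  classical
  have := Fintype.ofFinite P
  have : ∀ q : P → Bool, M.Expr fun _ val => ¬ Ω q → ∀ g, (fun p => val (e p) g) ≠ q := by
    intro q
    refine Expr.imp ((Expr.single (c := ⟨Finset.univ.image e, Function.extend e q fun _ => false,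
      ∅⟩) ⟨by simp, ?_, by simp, by simp, by simp⟩).of_iff fun κ val => ?_)
    · simp only [Finset.mem_image, Finset.mem_univ, true_and, forall_exists_index,
        forall_apply_eq_imp_iff]
      exact fun p p' hne => h p p' fun H => hne (by rw [H])
    · simp [Holds, he.extend_apply, funext_iff]
  refine (Expr.all this).of_iff fun κ val => ⟨fun H g => ?_, fun H q hq g e => hq (e ▸ H g)⟩
  by_contra hc
  exact H _ hc g rfl

lemma Expr.nand {J : Type*} [Finite J] [Nonempty J] (c : J → C) (h : J → G)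
    (hh : ∀ i j, i ≠ j → h i ∈ M.I (c j)) :
    M.Expr fun κ _ => ∀ g, ∃ j, κ (g + h j) - κ g ∈ M.N (c j) := by
  classical
  have := Fintype.ofFinite J
  refine (Expr.single (c := ⟨∅, fun _ => false, Finset.univ.image fun j => (c j, M.N (c j), h j)⟩)
    ⟨by simp, by simp, by simp, by simp, ?_⟩).of_iff fun κ val => by simp [Holds]
  simp only [Finset.mem_image, Finset.mem_univ, true_and, forall_exists_index,
    forall_apply_eq_imp_iff]
  exact fun i j hne => hh i j fun H => hne (by rw [H])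

lemma Inv.shift {κ : G → K} (hκ : M.Inv κ) {c : C} {h : G} (hh : h ∈ M.I c) {N : AddSubgroup K}
    (hN : M.N c ≤ N) (g x : G) : κ (g + h + x) - κ (g + h) ∈ N ↔ κ (g + x) - κ g ∈ N := by
  have h1 := hN (hκ c h hh (g + x))
  have h2 := hN (hκ c h hh g)
  have e : κ (g + h + x) - κ (g + h) =
      (κ (g + x) - κ g) + ((κ (g + x + h) - κ (g + x)) - (κ (g + h) - κ g)) := by
    rw [add_right_comm g h x]; abel
  rw [e]
  exact AddSubgroup.add_mem_cancel_right N (N.sub_mem h1 h2)

/-- the subgroup of a literal -/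
def litN (M : Mach G K C L) (c : Cl G K C L) : c.S ⊕ c.T → AddSubgroup K
  | Sum.inl l => M.N (M.cl l)
  | Sum.inr t => t.1.2.1

/-- the probe of a literal -/
def litH (M : Mach G K C L) (c : Cl G K C L) : c.S ⊕ c.T → G
  | Sum.inl l => M.dir l + if c.pat l then 0 else M.ι (M.un l)
  | Sum.inr t => t.1.2.2

lemma sat_iff [Finite K] {c : Cl G K C L} (hc : M.Valid c) {ν : c.S ⊕ c.T → c.S ⊕ c.T}
    (hν : Cyc ν) {κ : G → K} (he : Equi M.ι κ) (hκ : M.Inv κ) :
    Sat κ (clause ν (M.litN c) (M.litH c) fun _ => 0) ↔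
      ∀ g, ∃ j, κ (g + M.litH c j) - κ g ∈ M.litN c j := by
  have : Nonempty (c.S ⊕ c.T) := by
    rcases hc.1 with ⟨l, hl⟩ | ⟨t, ht⟩
    · exact ⟨Sum.inl ⟨l, hl⟩⟩
    · exact ⟨Sum.inr ⟨t, ht⟩⟩
  have key : ∀ (l : c.S) (d : C), M.dir l ∈ M.I d → M.un l ∈ M.N d → ∀ b,
      κ (b + M.litH c (Sum.inl l)) - κ b ∈ M.N d := by
    intro l d h1 h2 b
    simp only [litH]
    split_ifs
    · rw [add_zero]; exact hκ d _ h1 b
    · rw [← add_assoc, he, add_sub_right_comm]
      exact (M.N d).add_mem (hκ d _ h1 b) h2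
  rw [sat_clause_iff ν hν]
  · simp
  · rintro (l | t) (l' | t') hne b
    · have := hc.2.1 l' l'.2 l l.2 fun H => hne (by rw [Subtype.ext H])
      exact key l' _ this.1 this.2 b
    · exact hκ _ _ (hc.2.2.1 l l.2 t' t'.2).2.2 b
    · have := hc.2.2.1 l' l'.2 t t.2
      exact hc.2.2.2.1 t t.2 (key l' _ this.1 this.2.1 b)
    · exact hc.2.2.2.1 t t.2 (hκ _ _ (hc.2.2.2.2 t' t'.2 t t.2
        fun H => hne (by rw [Subtype.ext H])) b)
  · intro i j _; exact zero_mem _

theorem aperSys [Finite K] [Finite C] [Module.Finite ℤ G]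
    {P : (G → K) → (L → G → Bool) → Prop} (hP : M.Expr P)
    (hex : ∃ κ val, Equi M.ι κ ∧ M.Inv κ ∧
      (∀ l g, κ (g + (M.dir l + if val l g then M.ι (M.un l) else 0)) - κ g ∈ M.N (M.cl l)) ∧
      P κ val)
    (hno : ∀ κ val, Equi M.ι κ → M.Inv κ → (∀ l, ∀ h ∈ M.I (M.cl l), ∀ g, val l (g + h) = val l g) →
      (∀ l g, val l (g + M.dir l) = val l g) → (∀ l g k, val l (g + M.ι k) = val l g) → P κ val →
      ∀ N : ℕ, 0 < N → (∀ l b g, val l (b + N • g) = val l b) → False) : AperSys G := by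
  classical
  obtain ⟨E, hE, hv, hPE⟩ := hP
  choose ν hν using fun c : Cl G K C L => exists_cyc (c.S ⊕ c.T)
  choose T hT hgen using fun c : C => exists_gen (M.I c)
  let U : Set ((K → G) × (K → K)) := ⋃ c, (fun t => clause (J := Unit) id (fun _ => M.N c)
    (fun _ => t) fun _ => 0) '' T c
  have hU : ∀ κ, (∀ Φ ∈ U, Sat κ Φ) ↔ M.Inv κ := by
    intro κ
    simp only [U, Set.mem_iUnion, forall_exists_index, Set.mem_image, and_imp]
    constructor
    · intro H c h hh
      rw [← hgen] at hh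
      induction hh using AddSubgroup.closure_induction with
      | mem t ht => simpa using (sat_unit_iff _ _ _ _).1 (H _ c t ht rfl)
      | zero => simp
      | add x y _ _ hx hy =>
        intro g
        have := (M.N c).add_mem (hy (g + x)) (hx g)
        rw [add_assoc] at this
        simpa using this
      | neg x _ hx =>
        intro g
        have := (M.N c).neg_mem (hx (g + -x))
        simpa using this
    · rintro H _ c t ht rfl
      rw [sat_unit_iff]
      simpa using H c t (hgen c ▸ AddSubgroup.subset_closure ht)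
  refine aperSys_of_equi M.ι
    (U ∪ (fun c => clause (ν c) (M.litN c) (M.litH c) fun _ => 0) '' E)
    ((Set.finite_iUnion fun c => (hT c).image _).union (hE.image _)) ?_ ?_
  · obtain ⟨κ, val, he, hκ, hl, hp⟩ := hex
    refine ⟨κ, he, ?_⟩
    rintro Φ (hΦ | ⟨c, hc, rfl⟩)
    · exact (hU κ).2 hκ Φ hΦ
    · rw [sat_iff (hv c hc) (hν c) he hκ]
      intro g
      by_cases H : ∀ l ∈ c.S, val l g = c.pat l
      · obtain ⟨t, ht, h⟩ := (hPE κ val).2 hp c hc g H
        exact ⟨Sum.inr ⟨t, ht⟩, h⟩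
      · push Not at H
        obtain ⟨l, hl', hne⟩ := H
        refine ⟨Sum.inl ⟨l, hl'⟩, ?_⟩
        have := hl l g
        simp only [litH, litN]
        revert this hne
        cases val l g <;> cases c.pat l <;> simp
  · intro κ he hs N hN hper
    have hκ : M.Inv κ := (hU κ).1 fun Φ hΦ => hs Φ (Or.inl hΦ)
    let lit : L → G → Prop := fun l g => κ (g + (M.dir l + M.ι (M.un l))) - κ g ∈ M.N (M.cl l)
    let val : L → G → Bool := fun l g => decide (∀ j : ℤ, lit l (g + j • M.dir l))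
    have hval : ∀ l g g', (∀ x, lit l (g + x) ↔ lit l (g' + x)) → val l g = val l g' :=
      fun l g g' h => by simp only [val, h]
    refine hno κ val he hκ (fun l h hh g => hval _ _ _ fun x => ?_) (fun l g => ?_)
      (fun l g k => hval _ _ _ fun x => ?_) ((hPE κ val).1 fun c hc g H => ?_) N hN
      (fun l b g => hval _ _ _ fun x => ?_)
    · rw [add_right_comm]
      exact hκ.shift hh le_rfl _ _
    · simp only [val, decide_eq_decide]
      refine ⟨fun h j => ?_, fun h j => ?_⟩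
      · have := h (j - 1)
        rwa [sub_smul, one_smul, add_assoc, add_sub_cancel] at this
      · have := h (j + 1)
        rwa [add_smul, one_smul, add_comm (j • _), ← add_assoc] at this
    · simp only [lit]
      rw [add_right_comm g, add_right_comm (g + x), he, he, add_sub_add_right_eq_sub]
    · have hc' := hv c hc
      have hs' := (sat_iff hc' (hν c) he hκ).1 (hs _ (Or.inr ⟨c, hc, rfl⟩))
      have : ∀ l : c.S, ∃ j : ℤ, κ (g + j • M.dir l + M.litH c (Sum.inl l)) -
          κ (g + j • M.dir l) ∉ M.N (M.cl l) := by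
        intro l
        have h1 := H l l.2
        simp only [litH]
        cases hp : c.pat l
        · rw [hp] at h1
          simpa [val, lit] using h1
        · rw [hp] at h1
          refine ⟨0, fun h2 => M.un_not l ?_⟩
          have h3 := of_decide_eq_true h1 0
          simp only [lit, zero_smul, add_zero, if_true] at h2 h3
          rw [← add_assoc, he] at h3
          simpa using (M.N _).sub_mem h3 h2
      choose j hj using this
      obtain ⟨l | t, h⟩ := hs' (g + ∑ l : c.S, j l • M.dir l)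
      · refine (hj l ?_).elim
        rw [← Finset.add_sum_erase _ _ (Finset.mem_univ l), ← add_assoc] at h
        refine (hκ.shift (c := M.cl l) (sum_mem fun l' hl' => zsmul_mem ?_ _) le_rfl _ _).1 h
        exact (hc'.2.1 l' l'.2 l l.2 fun e => (Finset.mem_erase.1 hl').1 (Subtype.ext e)).1
      · exact ⟨t, t.2, (hκ.shift (c := t.1.1) (sum_mem fun (l : c.S) _ => zsmul_mem
          (hc'.2.2.1 l l.2 t t.2).1 _) (hc'.2.2.2.1 t t.2) _ _).1 h⟩
    · simp only [lit]
      rw [add_right_comm b, add_right_comm (b + x), hper, hper]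

end Mach

end Vale.Agent.P043
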