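import Vale.Agent.P043.Basic

/-! The 5-adic Sudoku puzzle with 18 directions: definitions. -/

namespace Vale.Agent.P043.Three

/-- index of a linear form: a class (point of the projective line over `ZMod 5`) and a lift -/
abbrev Fm := Fin 6 × Fin 3

/-- the 18 integral linear forms -/
def form (i : Fm) (y : ℤ × ℤ) : ℤ :=
  if i.1 = 5 then y.1 + 5 * ((i.2 : ℕ) + 1 : ℤ) * y.2
  else y.2 + ((i.1 : ℕ) + 5 * (i.2 : ℕ) : ℤ) * y.1

/-- a generator of the kernel of `form i` -/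
def dir (i : Fm) : ℤ × ℤ :=
  if i.1 = 5 then (-(5 * ((i.2 : ℕ) + 1 : ℤ)), 1) else (1, -((i.1 : ℕ) + 5 * (i.2 : ℕ) : ℤ))

/-- a vector on which `form i` takes the value one -/
def cod (i : Fm) : ℤ × ℤ := if i.1 = 5 then (1, 0) else (0, 1)

/-- the reduction of the forms of class `c` modulo 5 -/
def lam (c : Fin 6) (z : ZMod 5 × ZMod 5) : ZMod 5 :=
  if c = 5 then z.1 else z.2 + ((c : ℕ) : ZMod 5) * z.1

/-- `n` with all factors 5 removed (and 1 for `n = 0`) -/
def upart (n : ℤ) : ℤ := if n = 0 then 1 else n / 5 ^ padicValInt 5 n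

/-- last nonzero digit in base 5 and the digit before it -/
def sym (n : ℤ) : ZMod 5 × ZMod 5 := ((upart n : ZMod 5), ((upart n / 5 : ℤ) : ZMod 5))

/-- the argument at which the forms are evaluated; never zero -/
def arg (u : ℤ × ℤ) : ℤ × ℤ := (2 * u.1 + 1, 2 * u.2)

/-- the intended solution of the puzzle -/
def sol (i : Fm) (u : ℤ × ℤ) : ZMod 5 × ZMod 5 := sym (form i (arg u))

/-- the local structure: `z` explains the digits `f` -/
def Good (f : Fm → ZMod 5) (z : ZMod 5 × ZMod 5) : Prop :=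
  z ≠ 0 ∧ (∀ i : Fm, lam i.1 z ≠ 0 → f i = lam i.1 z) ∧
    ∀ c : Fin 6, lam c z = 0 → ¬ (f (c, 0) = f (c, 1) ∧ f (c, 0) = f (c, 2))

lemma form_arg_add (i : Fm) (u v : ℤ × ℤ) :
    form i (arg (u + v)) = form i (arg u) + 2 * form i v := by
  unfold form arg
  split_ifs <;> simp <;> ring

lemma form_dir (i : Fm) : form i (dir i) = 0 := by
  unfold form dir
  split_ifs <;> simp

lemma form_cod (i : Fm) : form i (cod i) = 1 := by
  unfold form cod
  split_ifs <;> simp

lemma sol_add_dir (i : Fm) (u : ℤ × ℤ) : sol i (u + dir i) = sol i u := by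
  simp [sol, form_arg_add, form_dir]

lemma upart_spec (n : ℤ) (hn : n ≠ 0) :
    n = 5 ^ padicValInt 5 n * upart n ∧ ¬ (5 : ℤ) ∣ upart n := by
  have : Fact (Nat.Prime 5) := ⟨by norm_num⟩
  have h1 : ((5 : ℕ) : ℤ) ^ padicValInt 5 n ∣ n := padicValInt_dvd n
  have h2 : n = 5 ^ padicValInt 5 n * upart n := by
    simp only [upart, hn, if_false]
    exact (Int.mul_ediv_cancel' (by simpa using h1)).symm
  refine ⟨h2, fun h => ?_⟩
  have h3 : ((5 : ℕ) : ℤ) ^ (padicValInt 5 n + 1) ∣ n := by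
    obtain ⟨k, hk⟩ := h
    refine ⟨k, ?_⟩
    conv_lhs => rw [h2, hk]
    push_cast
    ring
  rw [padicValInt_dvd_iff] at h3
  omega

lemma sym_fst_ne_zero (n : ℤ) : (sym n).1 ≠ 0 := by
  by_cases hn : n = 0
  · simp only [sym, upart, hn, if_true]
    decide
  · intro h
    exact (upart_spec n hn).2 ((ZMod.intCast_zmod_eq_zero_iff_dvd _ 5).1 h)

lemma upart_of_not_dvd (n : ℤ) (h : ¬ (5 : ℤ) ∣ n) : upart n = n := by
  have hn : n ≠ 0 := by rintro rfl; simp at h
  have : padicValInt 5 n = 0 := padicValInt.eq_zero_of_not_dvd h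
  simp [upart, hn, this]

lemma sym_fst_of_ne (n : ℤ) (h : (n : ZMod 5) ≠ 0) : (sym n).1 = n := by
  have : ¬ (5 : ℤ) ∣ n := fun h' => h ((ZMod.intCast_zmod_eq_zero_iff_dvd _ 5).2 h')
  simp [sym, upart_of_not_dvd n this]

end Vale.Agent.P043.Three
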