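import Vale.Agent.P043.S5Defs

/-! The local lemma of the 5-adic Sudoku puzzle. -/

namespace Vale.Agent.P043.Three

/-- the reduction of the difference of consecutive forms of class `c`, divided by 5 -/
def lc_mu (c : Fin 6) (z : ZMod 5 × ZMod 5) : ZMod 5 := if c = 5 then z.2 else z.1

/-- the integral version of `lc_mu` -/
def lc_M (c : Fin 6) (y : ℤ × ℤ) : ℤ := if c = 5 then y.2 else y.1

/-- reduction modulo 5 -/
def lc_red (y : ℤ × ℤ) : ZMod 5 × ZMod 5 := ((y.1 : ZMod 5), (y.2 : ZMod 5))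

/-- `z` explains the symbols `s` -/
structure lc_Expl (z : ZMod 5 × ZMod 5) (s : Fm → ZMod 5 × ZMod 5) : Prop where
  ne : z ≠ 0
  nz : ∀ i, (s i).1 ≠ 0
  fst : ∀ i : Fm, lam i.1 z ≠ 0 → (s i).1 = lam i.1 z
  snd : ∀ c j, lam c z ≠ 0 → (s (c, j)).2 - (s (c, 0)).2 = ((j : ℕ) : ZMod 5) * lc_mu c z
  deep : ∀ c j, j ≠ 0 → lam c z = 0 → (s (c, 0)).1 = (s (c, j)).1 →
    (s (c, 0)).1 = ((j : ℕ) : ZMod 5) * lc_mu c z ∨
      (s (c, 0)).1 = -(((j : ℕ) : ZMod 5) * lc_mu c z)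

lemma lc_upart_mul (n : ℤ) : upart (5 * n) = upart n := by
  by_cases hn : n = 0
  · simp [hn]
  · have : Fact (Nat.Prime 5) := ⟨by norm_num⟩
    have h1 : padicValInt 5 (5 * n) = padicValInt 5 n + 1 := by
      rw [padicValInt.mul (by norm_num) hn, add_comm]
      exact congrArg _ (padicValInt.self (p := 5) (by norm_num))
    have h2 : 5 * n ≠ 0 := by omega
    rw [upart, upart, if_neg hn, if_neg h2, h1, pow_succ', Int.mul_ediv_mul_of_pos _ _ (by norm_num)]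

lemma lc_sym_mul (n : ℤ) : sym (5 * n) = sym n := by
  rw [sym, sym, lc_upart_mul]

lemma lc_form_mul (i : Fm) (a b : ℤ) : form i (5 * a, 5 * b) = 5 * form i (a, b) := by
  unfold form
  split_ifs <;> ring

lemma lc_reduce (n : ℕ) : ∀ y : ℤ × ℤ, y.1.natAbs + y.2.natAbs = n → y ≠ 0 →
    ∃ y', lc_red y' ≠ 0 ∧ ∀ i, sym (form i y) = sym (form i y') := by
  induction n using Nat.strong_induction_on with
  | _ n ih =>
    intro y hy h0
    by_cases hr : lc_red y = 0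
    · obtain ⟨y1, y2⟩ := y
      obtain ⟨a, rfl⟩ := (ZMod.intCast_zmod_eq_zero_iff_dvd y1 5).1 (congrArg Prod.fst hr)
      obtain ⟨b, rfl⟩ := (ZMod.intCast_zmod_eq_zero_iff_dvd y2 5).1 (congrArg Prod.snd hr)
      have hab : (a, b) ≠ 0 := by
        intro h
        apply h0
        rw [Prod.mk_eq_zero] at h ⊢
        rw [h.1, h.2]
        simp
      have hlt : a.natAbs + b.natAbs < n := by
        rw [Ne, Prod.mk_eq_zero] at hab
        simp only [Nat.cast_ofNat] at hy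
        omega
      obtain ⟨y', h1, h2⟩ := ih _ hlt (a, b) rfl hab
      refine ⟨y', h1, fun i => ?_⟩
      rw [← h2, ← lc_sym_mul (form i (a, b)), ← lc_form_mul]
      rfl
    · exact ⟨y, hr, fun _ => rfl⟩

lemma lc_five : (5 : ZMod 5) = 0 := by decide

lemma lc_cast_form (i : Fm) (y : ℤ × ℤ) : (form i y : ZMod 5) = lam i.1 (lc_red y) := by
  unfold form lam lc_red
  split_ifs <;> simp [lc_five]

lemma lc_cast_M (c : Fin 6) (y : ℤ × ℤ) : (lc_M c y : ZMod 5) = lc_mu c (lc_red y) := by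
  unfold lc_M lc_mu lc_red
  split_ifs <;> rfl

lemma lc_form_eq (c : Fin 6) (j : Fin 3) (y : ℤ × ℤ) :
    form (c, j) y = form (c, 0) y + 5 * ((j : ℕ) * lc_M c y) := by
  unfold form lc_M
  split_ifs <;> simp <;> ring

lemma lc_mu_ne : ∀ (c : Fin 6) (j : Fin 3) (z : ZMod 5 × ZMod 5), j ≠ 0 → z ≠ 0 → lam c z = 0 →
    ((j : ℕ) : ZMod 5) * lc_mu c z ≠ 0 := by
  decide +kernel

lemma lc_sym_snd (n : ℤ) (h : (n : ZMod 5) ≠ 0) : (sym n).2 = ((n / 5 : ℤ) : ZMod 5) := by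
  have : ¬ (5 : ℤ) ∣ n := fun h' => h ((ZMod.intCast_zmod_eq_zero_iff_dvd _ 5).2 h')
  rw [sym, upart_of_not_dvd n this]

lemma lc_expl_form (y : ℤ × ℤ) (hy : lc_red y ≠ 0) :
    lc_Expl (lc_red y) fun i => sym (form i y) := by
  refine ⟨hy, fun i => sym_fst_ne_zero _, fun i hi => ?_, fun c j hc => ?_, fun c j hj hc h => ?_⟩
  · rw [← lc_cast_form] at hi ⊢
    exact sym_fst_of_ne _ hi
  · rw [lc_sym_snd _ (by rwa [lc_cast_form]), lc_sym_snd _ (by rwa [lc_cast_form]),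
      lc_form_eq c j, Int.add_mul_ediv_left _ _ (by norm_num), ← lc_cast_M]
    push_cast
    ring
  · have hm := lc_mu_ne c j _ hj hy hc
    obtain ⟨e, he⟩ := (ZMod.intCast_zmod_eq_zero_iff_dvd (form (c, 0) y) 5).1
      (by rwa [lc_cast_form])
    have he' : form (c, 0) y = 5 * e := he
    have h1 : ((e + (j : ℕ) * lc_M c y : ℤ) : ZMod 5) =
        e + ((j : ℕ) : ZMod 5) * lc_mu c (lc_red y) := by
      rw [← lc_cast_M]
      push_cast
      ring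
    rw [lc_form_eq c j, he', ← mul_add, lc_sym_mul, lc_sym_mul] at h
    rw [he', lc_sym_mul]
    by_cases h2 : (e : ZMod 5) = 0
    · rw [h2, zero_add] at h1
      left
      rw [h, sym_fst_of_ne _ (by rwa [h1]), h1]
    · right
      rw [sym_fst_of_ne _ h2] at h ⊢
      by_contra h3
      have h4 : (e : ZMod 5) + ((j : ℕ) : ZMod 5) * lc_mu c (lc_red y) ≠ 0 :=
        fun h5 => h3 (eq_neg_of_add_eq_zero_left h5)
      rw [sym_fst_of_ne _ (by rwa [h1]), h1] at h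
      exact hm (by linear_combination -h)

lemma lc_expl (u : ℤ × ℤ) : ∃ z, lc_Expl z fun i => sol i u := by
  obtain ⟨y, h1, h2⟩ := lc_reduce _ (arg u) rfl fun h => by
    have : 2 * u.1 + 1 = 0 := congrArg Prod.fst h
    omega
  refine ⟨lc_red y, ?_⟩
  have : (fun i => sol i u) = fun i => sym (form i y) := funext h2
  rw [this]
  exact lc_expl_form y h1

/-- three digits are explained by one vector -/
def lc_T (i j k : Fin 6) (a b c : ZMod 5) : Prop :=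
  ∃ z : ZMod 5 × ZMod 5, z ≠ 0 ∧ (lam i z ≠ 0 → a = lam i z) ∧ (lam j z ≠ 0 → b = lam j z) ∧
    (lam k z ≠ 0 → c = lam k z)

instance (i j k : Fin 6) (a b c : ZMod 5) : Decidable (lc_T i j k a b c) := by
  unfold lc_T
  infer_instance

/-- six digits are explained by one vector -/
def lc_Z (a b c d e g : ZMod 5) : Prop :=
  ∃ z : ZMod 5 × ZMod 5, z ≠ 0 ∧ (lam 0 z ≠ 0 → a = lam 0 z) ∧ (lam 1 z ≠ 0 → b = lam 1 z) ∧
    (lam 2 z ≠ 0 → c = lam 2 z) ∧ (lam 3 z ≠ 0 → d = lam 3 z) ∧ (lam 4 z ≠ 0 → e = lam 4 z) ∧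
    (lam 5 z ≠ 0 → g = lam 5 z)

instance (a b c d e g : ZMod 5) : Decidable (lc_Z a b c d e g) := by
  unfold lc_Z
  infer_instance

/-- the last step of the search -/
def lc_A5 (a b c d e : ZMod 5) : Prop :=
  ∀ g : ZMod 5, g ≠ 0 → lc_T 0 1 5 a b g → lc_T 0 2 5 a c g → lc_T 0 3 5 a d g →
    lc_T 0 4 5 a e g → lc_T 1 2 5 b c g → lc_T 1 3 5 b d g → lc_T 1 4 5 b e g →
    lc_T 2 3 5 c d g → lc_T 2 4 5 c e g → lc_T 3 4 5 d e g → lc_Z a b c d e g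

instance (a b c d e : ZMod 5) : Decidable (lc_A5 a b c d e) := by
  unfold lc_A5
  infer_instance

/-- the step before the last one -/
def lc_A4 (a b c d : ZMod 5) : Prop :=
  ∀ e : ZMod 5, e ≠ 0 → lc_T 0 1 4 a b e → lc_T 0 2 4 a c e → lc_T 0 3 4 a d e →
    lc_T 1 2 4 b c e → lc_T 1 3 4 b d e → lc_T 2 3 4 c d e → lc_A5 a b c d e

instance (a b c d : ZMod 5) : Decidable (lc_A4 a b c d) := by
  unfold lc_A4
  infer_instance

lemma lc_A : ∀ a : ZMod 5, a ≠ 0 → ∀ b : ZMod 5, b ≠ 0 → ∀ c : ZMod 5, c ≠ 0 →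
    lc_T 0 1 2 a b c → ∀ d : ZMod 5, d ≠ 0 → lc_T 0 1 3 a b d → lc_T 0 2 3 a c d →
    lc_T 1 2 3 b c d → lc_A4 a b c d := by
  decide +kernel

lemma lc_A' (f : Fin 6 → ZMod 5) (h0 : ∀ c, f c ≠ 0)
    (h : ∀ i j k, lc_T i j k (f i) (f j) (f k)) :
    ∃ z : ZMod 5 × ZMod 5, z ≠ 0 ∧ ∀ c, lam c z ≠ 0 → f c = lam c z := by
  obtain ⟨z, hz, h1, h2, h3, h4, h5, h6⟩ := lc_A (f 0) (h0 _) (f 1) (h0 _) (f 2) (h0 _) (h _ _ _)
    (f 3) (h0 _) (h _ _ _) (h _ _ _) (h _ _ _) (f 4) (h0 _) (h _ _ _) (h _ _ _) (h _ _ _)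
    (h _ _ _) (h _ _ _) (h _ _ _) (f 5) (h0 _) (h _ _ _) (h _ _ _) (h _ _ _) (h _ _ _) (h _ _ _)
    (h _ _ _) (h _ _ _) (h _ _ _) (h _ _ _) (h _ _ _)
  refine ⟨z, hz, fun c => ?_⟩
  fin_cases c
  exacts [h1, h2, h3, h4, h5, h6]

lemma lc_B : ∀ z : ZMod 5 × ZMod 5, z ≠ 0 → ∀ z' : ZMod 5 × ZMod 5, z' ≠ 0 → ∀ c : Fin 6,
    (∀ c', c' ≠ c → lam c' z ≠ 0 → lam c' z' ≠ 0 → lam c' z = lam c' z') → z = z' := by
  decide +kernel

/-- the alternative for two forms of the class `c` with equal digits and a form of class `r` -/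
def lc_alt (c r : Fin 6) (j : Fin 3) (a δ b : ZMod 5) : Prop :=
  ∃ z : ZMod 5 × ZMod 5, z ≠ 0 ∧ (lam c z ≠ 0 → a = lam c z) ∧ (lam r z ≠ 0 → b = lam r z) ∧
    (lam c z ≠ 0 → δ = ((j : ℕ) : ZMod 5) * lc_mu c z) ∧
    (lam c z = 0 → a = ((j : ℕ) : ZMod 5) * lc_mu c z ∨ a = -(((j : ℕ) : ZMod 5) * lc_mu c z))

instance (c r : Fin 6) (j : Fin 3) (a δ b : ZMod 5) : Decidable (lc_alt c r j a δ b) := by
  unfold lc_alt
  infer_instance

/-- no difference of second digits is possible -/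
def lc_no (c : Fin 6) (z : ZMod 5 × ZMod 5) (j : Fin 3) (a : ZMod 5) : Prop :=
  ∀ δ, ¬ ∀ r, r ≠ c → lc_alt c r j a δ (lam r z)

instance (c : Fin 6) (z : ZMod 5 × ZMod 5) (j : Fin 3) (a : ZMod 5) :
    Decidable (lc_no c z j a) := by
  unfold lc_no
  infer_instance

lemma lc_C : ∀ (c : Fin 6) (z : ZMod 5 × ZMod 5), z ≠ 0 → lam c z = 0 → ∀ a : ZMod 5, a ≠ 0 →
    lc_no c z 1 a ∨ lc_no c z 2 a := by
  decide +kernel

lemma lc_D : ∀ (c r : Fin 6) (z : ZMod 5 × ZMod 5), z ≠ 0 → lam c z = 0 → r ≠ c →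
    lam r z ≠ 0 := by
  decide +kernel

theorem local_good (σ : Fm → ZMod 5 × ZMod 5)
    (h : ∀ i₁ i₂ i₃ : Fm, ∃ u, σ i₁ = sol i₁ u ∧ σ i₂ = sol i₂ u ∧ σ i₃ = sol i₃ u) :
    ∃ z, Good (fun i => (σ i).1) z := by
  have h0 : ∀ i, (σ i).1 ≠ 0 := fun i => by
    obtain ⟨u, h1, -, -⟩ := h i i i
    rw [h1]
    exact sym_fst_ne_zero _
  have hch : ∀ ch : Fin 6 → Fin 3, ∃ z : ZMod 5 × ZMod 5, z ≠ 0 ∧
      ∀ c, lam c z ≠ 0 → (σ (c, ch c)).1 = lam c z := fun ch => by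
    refine lc_A' (fun c => (σ (c, ch c)).1) (fun c => h0 _) fun i j k => ?_
    obtain ⟨u, h1, h2, h3⟩ := h (i, ch i) (j, ch j) (k, ch k)
    obtain ⟨z, hz⟩ := lc_expl u
    simp only [h1, h2, h3]
    exact ⟨z, hz.ne, hz.fst (i, ch i), hz.fst (j, ch j), hz.fst (k, ch k)⟩
  obtain ⟨z, hz, hf⟩ := hch fun _ => 0
  refine ⟨z, hz, fun i hi => ?_, fun c hc hs => ?_⟩
  · obtain ⟨c, j⟩ := i
    obtain ⟨z', hz', hf'⟩ := hch fun c' => if c' = c then j else 0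
    have hzz : z = z' := lc_B z hz z' hz' c fun c' hc' h1 h2 => by
      have h3 := hf' c' h2
      rw [if_neg hc'] at h3
      rw [← hf c' h1, h3]
    subst hzz
    have h3 := hf' c hi
    rwa [if_pos rfl] at h3
  · have key : ∀ j : Fin 3, j ≠ 0 → (σ (c, 0)).1 = (σ (c, j)).1 → ∀ r, r ≠ c →
        lc_alt c r j (σ (c, 0)).1 ((σ (c, j)).2 - (σ (c, 0)).2) (lam r z) := by
      intro j hj he r hr
      obtain ⟨u, h1, h2, h3⟩ := h (c, 0) (c, j) (r, 0)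
      obtain ⟨z', hz'⟩ := lc_expl u
      rw [← hf r (lc_D c r z hz hc hr), h3]
      rw [h1, h2] at he ⊢
      exact ⟨z', hz'.ne, hz'.fst (c, 0), hz'.fst (r, 0), hz'.snd c j,
        fun h4 => hz'.deep c j hj h4 he⟩
    rcases lc_C c z hz hc _ (h0 (c, 0)) with h1 | h1
    · exact h1 _ (key 1 (by decide) hs.1)
    · exact h1 _ (key 2 (by decide) hs.2)

end Vale.Agent.P043.Three
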