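import Vale.Agent.P043.S5Defs

/-! Robustness of the 5-adic Sudoku puzzle: no periodic approximate solution. -/

namespace Vale.Agent.P043.Three

open Finset

lemma rb_agree : ∀ c c' : Fin 6, c ≠ c' → ∀ z z' : ZMod 5 × ZMod 5,
    lam c z = lam c z' → lam c' z = lam c' z' → z = z' := by
  decide +kernel

lemma rb_deep : ∀ z : ZMod 5 × ZMod 5, ∃ c, lam c z = 0 := by
  decide +kernel

lemma rb_deep_unique : ∀ (c c' : Fin 6) (z : ZMod 5 × ZMod 5), z ≠ 0 →
    lam c z = 0 → lam c' z = 0 → c = c' := by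
  decide +kernel

lemma rb_two : ∀ c c' : Fin 6, ∃ e e' : Fin 6, e ≠ e' ∧ e ≠ c ∧ e ≠ c' ∧ e' ≠ c ∧ e' ≠ c' := by
  decide +kernel

/-- reduction modulo `n` -/
def rbPi (n : ℕ) (v : ℤ × ℤ) : ZMod n × ZMod n := ((v.1 : ZMod n), (v.2 : ZMod n))

/-- a lift from residues to integers -/
def rbL {n : ℕ} (x : ZMod n × ZMod n) : ℤ × ℤ := ((x.1.val : ℤ), (x.2.val : ℤ))

lemma rb_pi_add (n : ℕ) (v w : ℤ × ℤ) : rbPi n (v + w) = rbPi n v + rbPi n w := by
  simp [rbPi]

lemma rb_pi_smul (n : ℕ) (k : ℤ) (v : ℤ × ℤ) : rbPi n (k • v) = (k : ZMod n) • rbPi n v := by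
  simp [rbPi]

lemma rb_pi_L {n : ℕ} [NeZero n] (x : ZMod n × ZMod n) : rbPi n (rbL x) = x := by
  simp [rbPi, rbL]

lemma rb_pi_eq {n : ℕ} (v v' : ℤ × ℤ) (h : rbPi n v = rbPi n v') :
    ∃ w : ℤ × ℤ, v' = v + (n : ℤ) • w := by
  simp only [rbPi, Prod.mk.injEq] at h
  obtain ⟨a, ha⟩ := (ZMod.intCast_eq_intCast_iff_dvd_sub _ _ _).1 h.1
  obtain ⟨b, hb⟩ := (ZMod.intCast_eq_intCast_iff_dvd_sub _ _ _).1 h.2
  refine ⟨(a, b), ?_⟩
  ext
  · simp; linarith
  · simp; linarith

lemma rb_L_add {n : ℕ} [NeZero n] (x : ZMod n × ZMod n) (v : ℤ × ℤ) :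
    ∃ w : ℤ × ℤ, rbL (x + rbPi n v) = rbL x + v + (n : ℤ) • w := by
  apply rb_pi_eq
  rw [rb_pi_L, rb_pi_add, rb_pi_L]

lemma rb_span5 : ∀ c c' : Fin 6, c ≠ c' → ∀ x : ZMod 5 × ZMod 5, ∃ k k' : Fin 5,
    x + ((k : ℕ) : ZMod 5) • rbPi 5 (dir (c, 0)) = ((k' : ℕ) : ZMod 5) • rbPi 5 (dir (c', 0)) := by
  decide +kernel

lemma rb_span (c c' : Fin 6) (h : c ≠ c') (u u' : ℤ × ℤ) : ∃ (k k' : ℕ) (w : ℤ × ℤ),
    u + (k : ℤ) • dir (c, 0) = u' + (k' : ℤ) • dir (c', 0) + (5 : ℤ) • w := by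
  obtain ⟨k, k', hk⟩ := rb_span5 c c' h (rbPi 5 (u - u'))
  have : rbPi 5 (((k' : ℕ) : ℤ) • dir (c', 0)) = rbPi 5 (u - u' + ((k : ℕ) : ℤ) • dir (c, 0)) := by
    rw [rb_pi_add, rb_pi_smul, rb_pi_smul]
    simpa using hk.symm
  obtain ⟨w, hw⟩ := rb_pi_eq _ _ this
  refine ⟨k, k', w, ?_⟩
  have h5 : ((5 : ℕ) : ℤ) = 5 := rfl
  rw [h5] at hw
  rw [add_assoc, ← hw]
  abel

lemma rb_dir_cong (c : Fin 6) (j : Fin 3) : ∃ w : ℤ × ℤ, dir (c, j) = dir (c, 0) + (5 : ℤ) • w := by
  by_cases hc : c = 5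
  · refine ⟨(-((j : ℕ) : ℤ), 0), ?_⟩
    ext <;> simp [dir, hc]
    ring
  · refine ⟨(0, -((j : ℕ) : ℤ)), ?_⟩
    ext <;> simp [dir, hc]
    ring

/-- the relational form of `Good` -/
def rbG (P : Fm → ℤ × ℤ → ZMod 5 → Prop) (u : ℤ × ℤ) (z : ZMod 5 × ZMod 5) : Prop :=
  z ≠ 0 ∧ (∀ i : Fm, lam i.1 z ≠ 0 → P i u (lam i.1 z)) ∧
    ∀ c : Fin 6, lam c z = 0 → ∀ a, ¬ (P (c, 0) u a ∧ P (c, 1) u a ∧ P (c, 2) u a)

lemma rb_G_unique {P : Fm → ℤ × ℤ → ZMod 5 → Prop}
    (hfun : ∀ i u a b, P i u a → P i u b → a = b) {u : ℤ × ℤ} {z z' : ZMod 5 × ZMod 5}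
    (h : rbG P u z) (h' : rbG P u z') : z = z' := by
  obtain ⟨c, hc⟩ := rb_deep z
  obtain ⟨c', hc'⟩ := rb_deep z'
  obtain ⟨e, e', hee, h1, h2, h3, h4⟩ := rb_two c c'
  have key : ∀ e : Fin 6, e ≠ c → e ≠ c' → lam e z = lam e z' := by
    intro e he he'
    have a1 : lam e z ≠ 0 := fun h0 => he (rb_deep_unique _ _ _ h.1 h0 hc)
    have a2 : lam e z' ≠ 0 := fun h0 => he' (rb_deep_unique _ _ _ h'.1 h0 hc')
    exact hfun (e, 0) u _ _ (h.2.1 (e, 0) a1) (h'.2.1 (e, 0) a2)
  exact rb_agree e e' hee z z' (key e h1 h2) (key e' h3 h4)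

lemma rb_iter {α : Type*} (g : ℤ × ℤ → α) (d : ℤ × ℤ) (h : ∀ u, g (u + d) = g u) (k : ℤ) :
    ∀ u, g (u + k • d) = g u := by
  induction k using Int.induction_on with
  | zero => simp
  | succ k ih =>
    intro u
    rw [add_smul, one_smul, ← add_assoc, h, ih]
  | pred k ih =>
    intro u
    rw [← h, sub_smul, one_smul, add_assoc, sub_add_cancel, ih]

lemma rb_step (P : Fm → ℤ × ℤ → ZMod 5 → Prop)
    (hinv : ∀ i u a, P i (u + dir i) a ↔ P i u a)
    (hfun : ∀ i u a b, P i u a → P i u b → a = b)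
    (zb : ℤ × ℤ → ZMod 5 × ZMod 5) (hz : ∀ u, rbG P u (zb u))
    (h5 : ∀ u v : ℤ × ℤ, zb (u + (5 : ℤ) • v) = zb u) : ∀ u u', zb u = zb u' := by
  choose d hd using fun u => rb_deep (zb u)
  have hd5 : ∀ u v : ℤ × ℤ, d (u + (5 : ℤ) • v) = d u := fun u v =>
    rb_deep_unique _ _ _ (hz u).1 (by rw [← h5 u v]; exact hd _) (hd u)
  have hstep : ∀ u, d (u + dir (d u, 0)) = d u := by
    intro u
    by_contra hne
    have ha : lam (d u) (zb (u + dir (d u, 0))) ≠ 0 := fun h0 =>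
      hne (rb_deep_unique _ _ _ (hz _).1 (hd _) h0)
    have key : ∀ j : Fin 3, P (d u, j) u (lam (d u) (zb (u + dir (d u, 0)))) := by
      intro j
      obtain ⟨w, hw⟩ := rb_dir_cong (d u) j
      rw [← hinv, hw, ← add_assoc]
      have := (hz (u + dir (d u, 0) + (5 : ℤ) • w)).2.1 (d u, j) (by rw [h5]; exact ha)
      rwa [h5] at this
    exact (hz u).2.2 (d u) (hd u) _ ⟨key 0, key 1, key 2⟩
  have hline : ∀ (k : ℕ) u, d (u + (k : ℤ) • dir (d u, 0)) = d u := by
    intro k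
    induction k with
    | zero => simp
    | succ k ih =>
      intro u
      have h1 := hstep (u + (k : ℤ) • dir (d u, 0))
      rw [ih] at h1
      rw [Nat.cast_succ, add_smul, one_smul, ← add_assoc, h1]
  have hconst : ∀ u u', d u = d u' := by
    intro u u'
    by_contra hne
    obtain ⟨k, k', w, hw⟩ := rb_span _ _ hne u u'
    apply hne
    rw [← hline k u, hw, hd5, hline]
  have hmove : ∀ e : Fin 6, e ≠ d 0 → ∀ u, zb (u + dir (e, 0)) = zb u := by
    intro e he u
    have hne : ∀ y, lam e (zb y) ≠ 0 := fun y h0 =>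
      he ((rb_deep_unique _ _ _ (hz y).1 h0 (hd y)).trans (hconst _ _))
    refine rb_agree e (d 0) he _ _ ?_ ?_
    · exact hfun (e, 0) u _ _ ((hinv _ _ _).1 ((hz _).2.1 (e, 0) (hne _)))
        ((hz _).2.1 (e, 0) (hne _))
    · rw [hconst 0 u, hd u, hconst u (u + dir (e, 0)), hd]
  intro u u'
  obtain ⟨e, e', hee, h1, -, h3, -⟩ := rb_two (d 0) (d 0)
  obtain ⟨k, k', w, hw⟩ := rb_span _ _ hee u u'
  rw [← rb_iter zb _ (hmove e h1) k u, hw, h5, rb_iter zb _ (hmove e' h3)]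

lemma rb_exact (s : ℕ) : ∀ P : Fm → ℤ × ℤ → ZMod 5 → Prop,
    (∀ i u a, P i (u + dir i) a ↔ P i u a) → (∀ i u a b, P i u a → P i u b → a = b) →
    (∀ i u a (v : ℤ × ℤ), P i u a → P i (u + (5 : ℤ) ^ s • v) a) → (∀ u, ∃ z, rbG P u z) →
    ∃ z, ∀ u, rbG P u z := by
  induction s with
  | zero =>
    intro P _ _ hper hg
    have hall : ∀ i u u' a, P i u a → P i u' a := fun i u u' a h => by
      simpa using hper i u a (u' - u) h
    obtain ⟨z, hz⟩ := hg 0
    refine ⟨z, fun u => ⟨hz.1, fun i hi => hall _ _ _ _ (hz.2.1 i hi), fun c hc a h => ?_⟩⟩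
    exact hz.2.2 c hc a ⟨hall _ _ _ _ h.1, hall _ _ _ _ h.2.1, hall _ _ _ _ h.2.2⟩
  | succ s ih =>
    intro P hinv hfun hper hg
    choose zb hz using hg
    have h5 : ∀ u v : ℤ × ℤ, zb (u + (5 : ℤ) • v) = zb u := by
      intro u
      obtain ⟨z, hz'⟩ := ih (fun i v a => P i (u + (5 : ℤ) • v) a)
        (fun i v a => by
          have := rb_iter (fun y => P i y a) (dir i) (fun y => propext (hinv i y a)) 5
            (u + (5 : ℤ) • v)
          simp only [smul_add, ← add_assoc]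
          exact this.to_iff)
        (fun i v a b => hfun i _ a b)
        (fun i v a w h => by
          have := hper i _ a w h
          simp only [smul_add, smul_smul, ← add_assoc]
          rwa [pow_succ'] at this)
        (fun v => ⟨zb (u + (5 : ℤ) • v), hz _⟩)
      have hv : ∀ v : ℤ × ℤ, zb (u + (5 : ℤ) • v) = z := fun v =>
        rb_G_unique hfun (hz _) (hz' v)
      intro v
      have h0 := hv 0
      rw [smul_zero, add_zero] at h0
      rw [hv, h0]
    have := rb_step P hinv hfun zb hz h5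
    exact ⟨zb 0, fun u => this u 0 ▸ hz u⟩

lemma rb_avg {A B α : Type*} [Fintype A] [Fintype B] [Nonempty A] [DecidableEq α]
    (φ : B → α) (ψ : A → α) : ∃ a₀ : A,
      (univ.filter fun q : A × B => φ q.2 ≠ ψ a₀).card ≤
        (univ.filter fun q : A × B => φ q.2 ≠ ψ q.1).card := by
  obtain ⟨a₀, -, h⟩ := exists_min_image (univ : Finset A)
    (fun a => ∑ b : B, if φ b ≠ ψ a then 1 else 0) univ_nonempty
  refine ⟨a₀, ?_⟩
  rw [card_filter, card_filter, Fintype.sum_prod_type, Fintype.sum_prod_type]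
  exact sum_le_sum fun a _ => h a (mem_univ a)

lemma rb_iterZ {n : ℕ} [NeZero n] {α : Type*} (g : ZMod n × ZMod n → α) (d : ZMod n × ZMod n)
    (h : ∀ x, g (x + d) = g x) (a : ZMod n) (x : ZMod n × ZMod n) : g (x + a • d) = g x := by
  have : ∀ k : ℕ, ∀ x, g (x + (k : ZMod n) • d) = g x := by
    intro k
    induction k with
    | zero => simp
    | succ k ih =>
      intro x
      rw [Nat.cast_succ, add_smul, one_smul, ← add_assoc, h, ih]
  simpa using this a.val x

lemma rb_indep {n : ℕ} [NeZero n] (hn : Nat.Coprime 5 n) (F : Fm → ZMod n × ZMod n → ZMod 5)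
    (hF : ∀ i x, F i (x + rbPi n (dir i)) = F i x) (c : Fin 6) : ∃ a,
      (univ.filter fun x => F (c, 0) x ≠ a).card ≤
        (univ.filter fun x => F (c, 0) x ≠ F (c, 1) x).card := by
  set d0 := rbPi n (dir (c, 0)) with hd0
  set d1 := rbPi n (dir (c, 1)) with hd1
  have hu : IsUnit ((5 : ℕ) : ZMod n) := (ZMod.isUnit_iff_coprime 5 n).2 hn
  have hinj : Function.Injective (fun q : ZMod n × ZMod n => q.1 • d0 + q.2 • d1) := by
    rintro ⟨a, b⟩ ⟨a', b'⟩ h
    simp only [hd0, hd1, rbPi, dir] at h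
    by_cases hc : c = 5
    · simp only [hc, if_true, Prod.smul_mk, Prod.mk_add_mk, Prod.mk.injEq, smul_eq_mul] at h
      obtain ⟨h1, h2⟩ := h
      simp at h1 h2
      have hb : b = b' := hu.mul_left_cancel (by push_cast; linear_combination -h1 - 5 * h2)
      have ha : a = a' := by linear_combination h2 - hb
      rw [ha, hb]
    · simp only [hc, if_false, Prod.smul_mk, Prod.mk_add_mk, Prod.mk.injEq, smul_eq_mul] at h
      obtain ⟨h1, h2⟩ := h
      simp at h1 h2
      have hb : b = b' :=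
        hu.mul_left_cancel (by push_cast; linear_combination -h2 - ((c : ℕ) : ZMod n) * h1)
      have ha : a = a' := by linear_combination h1 - hb
      rw [ha, hb]
  let e := Equiv.ofBijective _ (Finite.injective_iff_bijective.1 hinj)
  obtain ⟨a₀, h⟩ := rb_avg (fun b : ZMod n => F (c, 0) (b • d1)) (fun a : ZMod n => F (c, 1) (a • d0))
  have e0 : ∀ q, F (c, 0) (e q) = F (c, 0) (q.2 • d1) := fun q => by
    show F (c, 0) (q.1 • d0 + q.2 • d1) = _
    rw [add_comm, rb_iterZ _ _ (hF (c, 0))]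
  have e1 : ∀ q, F (c, 1) (e q) = F (c, 1) (q.1 • d0) := fun q => by
    show F (c, 1) (q.1 • d0 + q.2 • d1) = _
    rw [rb_iterZ _ _ (hF (c, 1))]
  refine ⟨F (c, 1) (a₀ • d0), ?_⟩
  convert h using 1
  · symm
    exact card_equiv e (by intro q; simp [e0])
  · symm
    exact card_equiv e (by intro q; simp [e0, e1])

lemma rb_pick (d : Fin 6 → ℕ) : ∃ c₁ c₂ : Fin 6, c₁ ≠ c₂ ∧
    ∀ c, 5 * (d c₁ + d c₂) + 2 * d c ≤ 2 * ∑ e, d e := by
  obtain ⟨c₁, -, h1⟩ := exists_min_image (univ : Finset (Fin 6)) d univ_nonempty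
  obtain ⟨c₂, hc₂, h2⟩ := exists_min_image ((univ : Finset (Fin 6)).erase c₁) d
    (by rw [← card_pos, card_erase_of_mem (mem_univ _)]; simp)
  refine ⟨c₁, c₂, (ne_of_mem_erase hc₂).symm, fun c => ?_⟩
  have h12 := h1 c₂ (mem_univ _)
  rw [← add_sum_erase _ _ (mem_univ c₁)]
  by_cases hc : c = c₁
  · have := card_nsmul_le_sum _ d _ h2
    rw [card_erase_of_mem (mem_univ _)] at this
    simp only [card_univ, Fintype.card_fin, smul_eq_mul] at this
    rw [hc]
    change _ ≤ 2 * (_ + (univ.erase c₁).sum d)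
    omega
  · have hm : c ∈ (univ : Finset (Fin 6)).erase c₁ := mem_erase.2 ⟨hc, mem_univ _⟩
    rw [← add_sum_erase _ _ hm]
    have := card_nsmul_le_sum (((univ : Finset (Fin 6)).erase c₁).erase c) d _
      (fun x hx => h2 x (mem_of_mem_erase hx))
    rw [card_erase_of_mem hm, card_erase_of_mem (mem_univ _)] at this
    simp only [card_univ, Fintype.card_fin, smul_eq_mul] at this
    change _ ≤ 2 * (_ + (_ + ((univ.erase c₁).erase c).sum d))
    omega

lemma rb_core {n : ℕ} [NeZero n] (hn : Nat.Coprime 5 n) (F : Fm → ZMod n × ZMod n → ZMod 5)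
    (hF : ∀ i x, F i (x + rbPi n (dir i)) = F i x) (W : Finset (ZMod n × ZMod n))
    (hW : 100 * W.card ≤ Fintype.card (ZMod n × ZMod n))
    (hg : ∀ x, x ∉ W → ∃ z, Good (fun i => F i x) z) :
    ∃ (z : ZMod 5 × ZMod 5) (B : Finset (ZMod n × ZMod n)), z ≠ 0 ∧
      100 * Bᶜ.card ≤ 15 * Fintype.card (ZMod n × ZMod n) ∧
      ∀ x ∈ B, Good (fun i => F i x) z := by
  classical
  choose! z hz using hg
  let D : Fin 6 → Finset (ZMod n × ZMod n) := fun c => Wᶜ.filter fun x => lam c (z x) = 0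
  have hsum : ∑ c, (D c).card ≤ Fintype.card (ZMod n × ZMod n) := by
    rw [← card_biUnion]
    · exact card_le_univ _
    · intro c _ c' _ hne
      rw [Function.onFun, disjoint_left]
      intro x hx hx'
      simp only [D, mem_filter, mem_compl] at hx hx'
      exact hne (rb_deep_unique _ _ _ (hz x hx.1).1 hx.2 hx'.2)
  have ha : ∀ c, ∃ a, (univ.filter fun x => F (c, 0) x ≠ a).card ≤ W.card + (D c).card := by
    intro c
    obtain ⟨a, h⟩ := rb_indep hn F hF c
    refine ⟨a, h.trans ((card_le_card ?_).trans (card_union_le _ _))⟩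
    intro x hx
    simp only [D, mem_filter, mem_compl, mem_union, mem_univ, true_and] at hx ⊢
    by_contra hcon
    push Not at hcon
    have h0 := (hz x hcon.1).2.1 (c, 0) (hcon.2 hcon.1)
    have h1 := (hz x hcon.1).2.1 (c, 1) (hcon.2 hcon.1)
    exact hx (h0.trans h1.symm)
  choose a ha using ha
  obtain ⟨c₁, c₂, hne, hpick⟩ := rb_pick fun c => (D c).card
  let E : Fin 6 → Finset (ZMod n × ZMod n) := fun c => univ.filter fun x => F (c, 0) x ≠ a c
  let B := (W ∪ D c₁ ∪ D c₂ ∪ E c₁ ∪ E c₂)ᶜ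
  have hBc : Bᶜ.card ≤ W.card + (D c₁).card + (D c₂).card + (E c₁).card + (E c₂).card := by
    simp only [B, compl_compl]
    refine (card_union_le _ _).trans (Nat.add_le_add_right ?_ _)
    refine (card_union_le _ _).trans (Nat.add_le_add_right ?_ _)
    refine (card_union_le _ _).trans (Nat.add_le_add_right ?_ _)
    exact card_union_le _ _
  have hB : ∀ x ∈ B, x ∉ W ∧ lam c₁ (z x) = a c₁ ∧ lam c₂ (z x) = a c₂ := by
    intro x hx
    simp only [B, D, E, mem_compl, mem_union, mem_filter, mem_univ, true_and, not_or, not_and,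
      not_not] at hx
    obtain ⟨⟨⟨⟨h0, h1⟩, h2⟩, h3⟩, h4⟩ := hx
    exact ⟨h0, ((hz x h0).2.1 (c₁, 0) (h1 h0)).symm.trans h3,
      ((hz x h0).2.1 (c₂, 0) (h2 h0)).symm.trans h4⟩
  have hcard := card_add_card_compl B
  have e1 : (E c₁).card ≤ W.card + (D c₁).card := ha c₁
  have e2 : (E c₂).card ≤ W.card + (D c₂).card := ha c₂
  have hpos : 0 < Fintype.card (ZMod n × ZMod n) := Fintype.card_pos
  have hne' : B.Nonempty := by
    rw [← card_pos]
    have := hpick 0
    omega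
  obtain ⟨x₀, hx₀⟩ := hne'
  have hc : ∀ x ∈ B, z x = z x₀ := fun x hx =>
    rb_agree c₁ c₂ hne _ _ ((hB x hx).2.1.trans (hB x₀ hx₀).2.1.symm)
      ((hB x hx).2.2.trans (hB x₀ hx₀).2.2.symm)
  obtain ⟨c, hc0⟩ := rb_deep (z x₀)
  have hsub : B.card ≤ (D c).card := card_le_card fun x hx => by
    simp only [D, mem_filter, mem_compl]
    exact ⟨(hB x hx).1, by rw [hc x hx, hc0]⟩
  refine ⟨z x₀, B, (hz x₀ (hB x₀ hx₀).1).1, ?_, fun x hx => hc x hx ▸ hz x (hB x hx).1⟩
  have := hpick c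
  omega

theorem robust (f : Fm → ℤ × ℤ → ZMod 5) (hinv : ∀ i u, f i (u + dir i) = f i u) (m : ℕ)
    (hm : 0 < m) (hper : ∀ i u v, f i (u + m • v) = f i u) {J : Type} [Fintype J] (p : J → ℕ)
    (ι : J → Fm) (Void : J → ℤ × ℤ → Prop) (hVper : ∀ j u v, Void j u → Void j (u + m • v))
    (hp5 : ∀ j, Nat.Coprime (p j) 5) (hbig : ∀ j, 100 * Fintype.card J ≤ p j)
    (hsp : ∀ j u (k : ℤ), Void j u → Void j (u + k • dir (ι j)) → (p j : ℤ) ∣ k)
    (hgood : ∀ u, (∀ j, ¬ Void j u) → ∃ z, Good (fun i => f i u) z)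
    (hmark : ∀ i a, ∃ u, ∀ v : ℤ × ℤ, f i (u + (5 : ℕ) • v) ≠ a) : False := by
  classical
  obtain ⟨t, n, hn5, hmn⟩ := Nat.exists_eq_pow_mul_and_not_dvd hm.ne' 5 (by norm_num)
  have hn : Nat.Coprime 5 n := (Nat.Prime.coprime_iff_not_dvd (by norm_num)).2 hn5
  have : NeZero n := ⟨by rintro rfl; simp at hn5⟩
  have hsm : ∀ w : ℤ × ℤ, (5 : ℤ) ^ (t + 1) • (n : ℤ) • w = m • (5 : ℤ) • w := fun w => by
    rw [← natCast_zsmul, smul_smul, smul_smul, hmn]
    congr 1
    push_cast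
    ring
  let F : ℤ × ℤ → Fm → ZMod n × ZMod n → ZMod 5 :=
    fun u i x => f i (u + (5 : ℤ) ^ (t + 1) • rbL x)
  have hFadd : ∀ u i x v, F u i (x + rbPi n v) = F (u + (5 : ℤ) ^ (t + 1) • v) i x := by
    intro u i x v
    obtain ⟨w, hw⟩ := rb_L_add x v
    simp only [F, hw, smul_add, hsm, ← add_assoc, hper]
    rw [add_right_comm]
  have hFdir : ∀ u i (k : ℤ) x, F (u + k • dir i) i x = F u i x := by
    intro u i k x
    simp only [F]
    rw [add_right_comm, rb_iter _ _ (hinv i)]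
  let P : Fm → ℤ × ℤ → ZMod 5 → Prop := fun i u a =>
    100 * (univ.filter fun x => F u i x ≠ a).card ≤ 15 * Fintype.card (ZMod n × ZMod n)
  have hpos : 0 < Fintype.card (ZMod n × ZMod n) := Fintype.card_pos
  have hG : ∀ u, ∃ z, rbG P u z := by
    intro u
    let W : J → Finset (ZMod n × ZMod n) :=
      fun j => univ.filter fun x => Void j (u + (5 : ℤ) ^ (t + 1) • rbL x)
    have hWj : ∀ j, p j * (W j).card ≤ Fintype.card (ZMod n × ZMod n) := by
      intro j
      have := card_le_card_of_injOn (s := range (p j) ×ˢ W j) (t := univ)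
        (fun q => q.2 + rbPi n ((q.1 : ℤ) • dir (ι j))) (fun _ _ => mem_coe.2 (mem_univ _)) ?_
      · simpa using this
      rintro ⟨k, x⟩ hq ⟨k', x'⟩ hq' h
      simp only [W, coe_product, Set.mem_prod, mem_coe, mem_range, mem_filter, mem_univ,
        true_and] at hq hq' h
      have hx : x' = x + rbPi n (((k : ℤ) - k') • dir (ι j)) := by
        have : rbPi n ((k : ℤ) • dir (ι j)) =
            rbPi n (((k : ℤ) - k') • dir (ι j)) + rbPi n ((k' : ℤ) • dir (ι j)) := by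
          rw [← rb_pi_add, ← add_smul, sub_add_cancel]
        rw [this, ← add_assoc] at h
        exact (add_right_cancel h).symm
      obtain ⟨w, hw⟩ := rb_L_add x (((k : ℤ) - k') • dir (ι j))
      have hv := hVper j _ (-((5 : ℤ) • w)) hq'.2
      rw [hx, hw, smul_add, smul_add, hsm, smul_neg, ← add_assoc, add_neg_cancel_right,
        ← add_assoc, smul_smul] at hv
      have hdvd := hsp j _ _ hq.2 hv
      have hcop : IsCoprime (p j : ℤ) ((5 : ℤ) ^ (t + 1)) :=
        (Nat.isCoprime_iff_coprime.2 (hp5 j)).pow_right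
      have hk : (k : ℤ) - k' = 0 :=
        Int.eq_zero_of_abs_lt_dvd (hcop.dvd_of_dvd_mul_left hdvd) (by
          rw [abs_lt]; constructor <;> omega)
      have hk' : k = k' := by omega
      subst hk'
      rw [add_right_cancel h]
    have hW : 100 * (univ.biUnion W).card ≤ Fintype.card (ZMod n × ZMod n) := by
      rcases Nat.eq_zero_or_pos (Fintype.card J) with hJ | hJ
      · have : IsEmpty J := Fintype.card_eq_zero_iff.1 hJ
        simp
      · refine Nat.le_of_mul_le_mul_left ?_ hJ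
        calc Fintype.card J * (100 * (univ.biUnion W).card)
            ≤ Fintype.card J * (100 * ∑ j, (W j).card) := by
              gcongr
              exact card_biUnion_le
          _ = ∑ j, 100 * Fintype.card J * (W j).card := by rw [← mul_sum]; ring
          _ ≤ ∑ _j : J, Fintype.card (ZMod n × ZMod n) :=
              sum_le_sum fun j _ => (Nat.mul_le_mul_right _ (hbig j)).trans (hWj j)
          _ = _ := by simp
    obtain ⟨z, B, hz0, hB, hz⟩ := rb_core hn (F u)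
      (fun i x => by rw [hFadd, hFdir]) _ hW
      (fun x hx => hgood _ fun j hj => hx (mem_biUnion.2 ⟨j, mem_univ _, by simpa [W] using hj⟩))
    refine ⟨z, hz0, fun i hi => ?_, fun c hc a h => ?_⟩
    · refine le_trans (Nat.mul_le_mul_left _ (card_le_card fun x hx => ?_)) hB
      simp only [mem_filter, mem_univ, true_and] at hx
      exact mem_compl.2 fun hxB => hx ((hz x hxB).2.1 i hi)
    · obtain ⟨h0, h1, h2⟩ := h
      simp only [P] at h0 h1 h2
      have hcov : (univ : Finset (ZMod n × ZMod n)) ⊆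
          Bᶜ ∪ (univ.filter fun x => F u (c, 0) x ≠ a) ∪ (univ.filter fun x => F u (c, 1) x ≠ a) ∪
            (univ.filter fun x => F u (c, 2) x ≠ a) := by
        intro x _
        by_contra hcon
        simp only [mem_union, mem_compl, mem_filter, mem_univ, true_and, not_or, not_not] at hcon
        obtain ⟨⟨⟨b0, b1⟩, b2⟩, b3⟩ := hcon
        exact (hz x b0).2.2 c hc ⟨b1.trans b2.symm, b1.trans b3.symm⟩
      have hc1 := card_le_card hcov
      have hc2 := card_union_le (Bᶜ ∪ (univ.filter fun x => F u (c, 0) x ≠ a) ∪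
        (univ.filter fun x => F u (c, 1) x ≠ a)) (univ.filter fun x => F u (c, 2) x ≠ a)
      have hc3 := card_union_le (Bᶜ ∪ (univ.filter fun x => F u (c, 0) x ≠ a))
        (univ.filter fun x => F u (c, 1) x ≠ a)
      have hc4 := card_union_le Bᶜ (univ.filter fun x => F u (c, 0) x ≠ a)
      rw [card_univ] at hc1
      omega
  obtain ⟨z, hz⟩ := rb_exact (t + 1) P
    (fun i u a => by
      have := hFdir u i 1
      simp only [one_smul] at this
      simp only [P, this])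
    (fun i u a b ha hb => by
      by_contra hab
      simp only [P] at ha hb
      have hcov : (univ : Finset (ZMod n × ZMod n)) ⊆
          (univ.filter fun x => F u i x ≠ a) ∪ (univ.filter fun x => F u i x ≠ b) := by
        intro x _
        by_contra hcon
        simp only [mem_union, mem_filter, mem_univ, true_and, not_or, not_not] at hcon
        exact hab (hcon.1.symm.trans hcon.2)
      have hc1 := (card_le_card hcov).trans (card_union_le _ _)
      rw [card_univ] at hc1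
      omega)
    (fun i u a v h => by
      simp only [P] at h ⊢
      rwa [card_equiv (Equiv.addRight (rbPi n v)) (t := univ.filter fun x => F u i x ≠ a)
        (by intro x; simp [hFadd])])
    hG
  obtain ⟨c, hc⟩ := rb_deep z
  obtain ⟨e, -, -, he, -⟩ := rb_two c c
  have hne : lam e z ≠ 0 := fun h0 => he (rb_deep_unique _ _ _ (hz 0).1 h0 hc)
  obtain ⟨u, hu⟩ := hmark (e, 0) (lam e z)
  have h := (hz u).2.1 (e, 0) hne
  simp only [P] at h
  rw [filter_true_of_mem, card_univ] at h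
  · omega
  · intro x _
    have := hu ((5 : ℤ) ^ t • rbL x)
    rw [← natCast_zsmul, smul_smul] at this
    simpa [F, pow_succ'] using this

end Vale.Agent.P043.Three
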