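import Vale.Agent.P043.Machine

/-! The label machine over a cyclic fibre. -/

namespace Vale.Agent.P043

/-- periodic labels -/
inductive PL (V : Type) (q : ℕ) (u : V → ℕ) : Type
  | X (c : ZMod q)
  | Y (c : ZMod q)
  | D
  | tau (v : V)
  | lam (v : V) (s : Fin (u v))

instance {V : Type} [Finite V] {q : ℕ} [NeZero q] {u : V → ℕ} : Finite (PL V q u) :=
  Finite.of_surjective (fun x : (ZMod q ⊕ ZMod q) ⊕ Unit ⊕ V ⊕ (Σ v, Fin (u v)) => match x with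
    | Sum.inl (Sum.inl c) => PL.X c
    | Sum.inl (Sum.inr c) => PL.Y c
    | Sum.inr (Sum.inl _) => PL.D
    | Sum.inr (Sum.inr (Sum.inl v)) => PL.tau v
    | Sum.inr (Sum.inr (Sum.inr p)) => PL.lam p.1 p.2) (by
  rintro (c | c | _ | v | ⟨v, s⟩)
  · exact ⟨Sum.inl (Sum.inl c), rfl⟩
  · exact ⟨Sum.inl (Sum.inr c), rfl⟩
  · exact ⟨Sum.inr (Sum.inl ()), rfl⟩
  · exact ⟨Sum.inr (Sum.inr (Sum.inl v)), rfl⟩
  · exact ⟨Sum.inr (Sum.inr (Sum.inr ⟨v, s⟩)), rfl⟩)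

/-- labels -/
abbrev LL (V : Type) (q : ℕ) (u : V → ℕ) := PL V q u ⊕ V

/-- ordinary components -/
abbrev OO (V : Type) (q : ℕ) (u : V → ℕ) := (V × Bool) ⊕ LL V q u

/-- components -/
abbrev CC (V : Type) (q : ℕ) (u : V → ℕ) := Unit ⊕ V ⊕ OO V q u

/-- the moduli -/
def modu {V : Type} (q : ℕ) (u : V → ℕ) (r : OO V q u → ℕ) : CC V q u → ℕ
  | Sum.inl _ => q
  | Sum.inr (Sum.inl v) => u v * u v
  | Sum.inr (Sum.inr o) => r o

/-- the parameters of the construction -/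
structure Par (V : Type) where
  w : V → ℤ × ℤ
  T : V → ℤ × ℤ
  a : V → ℤ × ℤ →+ ℤ
  n : V → ℤ × ℤ →+ ℤ
  aw : ∀ v, a v (w v) = 1
  nw : ∀ v, n v (w v) = 0
  aT : ∀ v, a v (T v) = 0
  nT : ∀ v, n v (T v) = 1
  dec : ∀ v x, x = a v x • w v + n v x • T v
  v0 : V
  v1 : V
  w0 : w v0 = (1, 0)
  n0 : ∀ x, n v0 x = x.2
  n1 : ∀ x, n v1 x = x.1
  j : ℕ
  u : V → ℕ
  hu : ∀ v, 1 < u v
  huQ : ∀ v, u v ≤ 2 ^ (j + 1)
  r : OO V (2 * 2 ^ (j + 1)) u → ℕ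
  hr : ∀ o, 1 < r o
  cop : Pairwise (Function.onFun Nat.Coprime (modu (2 * 2 ^ (j + 1)) u r))
  c : CC V (2 * 2 ^ (j + 1)) u → ℤ
  c1 : ∀ i, (modu _ u r i : ℤ) ∣ c i - 1
  c0 : ∀ i i', i ≠ i' → (modu _ u r i : ℤ) ∣ c i'

/-- divisibility conditions -/
def dv {G : Type*} [AddCommGroup G] (m : ℤ) (φ : G →+ ℤ) : AddSubgroup G :=
  (AddSubgroup.zmultiples m).comap φ

@[simp] lemma mem_dv {G : Type*} [AddCommGroup G] {m : ℤ} {φ : G →+ ℤ} {h : G} :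
    h ∈ dv m φ ↔ m ∣ φ h := Int.mem_zmultiples_iff

/-- multiplication by `u` -/
def mu (u : ℕ) : ZMod u →+ ZMod (u * u) :=
  ZMod.lift u ⟨zmultiplesHom _ (u : ZMod (u * u)), by
    simp only [zmultiplesHom_apply, natCast_zsmul, nsmul_eq_mul]
    rw [← Nat.cast_mul, ZMod.natCast_self]⟩

lemma mu_int (u : ℕ) (s : ℤ) : mu u (s : ZMod u) = s * u := by
  simp [mu]

/-- the layer -/
def lay (u : ℕ) : ZMod (u * u) →+ ZMod u := (ZMod.castHom (dvd_mul_left u u) (ZMod u)).toAddMonoidHom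

lemma lay_int (u : ℕ) (s : ℤ) : lay u (s : ZMod (u * u)) = s := by
  simp [lay]

lemma lay_mu (u : ℕ) (k : ZMod u) : lay u (mu u k) = 0 := by
  obtain ⟨s, rfl⟩ := ZMod.intCast_surjective k
  rw [mu_int, show ((s : ZMod (u * u)) * u) = ((s * u : ℤ) : ZMod (u * u)) by push_cast; rfl,
    lay_int]
  simp

namespace Par

variable {V : Type} (P : Par V)

/-- half of the even modulus -/
abbrev Q : ℕ := 2 ^ (P.j + 1)

/-- the even modulus -/
abbrev q : ℕ := 2 * 2 ^ (P.j + 1)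

instance : NeZero P.q := ⟨by positivity⟩

instance (v : V) : NeZero (P.u v) := ⟨by have := P.hu v; omega⟩

instance (v : V) : NeZero (P.u v * P.u v) := ⟨by have := P.hu v; positivity⟩

instance (o : OO V P.q P.u) : NeZero (P.r o) := ⟨by have := P.hr o; omega⟩

instance (o : OO V P.q P.u) : Fact (1 < P.r o) := ⟨P.hr o⟩

instance (v : V) : Fact (1 < P.u v) := ⟨P.hu v⟩

/-- the fibre -/
abbrev W := ZMod P.q × ((v : V) → ZMod (P.u v * P.u v)) × ((o : OO V P.q P.u) → ZMod (P.r o))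

/-- the group -/
abbrev G := (ℤ × ℤ) × P.W

/-- the values -/
abbrev K := ZMod P.q × ((v : V) → ZMod (P.u v)) × ((o : OO V P.q P.u) → ZMod (P.r o))

/-- embedding of the values -/
def ι : P.K →+ P.G where
  toFun k := (0, (k.1, fun v => mu _ (k.2.1 v), k.2.2))
  map_zero' := by ext <;> simp
  map_add' := by intro k k'; ext <;> simp

lemma ι_apply (k : P.K) : P.ι k = (0, (k.1, fun v => mu _ (k.2.1 v), k.2.2)) := rfl

/-- kernels of the components -/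
def N : CC V P.q P.u → AddSubgroup P.K
  | Sum.inl _ => (AddMonoidHom.fst _ _).ker
  | Sum.inr (Sum.inl v) => ((Pi.evalAddMonoidHom _ v).comp
      ((AddMonoidHom.fst _ _).comp (AddMonoidHom.snd _ _))).ker
  | Sum.inr (Sum.inr o) => ((Pi.evalAddMonoidHom _ o).comp
      ((AddMonoidHom.snd _ _).comp (AddMonoidHom.snd _ _))).ker

@[simp] lemma mem_N2 {x : Unit} {k : P.K} : k ∈ P.N (Sum.inl x) ↔ k.1 = 0 := Iff.rfl

@[simp] lemma mem_Nu {v : V} {k : P.K} : k ∈ P.N (Sum.inr (Sum.inl v)) ↔ k.2.1 v = 0 := Iff.rfl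

@[simp] lemma mem_No {o : OO V P.q P.u} {k : P.K} :
    k ∈ P.N (Sum.inr (Sum.inr o)) ↔ k.2.2 o = 0 := Iff.rfl

/-- even values -/
def NE : AddSubgroup P.K :=
  ((AddMonoidHom.mulLeft (P.Q : ZMod P.q)).comp (AddMonoidHom.fst _ _)).ker

@[simp] lemma mem_NE {k : P.K} : k ∈ P.NE ↔ (P.Q : ZMod P.q) * k.1 = 0 := Iff.rfl

/-- first coordinate -/
def x1 : P.G →+ ℤ := (AddMonoidHom.fst _ _).comp (AddMonoidHom.fst _ _)
/-- second coordinate -/
def x2 : P.G →+ ℤ := (AddMonoidHom.snd _ _).comp (AddMonoidHom.fst _ _)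
/-- position along the line -/
def A (v : V) : P.G →+ ℤ := (P.a v).comp (AddMonoidHom.fst _ _)
/-- index of the line -/
def B (v : V) : P.G →+ ℤ := (P.n v).comp (AddMonoidHom.fst _ _)
/-- fibre coordinate -/
def y2 : P.G →+ ZMod P.q := (AddMonoidHom.fst _ _).comp (AddMonoidHom.snd _ _)
/-- fibre coordinate -/
def yu (v : V) : P.G →+ ZMod (P.u v * P.u v) := (Pi.evalAddMonoidHom _ v).comp
  ((AddMonoidHom.fst _ _).comp ((AddMonoidHom.snd _ _).comp (AddMonoidHom.snd _ _)))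
/-- fibre coordinate -/
def yo (o : OO V P.q P.u) : P.G →+ ZMod (P.r o) := (Pi.evalAddMonoidHom _ o).comp
  ((AddMonoidHom.snd _ _).comp ((AddMonoidHom.snd _ _).comp (AddMonoidHom.snd _ _)))

@[simp] lemma x1_apply (g : P.G) : P.x1 g = g.1.1 := rfl
@[simp] lemma x2_apply (g : P.G) : P.x2 g = g.1.2 := rfl
@[simp] lemma A_apply (v : V) (g : P.G) : P.A v g = P.a v g.1 := rfl
@[simp] lemma B_apply (v : V) (g : P.G) : P.B v g = P.n v g.1 := rfl
@[simp] lemma y2_apply (g : P.G) : P.y2 g = g.2.1 := rfl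
@[simp] lemma yu_apply (v : V) (g : P.G) : P.yu v g = g.2.2.1 v := rfl
@[simp] lemma yo_apply (o : OO V P.q P.u) (g : P.G) : P.yo o g = g.2.2.2 o := rfl

/-- invariance groups of the values of the labels -/
def I' : LL V P.q P.u → AddSubgroup P.G
  | Sum.inl (PL.X _) => dv P.q P.x1
  | Sum.inl (PL.Y _) => dv P.q P.x2
  | Sum.inl PL.D => dv 2 (P.x1 + P.x2)
  | Sum.inl (PL.tau v) => dv 2 (P.A v)
  | Sum.inl (PL.lam v s) => dv P.Q (P.B v - ((s : ℕ) : ℤ) • P.A v) ⊓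
      dv (P.u v * P.u v : ℕ) P.x1 ⊓ ((lay _).comp (P.yu v)).ker
  | Sum.inr v => (P.B v).ker

/-- the direction of a label -/
def lv : LL V P.q P.u → V
  | Sum.inl (PL.tau v) => v
  | Sum.inl (PL.lam v _) => v
  | Sum.inr v => v
  | _ => P.v0

/-- invariance groups of the components -/
def I : CC V P.q P.u → AddSubgroup P.G
  | Sum.inl _ => dv P.q P.x1 ⊓ dv P.q P.x2 ⊓ P.y2.ker
  | Sum.inr (Sum.inl v) => dv P.Q P.x1 ⊓ dv P.Q P.x2 ⊓ dv (P.u v * P.u v : ℕ) P.x1 ⊓ (P.yu v).ker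
  | Sum.inr (Sum.inr (Sum.inl p)) => (P.B p.1).ker ⊓ dv 2 (P.A p.1) ⊓
      dv (P.u p.1 * P.u p.1 : ℕ) P.x1 ⊓ dv (P.r (Sum.inl p)) (P.A p.1) ⊓
      ((lay _).comp (P.yu p.1)).ker ⊓ (P.yo (Sum.inl p)).ker
  | Sum.inr (Sum.inr (Sum.inr l)) => P.I' l ⊓ dv (P.r (Sum.inr l)) (P.A (P.lv l)) ⊓
      (P.yo (Sum.inr l)).ker

/-- horizontal vectors -/
def hz (t : ℤ) (y : ℤ × ℤ) : P.G := (t • y, 0)

@[simp] lemma hz_a (φ : ℤ × ℤ →+ ℤ) (t : ℤ) (y : ℤ × ℤ) : φ (P.hz t y).1 = t * φ y := by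
  rw [hz, map_zsmul, smul_eq_mul]

@[simp] lemma hz_11 (t : ℤ) (y : ℤ × ℤ) : (P.hz t y).1.1 = t * y.1 := rfl
@[simp] lemma hz_12 (t : ℤ) (y : ℤ × ℤ) : (P.hz t y).1.2 = t * y.2 := rfl
@[simp] lemma hz_2 (t : ℤ) (y : ℤ × ℤ) : (P.hz t y).2 = 0 := rfl

variable [DecidableEq V]

set_option linter.unusedSectionVars false

open Classical in
/-- unit vectors of the ordinary components -/
noncomputable def eo (o : OO V P.q P.u) (s : ZMod (P.r o)) : P.K := (0, 0, Pi.single o s)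

/-- unit vectors of the layers -/
def eu (v : V) (s : ZMod (P.u v * P.u v)) : P.G := (0, (0, Pi.single v s, 0))

/-- the component of a label -/
abbrev cl (l : LL V P.q P.u) : CC V P.q P.u := Sum.inr (Sum.inr (Sum.inr l))

/-- the component of a signal -/
abbrev cg (v : V) (s : Bool) : CC V P.q P.u := Sum.inr (Sum.inr (Sum.inl (v, s)))

/-- the machine -/
noncomputable def M : Mach P.G P.K (CC V P.q P.u) (LL V P.q P.u) where
  ι := P.ι
  N := P.N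
  I := P.I
  cl := P.cl
  dir l := P.hz (P.c (P.cl l)) (P.w (P.lv l))
  un l := P.eo (Sum.inr l) 1
  un_not l := by simp [eo]

/-- the multiplier of the even part -/
abbrev c2 : ℤ := P.c (Sum.inl ())

/-- the multiplier of a layer part -/
abbrev cu (v : V) : ℤ := P.c (Sum.inr (Sum.inl v))

/-- the constraints on the periodic labels -/
def Om (p : PL V P.q P.u → Bool) : Prop :=
  (∃ c, p (PL.X c) = true) ∧ (∃ c, p (PL.Y c) = true) ∧ ∀ c c', p (PL.X c) = true →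
    p (PL.Y c') = true → (P.Q : ZMod P.q) * (c + c' + 1 - if p PL.D then 1 else 0) = 0 ∧
      (∀ v, p (PL.tau v) = true ↔
        (P.Q : ZMod P.q) * ((P.a v (1, 0) : ℤ) * c + (P.a v (0, 1) : ℤ) * c') ≠ 0) ∧
      (2 * c = 0 → 2 * c' = 0 → ∀ v, ∃ s, p (PL.lam v s) = true)

/-- the first species -/
def s0 (v : V) : Fin (P.u v) := ⟨0, by have := P.hu v; omega⟩

/-- the system of clauses -/
structure Sys (R : ℤ) (Ω : Set (V → Bool)) (κ : P.G → P.K) (val : LL V P.q P.u → P.G → Bool) :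
    Prop where
  hX : ∀ c g, val (Sum.inl (PL.X c)) g = true →
    (κ (g + (P.hz P.c2 (0, 1) + P.ι (c, 0, 0))) - κ g).1 = 0
  hY : ∀ c g, val (Sum.inl (PL.Y c)) g = true →
    (κ (g + (P.hz P.c2 (1, 0) + P.ι (c, 0, 0))) - κ g).1 = 0
  hD : ∀ b g, val (Sum.inl PL.D) g = b →
    (P.Q : ZMod P.q) * (κ (g + (P.hz P.c2 (1, 1) + P.ι (if b then 1 else 0, 0, 0))) - κ g).1 = 0
  hO : ∀ g, P.Om fun p => val (Sum.inl p) g
  hm : ∀ c g, val (Sum.inl (PL.Y c)) g = true → val (Sum.inr P.v0) g = decide (c ≠ 0)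
  hu : ∀ v b g, val (Sum.inl (PL.tau v)) g = b →
    (κ (g + (P.hz (P.cu v) (1, 0) + P.eu v (if b then 1 else 0))) - κ g).2.1 v = 0
  hl : ∀ v s g, val (Sum.inl (PL.lam v s)) g = true →
    (κ (g + P.hz P.c2 (P.w v + ((s : ℕ) : ℤ) • P.T v)) - κ g).2.1 v = 0
  h0 : ∀ v s (b : Bool) g, val (Sum.inl (PL.tau v)) g = false →
    val (Sum.inl (PL.lam v (P.s0 v))) g = false →
    (κ (g + P.hz R (if b then (1, 0) else (0, 1))) - κ g).2.2 (Sum.inl (v, s)) = 0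
  h1 : ∀ v s (b : Bool) g, val (Sum.inl (PL.tau v)) g = true →
    (κ (g + (P.hz R (if b then (1, 0) else (0, 1)) + P.ι (P.eo (Sum.inl (v, s))
      (R * P.a v (if b then (1, 0) else (0, 1)) : ℤ)))) - κ g).2.2 (Sum.inl (v, s)) = 0
  h2 : ∀ v s g, val (Sum.inl (PL.lam v (P.s0 v))) g = true → val (Sum.inr v) g = s →
    (κ (g + P.hz P.c2 (P.w v)) - κ g).2.2 (Sum.inl (v, s)) = 0
  h3 : ∀ p, p ∉ Ω → ∀ g, ∃ v, (κ (g + P.eu v 1) - κ g).2.2 (Sum.inl (v, p v)) = 0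

lemma q_c {i : CC V P.q P.u} (h : Sum.inl () ≠ i) : (P.q : ℤ) ∣ P.c i := P.c0 _ _ h

lemma Q_q : (P.Q : ℤ) ∣ P.q := by push_cast; exact dvd_mul_left _ _

lemma two_Q : (2 : ℤ) ∣ P.Q := by push_cast; exact dvd_pow_self _ (by omega)

lemma u_c {i : CC V P.q P.u} (v : V) (h : Sum.inr (Sum.inl v) ≠ i) :
    ((P.u v * P.u v : ℕ) : ℤ) ∣ P.c i := P.c0 _ _ h

lemma r_c {i : CC V P.q P.u} (o : OO V P.q P.u) (h : Sum.inr (Sum.inr o) ≠ i) :
    (P.r o : ℤ) ∣ P.c i := P.c0 _ _ h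

lemma hz_I' (p : PL V P.q P.u) {t : ℤ} (h1 : (P.q : ℤ) ∣ t)
    (h2 : P.u (P.lv (Sum.inl p)) * P.u (P.lv (Sum.inl p)) ∣ t.natAbs) (y : ℤ × ℤ) :
    P.hz t y ∈ P.I' (Sum.inl p) := by
  have h2' := Int.ofNat_dvd_left.2 h2
  have h3 := P.Q_q.trans h1
  have h4 := P.two_Q.trans h3
  cases p <;> simp only [I', mem_dv, x1_apply, x2_apply, A_apply, B_apply, hz_a, hz_11, hz_12,
    AddMonoidHom.add_apply, AddMonoidHom.sub_apply, AddMonoidHom.smul_apply,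
    smul_eq_mul, AddSubgroup.mem_inf, AddMonoidHom.mem_ker, AddMonoidHom.comp_apply,
    yu_apply]
  · exact h1.mul_right _
  · exact h1.mul_right _
  · exact (h4.mul_right _).add (h4.mul_right _)
  · exact h4.mul_right _
  · exact ⟨⟨(h3.mul_right _).sub ((h3.mul_right _).mul_left _), h2'.mul_right _⟩, by simp⟩

lemma dir_I' (l : LL V P.q P.u) (l' : LL V P.q P.u)
    (h : (∃ p, l' = Sum.inl p) ∨ P.lv l = P.lv l') : P.M.dir l ∈ P.I' l' := by
  rcases l' with p | v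
  · exact P.hz_I' p (P.q_c (by simp)) (Int.ofNat_dvd_left.1 (P.u_c _ (by simp))) _
  · have : P.lv l = v := by simpa [lv] using h
    simp [M, I', this, P.nw]

lemma dir_I {l l' : LL V P.q P.u} (hne : l ≠ l')
    (h : (∃ p, l' = Sum.inl p) ∨ P.lv l = P.lv l') : P.M.dir l ∈ P.M.I (P.M.cl l') :=
  ⟨⟨P.dir_I' l l' h, by
    simpa [M] using (P.r_c (i := P.cl l) (Sum.inr l') (by simpa using hne.symm)).mul_right _⟩,
    by simp [M]⟩

lemma un_N {l : LL V P.q P.u} {c : CC V P.q P.u} (hne : c ≠ P.cl l) : P.M.un l ∈ P.M.N c := by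
  rcases c with _ | v | o
  · simp [M, eo]
  · simp [M, eo]
  · have : o ≠ Sum.inr l := by simpa using hne
    simp [M, eo, this]

lemma dir_two (l : LL V P.q P.u) : P.M.dir l ∈ P.M.I (Sum.inl ()) := by
  have := P.q_c (i := P.cl l) (by simp)
  simp only [M, I, AddSubgroup.mem_inf, mem_dv, x1_apply, x2_apply, hz_11, hz_12]
  exact ⟨⟨this.mul_right _, this.mul_right _⟩, by simp⟩

lemma dir_aux (l : LL V P.q P.u) (v : V) : P.M.dir l ∈ P.M.I (Sum.inr (Sum.inl v)) := by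
  have := P.Q_q.trans (P.q_c (i := P.cl l) (by simp))
  simp only [M, I, AddSubgroup.mem_inf, mem_dv, x1_apply, x2_apply, hz_11, hz_12]
  exact ⟨⟨⟨this.mul_right _, this.mul_right _⟩, (P.u_c v (by simp)).mul_right _⟩, by simp⟩

lemma dir_cg (l : LL V P.q P.u) (s : Bool) : P.M.dir l ∈ P.M.I (P.cg (P.lv l) s) := by
  have := P.two_Q.trans (P.Q_q.trans (P.q_c (i := P.cl l) (by simp)))
  simp only [M, I, AddSubgroup.mem_inf, mem_dv, x1_apply, A_apply, hz_11, hz_a]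
  exact ⟨⟨⟨⟨⟨by simp [P.nw], this.mul_right _⟩, (P.u_c _ (by simp)).mul_right _⟩,
    (P.r_c _ (by simp)).mul_right _⟩, by simp⟩, by simp⟩

theorem expr [Finite V] (R : ℤ) (hQ : (P.Q : ℤ) ∣ R) (hu : ∀ v, ((P.u v * P.u v : ℕ) : ℤ) ∣ R)
    (hr : ∀ l, (P.r (Sum.inr l) : ℤ) ∣ R) (Ω : Set (V → Bool)) : P.M.Expr (P.Sys R Ω) := by
  have : Nonempty V := ⟨P.v0⟩
  have : Nonempty (PL V P.q P.u) := ⟨PL.D⟩
  have h2R := P.two_Q.trans hQ
  have rc2 : ∀ (o) (z : ℤ), (P.r o : ℤ) ∣ P.c2 * z := fun o z => (P.r_c o (by simp)).mul_right _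
  have uc2 : ∀ (v) (z : ℤ), ((P.u v * P.u v : ℕ) : ℤ) ∣ P.c2 * z :=
    fun v z => (P.u_c v (by simp)).mul_right _
  have eX := fun c => Mach.Expr.gate1 (M := P.M) (Sum.inl (PL.X c)) true (Sum.inl ())
    (P.N (Sum.inl ())) (P.hz P.c2 (0, 1) + P.ι (c, 0, 0)) (P.dir_two _) (P.un_N (by simp))
    (by simpa [M, I, I', ι_apply] using rc2 _ _) le_rfl
  have eY := fun c => Mach.Expr.gate1 (M := P.M) (Sum.inl (PL.Y c)) true (Sum.inl ())
    (P.N (Sum.inl ())) (P.hz P.c2 (1, 0) + P.ι (c, 0, 0)) (P.dir_two _) (P.un_N (by simp))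
    (by simpa [M, I, I', ι_apply] using rc2 _ _) le_rfl
  have eD := fun b : Bool => Mach.Expr.gate1 (M := P.M) (Sum.inl PL.D) b (Sum.inl ())
    P.NE (P.hz P.c2 (1, 1) + P.ι (if b then 1 else 0, 0, 0)) (P.dir_two _) (P.un_N (by simp))
    (by simpa [M, I, I', ι_apply, ← two_mul] using rc2 _ _)
    (fun k hk => by simp [show k.1 = 0 from hk])
  have eO := Mach.Expr.bool (M := P.M) (Sum.inl : PL V P.q P.u → _) Sum.inl_injective
    (fun p p' h => ⟨P.dir_I (by simpa using h) (Or.inl ⟨_, rfl⟩),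
      P.un_N (by simpa [M] using h.symm)⟩) P.Om
  have em := fun c => Mach.Expr.bool2 (M := P.M) (Sum.inl (PL.Y c)) (Sum.inr P.v0) (by simp)
    true (decide (c ≠ 0)) (P.dir_I (by simp) (Or.inr rfl)) (P.un_N (by simp [M]))
    (P.dir_I (by simp) (Or.inr rfl)) (P.un_N (by simp [M]))
  have eu := fun v (b : Bool) => Mach.Expr.gate1 (M := P.M) (Sum.inl (PL.tau v)) b
    (Sum.inr (Sum.inl v)) (P.N (Sum.inr (Sum.inl v)))
    (P.hz (P.cu v) (1, 0) + P.eu v (if b then 1 else 0)) (P.dir_aux _ _) (P.un_N (by simp))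
    (by
      have h1 := (P.two_Q.trans (P.Q_q.trans (P.q_c (i := Sum.inr (Sum.inl v))
        (by simp)))).mul_right (P.a v (1, 0))
      have h2 := (P.r_c (i := Sum.inr (Sum.inl v)) (Sum.inr (Sum.inl (PL.tau v)))
        (by simp)).mul_right (P.a v (1, 0))
      simpa [M, I, I', Par.eu, lv] using And.intro h1 h2) le_rfl
  have el := fun v (s : Fin (P.u v)) => Mach.Expr.gate1 (M := P.M) (Sum.inl (PL.lam v s)) true
    (Sum.inr (Sum.inl v)) (P.N (Sum.inr (Sum.inl v)))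
    (P.hz P.c2 (P.w v + ((s : ℕ) : ℤ) • P.T v)) (P.dir_aux _ _) (P.un_N (by simp))
    ⟨⟨⟨⟨by simp [-zsmul_eq_mul, -natCast_zsmul, P.aw, P.nw, P.aT, P.nT, mul_comm],
      by simpa using uc2 v _⟩, by simp⟩,
      by simpa [-map_add] using rc2 _ _⟩, by simp⟩ le_rfl
  have Rt : ∀ v y, P.hz R y ∈ P.M.I (P.cl (Sum.inl (PL.tau v))) := fun v y => by
    simpa [M, I, I', lv] using And.intro (h2R.mul_right _) ((hr _).mul_right _)
  have e0 := fun v s (b : Bool) => Mach.Expr.gate2 (M := P.M) (Sum.inl (PL.tau v))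
    (Sum.inl (PL.lam v (P.s0 v))) (by simp) false false (P.cg v s)
    (P.hz R (if b then (1, 0) else (0, 1))) (P.dir_cg (Sum.inl (PL.tau v)) s) (P.un_N (by simp)) (Rt _ _)
    (P.dir_cg (Sum.inl (PL.lam v (P.s0 v))) s) (P.un_N (by simp))
    ⟨⟨⟨⟨by simpa [s0] using hQ.mul_right _, by simpa using (hu v).mul_right _⟩, by simp⟩,
      by simpa using (hr _).mul_right _⟩, by simp⟩
    (P.dir_I (by simp) (Or.inr rfl)) (P.un_N (by simp [M]))
    (P.dir_I (by simp) (Or.inr rfl)) (P.un_N (by simp [M]))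
  have e1 := fun v s (b : Bool) => Mach.Expr.gate1 (M := P.M) (Sum.inl (PL.tau v)) true
    (P.cg v s) (P.N (P.cg v s)) (P.hz R (if b then (1, 0) else (0, 1)) + P.ι (P.eo (Sum.inl (v, s))
      (R * P.a v (if b then (1, 0) else (0, 1)) : ℤ))) (P.dir_cg (Sum.inl (PL.tau v)) s) (P.un_N (by simp))
    (add_mem (Rt _ _) (by simp [M, I, I', ι_apply, eo])) le_rfl
  have e2 := fun v s => Mach.Expr.gate2 (M := P.M) (Sum.inl (PL.lam v (P.s0 v))) (Sum.inr v)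
    (by simp) true s (P.cg v s) (P.hz P.c2 (P.w v))
    (P.dir_cg (Sum.inl (PL.lam v (P.s0 v))) s) (P.un_N (by simp))
    ⟨⟨⟨⟨by simp [P.nw, s0], by simpa using uc2 v _⟩, by simp⟩,
      by simpa using rc2 _ _⟩, by simp⟩
    (P.dir_cg (Sum.inr v) s) (P.un_N (by simp))
    ⟨⟨by simp [I', P.nw], by simpa using rc2 _ _⟩, by simp⟩
    (P.dir_I (by simp) (Or.inr rfl)) (P.un_N (by simp [M]))
    (P.dir_I (by simp) (Or.inr rfl)) (P.un_N (by simp [M]))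
  have e3 := fun p : V → Bool => (Mach.Expr.nand (M := P.M) (fun v => P.cg v (p v))
    (fun v => P.eu v 1) (fun v v' h => by simp [M, I, Par.eu, h.symm])).imp (p := p ∉ Ω)
  refine ((Mach.Expr.all eX).and <| (Mach.Expr.all eY).and <| (Mach.Expr.all eD).and <| eO.and <|
    (Mach.Expr.all em).and <| (Mach.Expr.all fun v => Mach.Expr.all (eu v)).and <|
    (Mach.Expr.all fun v => Mach.Expr.all (el v)).and <|
    (Mach.Expr.all fun v => Mach.Expr.all fun s => Mach.Expr.all (e0 v s)).and <|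
    (Mach.Expr.all fun v => Mach.Expr.all fun s => Mach.Expr.all (e1 v s)).and <|
    (Mach.Expr.all fun v => Mach.Expr.all (e2 v)).and <| Mach.Expr.all e3).of_iff fun κ val => ?_
  exact ⟨fun ⟨a1, a2, a3, a4, a5, a6, a7, a8, a9, a10, a11⟩ =>
    ⟨a1, a2, a3, a4, a5, a6, a7, a8, a9, a10, a11⟩,
    fun h => ⟨h.1, h.2, h.3, h.4, h.5, h.6, h.7, h.8, h.9, h.10, h.11⟩⟩

end Par

end Vale.Agent.P043
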