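import Vale.Agent.P043.Exist

/-! Every solution of the label machine yields a solution of the puzzle. -/

namespace Vale.Agent.P043

lemma const_of_step {β : Type*} (f : ℤ → β) (h : ∀ j, f (j + 1) = f j) (j : ℤ) : f j = f 0 := by
  induction j using Int.induction_on with
  | zero => rfl
  | succ j ih => rw [h, ih]
  | pred j ih => rw [← h, sub_add_cancel, ih]

lemma const_of_step2 {β : Type*} (f : ℤ × ℤ → β)
    (h : ∀ (e : Bool) y, f (y + if e then (1, 0) else (0, 1)) = f y) (y : ℤ × ℤ) : f y = f 0 := by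
  have h1 := const_of_step (fun j => f (j, y.2)) (fun j => by simpa using h true (j, y.2)) y.1
  have h2 := const_of_step (fun j => f (0, j)) (fun j => by simpa using h false (0, j)) y.2
  exact h1.trans h2

namespace Par

variable {V : Type} [DecidableEq V] {P : Par V} {κ : P.G → P.K} {val : LL V P.q P.u → P.G → Bool}
  {R : ℤ} {Ω : Set (V → Bool)}

set_option linter.unusedSectionVars false

lemma hz_add (t : ℤ) (y y' : ℤ × ℤ) : P.hz t (y + y') = P.hz t y + P.hz t y' := by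
  simp [hz, -zsmul_eq_mul]

lemma add_hz (t t' : ℤ) (y : ℤ × ℤ) : P.hz (t + t') y = P.hz t y + P.hz t' y := by
  simp [hz, -zsmul_eq_mul, add_smul]

lemma eu_add (v : V) (s t : ZMod (P.u v * P.u v)) : P.eu v (s + t) = P.eu v s + P.eu v t := by
  simp [eu, Pi.single_add]

lemma eu_mu (v : V) (k : ZMod (P.u v)) : P.eu v (mu _ k) = P.ι (0, Pi.single v k, 0) := by
  refine Prod.ext rfl (Prod.ext rfl (Prod.ext (funext fun v' => ?_) rfl))
  by_cases h : v' = v
  · subst h; simp [eu, ι_apply]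
  · simp [eu, ι_apply, h]

lemma valI' (h1 : ∀ l, ∀ h ∈ P.M.I (P.M.cl l), ∀ g, val l (g + h) = val l g)
    (h2 : ∀ l g, val l (g + P.M.dir l) = val l g) (h3 : ∀ l g k, val l (g + P.M.ι k) = val l g)
    (l : LL V P.q P.u) (h : P.G) (hh : h ∈ P.I' l) (g : P.G) : val l (g + h) = val l g := by
  set t := P.a (P.lv l) h.1 with ht
  set k := P.eo (Sum.inr l) (h.2.2.2 (Sum.inr l)) with hk
  have h4 : h - t • P.M.dir l - P.ι k ∈ P.M.I (P.M.cl l) := by
    have h0 : h - t • P.M.dir l - P.ι k ∈ P.I' l :=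
      sub_mem (sub_mem hh (zsmul_mem (P.dir_I' l l (Or.inr rfl)) _)) (P.ι_I' l k)
    refine ⟨⟨h0, ?_⟩, by simp [M, ι_apply, hk, eo]⟩
    have := (P.c1 (P.cl l)).mul_left (-t)
    refine mem_dv.2 ?_
    rw [map_sub, map_sub, map_zsmul]
    simp only [A_apply, M, hz_a, P.aw, ι_apply, map_zero, ← ht, smul_eq_mul]
    rwa [show t - t * (P.c (P.cl l) * 1) - 0 = -t * (P.c (P.cl l) - 1) by ring]
  have h5 := const_of_step (fun j => val l (g + j • P.M.dir l))
    (fun j => by simp only [add_smul, one_smul, ← add_assoc, h2]) t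
  have e : g + h = g + t • P.M.dir l + P.ι k + (h - t • P.M.dir l - P.ι k) := by abel
  rw [e, h1 l _ h4, show P.ι = P.M.ι from rfl, h3, h5, zero_smul, add_zero]

lemma coords (he : Equi P.ι κ) (hv : ∀ l, ∀ h ∈ P.I' l, ∀ g, val l (g + h) = val l g)
    (S : P.Sys R Ω κ val) : ∃ g0 : P.G,
    (∀ v h, val (Sum.inl (PL.tau v)) (g0 + h) = true ↔ ¬ 2 ∣ P.a v h.1) ∧
    (∀ h : P.G, (P.Q : ℤ) ∣ h.1.1 → (P.Q : ℤ) ∣ h.1.2 → ∀ v, ∃ s,
      val (Sum.inl (PL.lam v s)) (g0 + h) = true) ∧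
    ∀ h : P.G, val (Sum.inr P.v0) (g0 + h) = decide (¬ (P.q : ℤ) ∣ h.1.2) := by
  have c2q : ((P.c2 : ℤ) : ZMod P.q) = 1 := cast_one_of (P.c1 (Sum.inl ()))
  set E1 := P.hz P.c2 (1, 0) with hE1
  set E2 := P.hz P.c2 (0, 1) with hE2
  let sx : P.G → ZMod P.q := fun g => (κ g).1 - (κ (g + E2)).1
  let sy : P.G → ZMod P.q := fun g => (κ g).1 - (κ (g + E1)).1
  have x1 : ∀ c g, val (Sum.inl (PL.X c)) g = true → c = sx g := fun c g h => by
    have := S.hX c g h
    rw [← add_assoc, he] at this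
    simp only [Prod.fst_sub, Prod.fst_add] at this
    simp only [sx]; linear_combination this
  have y1 : ∀ c g, val (Sum.inl (PL.Y c)) g = true → c = sy g := fun c g h => by
    have := S.hY c g h
    rw [← add_assoc, he] at this
    simp only [Prod.fst_sub, Prod.fst_add] at this
    simp only [sy]; linear_combination this
  have x2 : ∀ g, val (Sum.inl (PL.X (sx g))) g = true := fun g => by
    obtain ⟨c, hc⟩ := (S.hO g).1
    rwa [← x1 c g hc]
  have y2 : ∀ g, val (Sum.inl (PL.Y (sy g))) g = true := fun g => by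
    obtain ⟨c, hc⟩ := (S.hO g).2.1
    rwa [← y1 c g hc]
  have x3 : ∀ g h : P.G, (P.q : ℤ) ∣ h.1.1 → sx (g + h) = sx g := fun g h hh =>
    (x1 _ _ ((hv (Sum.inl (PL.X _)) h (mem_dv.2 hh) g).trans (x2 g))).symm
  have y3 : ∀ g h : P.G, (P.q : ℤ) ∣ h.1.2 → sy (g + h) = sy g := fun g h hh =>
    (y1 _ _ ((hv (Sum.inl (PL.Y _)) h (mem_dv.2 hh) g).trans (y2 g))).symm
  have mix : ∀ g, sx (g + E1) - sx g = sy (g + E2) - sy g := fun g => by
    simp only [sx, sy, add_right_comm g E1 E2]; ring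
  obtain ⟨m, hm⟩ := ZMod.intCast_surjective (sx (0 + E1) - sx 0)
  have m1 : ∀ g, sx (g + E1) - sx g = m := fun g => by
    have e : g = 0 + (((0, g.1.2), g.2) : P.G) + (((g.1.1, 0), 0) : P.G) := by ext <;> simp
    rw [hm, e, mix, add_right_comm _ _ E2, y3 _ _ (by simp), y3 _ ((g.1.1, 0), 0) (by simp), ← mix,
      add_right_comm, x3 _ _ (by simp), x3 _ ((0, g.1.2), g.2) (by simp)]
  have x4 : ∀ g h : P.G, sx (g + h) = sx g + m * (h.1.1 : ℤ) := fun g h => by
    have h1 := const_of_step (fun j => sx (g + j • E1) - m * (j : ℤ)) (fun j => by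
      have := m1 (g + j • E1)
      simp only [add_smul, one_smul, ← add_assoc]
      push_cast
      linear_combination this) h.1.1
    have e : g + h = g + h.1.1 • E1 + (h - h.1.1 • E1) := by abel
    rw [e, x3]
    · simp only [zero_smul, add_zero, Int.cast_zero, mul_zero, sub_zero] at h1
      linear_combination h1
    · have := (P.c1 (Sum.inl ())).mul_left (-h.1.1)
      rwa [show -h.1.1 * (P.c (Sum.inl ()) - 1) = (h - h.1.1 • E1).1.1 by simp [hE1]; ring] at this
  have y4 : ∀ g h : P.G, sy (g + h) = sy g + m * (h.1.2 : ℤ) := fun g h => by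
    have h1 := const_of_step (fun j => sy (g + j • E2) - m * (j : ℤ)) (fun j => by
      have := (mix _).symm.trans (m1 (g + j • E2))
      simp only [add_smul, one_smul, ← add_assoc]
      push_cast
      linear_combination this) h.1.2
    have e : g + h = g + h.1.2 • E2 + (h - h.1.2 • E2) := by abel
    rw [e, y3]
    · simp only [zero_smul, add_zero, Int.cast_zero, mul_zero, sub_zero] at h1
      linear_combination h1
    · have := (P.c1 (Sum.inl ())).mul_left (-h.1.2)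
      rwa [show -h.1.2 * (P.c (Sum.inl ()) - 1) = (h - h.1.2 • E2).1.2 by simp [hE2]; ring] at this
  have hodd : ¬ 2 ∣ m := by
    have h1 := S.hD _ 0 rfl
    have h2 := ((S.hO 0).2.2 _ _ (x2 0) (y2 0)).1
    have e : P.hz P.c2 (1, 1) = E1 + E2 := by rw [hE1, hE2, ← hz_add]; rfl
    rw [← add_assoc, he, e, ← add_assoc] at h1
    simp only [Prod.fst_sub, Prod.fst_add] at h1
    have h3 := m1 0
    have : (P.Q : ZMod P.q) * ((1 - m : ℤ) : ZMod P.q) = 0 := by
      push_cast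
      simp only [sx, sy] at h2 h3
      push_cast at h1 h2
      linear_combination h1 + h2 + (2 : ZMod P.q) ^ (P.j + 1) * h3
    rw [Q_mul_eq_zero] at this
    omega
  have hcop : IsCoprime (P.q : ℤ) m := by
    rw [show ((P.q : ℕ) : ℤ) = 2 ^ (P.j + 2) by push_cast; ring]
    exact ((Int.prime_two.coprime_iff_not_dvd).2 hodd).pow_left
  obtain ⟨i, m', hm'⟩ := hcop
  have hmm : (m : ZMod P.q) * m' = 1 := by
    have := congrArg (Int.cast : ℤ → ZMod P.q) hm'
    rw [Int.cast_add, Int.cast_mul, Int.cast_mul, Int.cast_natCast, ZMod.natCast_self] at this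
    simpa [mul_comm] using this
  obtain ⟨s, hs⟩ := ZMod.intCast_surjective (sx 0)
  obtain ⟨t, ht⟩ := ZMod.intCast_surjective (sy 0)
  set g0 : P.G := 0 + ((-(m' * s), -(m' * t)), 0) with hg0
  have x5 : ∀ h : P.G, sx (g0 + h) = ((m * h.1.1 : ℤ) : ZMod P.q) := fun h => by
    rw [x4, hg0, x4, ← hs]
    push_cast
    linear_combination -(s : ZMod P.q) * hmm
  have y5 : ∀ h : P.G, sy (g0 + h) = ((m * h.1.2 : ℤ) : ZMod P.q) := fun h => by
    rw [y4, hg0, y4, ← ht]
    push_cast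
    linear_combination -(t : ZMod P.q) * hmm
  refine ⟨g0, fun v h => ?_, fun h h1 h2 => ?_, fun h => ?_⟩
  · have : P.a v h.1 = P.a v (1, 0) * h.1.1 + P.a v (0, 1) * h.1.2 := by
      rw [mul_comm, mul_comm (P.a v (0, 1)), ← smul_eq_mul, ← smul_eq_mul, ← map_zsmul,
        ← map_zsmul, ← map_add]
      simp
    rw [((S.hO (g0 + h)).2.2 _ _ (x2 _) (y2 _)).2.1 v, x5, y5, ← Int.cast_mul, ← Int.cast_mul,
      ← Int.cast_add, Ne, Q_mul_eq_zero,
      show P.a v (1, 0) * (m * h.1.1) + P.a v (0, 1) * (m * h.1.2) = m * P.a v h.1 by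
        rw [this]; ring, Int.prime_two.dvd_mul]
    simp only [hodd, false_or]
  · refine ((S.hO (g0 + h)).2.2 _ _ (x2 _) (y2 _)).2.2 ?_ ?_
    · rw [x5, two_mul_eq_zero]; exact h1.mul_left _
    · rw [y5, two_mul_eq_zero]; exact h2.mul_left _
  · rw [S.hm _ _ (y2 _), y5]
    simp only [ne_eq, ZMod.intCast_zmod_eq_zero_iff_dvd, decide_eq_decide]
    exact not_congr ⟨IsCoprime.dvd_of_dvd_mul_left ⟨i, m', hm'⟩, fun h => h.mul_left _⟩

lemma layers (he : Equi P.ι κ) (S : P.Sys R Ω κ val) {g0 : P.G}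
    (h1 : ∀ v h, val (Sum.inl (PL.tau v)) (g0 + h) = true ↔ ¬ 2 ∣ P.a v h.1)
    (h2 : ∀ h : P.G, (P.Q : ℤ) ∣ h.1.1 → (P.Q : ℤ) ∣ h.1.2 → ∀ v, ∃ s,
      val (Sum.inl (PL.lam v s)) (g0 + h) = true) (v : V) :
    ∃ (m : ℤ) (t1 t0 : ZMod (P.u v * P.u v)),
      val (Sum.inl (PL.lam v (P.s0 v))) (g0 + (P.hz (m * P.cu v) (1, 0) + P.eu v t1)) = true ∧
      val (Sum.inl (PL.lam v (P.s0 v))) (g0 + (P.hz (m * P.cu v) (1, 0) + P.eu v t0)) = false := by
  have hc : (P.Q : ℤ) ∣ P.cu v := P.Q_q.trans (P.q_c (by simp))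
  have hc2 : 2 ∣ P.c2 - 1 := P.two_Q.trans (P.Q_q.trans (P.c1 (Sum.inl ())))
  let pt : ℤ → ZMod (P.u v * P.u v) → P.G := fun m t => P.hz (m * P.cu v) (1, 0) + P.eu v t
  have ptev : ∀ m t, 2 ∣ P.a v (pt m t).1 := fun m t => by
    simpa [pt, eu] using ((P.two_Q.trans hc).mul_left m).mul_right _
  let Z : Fin (P.u v) → P.G := fun s => P.hz P.c2 (P.w v + ((s : ℕ) : ℤ) • P.T v)
  let θ : Fin (P.u v) → ZMod (P.u v * P.u v) → ZMod (P.u v) := fun s t =>
    (κ (g0 + pt 0 t + Z s)).2.1 v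
  have k0 : ∀ m t, (κ (g0 + pt m t)).2.1 v = (κ (g0 + pt 0 t)).2.1 v := fun m t =>
    const_of_step (fun j => (κ (g0 + pt j t)).2.1 v) (fun j => by
      have := S.hu v false (g0 + pt j t) (by
        rw [← Bool.not_eq_true, h1, not_not]; exact ptev _ _)
      rw [← sub_eq_zero.1 this]
      refine congrArg (fun g => (κ g).2.1 v) ?_
      simp only [pt, add_mul, one_mul, add_hz, Bool.false_eq_true, if_false]
      rw [show P.eu v 0 = 0 by simp [eu]]
      abel) m
  have k1 : ∀ s m t, (κ (g0 + pt m t + Z s)).2.1 v = θ s (t - (m : ℤ)) := fun s m t => by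
    have := const_of_step (fun j => (κ (g0 + pt j (t - (m : ℤ) + (j : ℤ)) + Z s)).2.1 v) (fun j => by
      have := S.hu v true (g0 + pt j (t - (m : ℤ) + (j : ℤ)) + Z s) (by
        rw [add_assoc, h1, Prod.fst_add, map_add, dvd_add_right (ptev _ _)]
        simp only [Z, hz_a, map_add, map_zsmul, P.aw, P.aT, smul_eq_mul, mul_zero, add_zero, mul_one]
        omega)
      rw [← sub_eq_zero.1 this]
      refine congrArg (fun g => (κ g).2.1 v) ?_
      simp only [pt, add_mul, one_mul, add_hz, if_true, Int.cast_add, Int.cast_one, ← add_assoc,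
        eu_add]
      abel) m
    simpa [θ] using this
  have k2 : ∀ s t k, θ s (t + mu _ k) = θ s t + k := fun s t k => by
    simp only [θ, pt, eu_add, eu_mu]
    rw [← add_assoc, ← add_assoc, add_right_comm _ (P.ι _), he]
    simp [add_assoc]
  have k3 : ∀ s m t, val (Sum.inl (PL.lam v s)) (g0 + pt m t) = true →
      (κ (g0 + pt 0 t)).2.1 v = θ s (t - (m : ℤ)) := fun s m t h => by
    rw [← k0 m, ← k1]
    exact (sub_eq_zero.1 (S.hl v s _ h)).symm
  by_contra hcon
  have k4 : ∀ m0 : ℤ, ∃ k : ℤ, ∀ t, (κ (g0 + pt 0 t)).2.1 v =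
      θ (P.s0 v) (t - ((m0 + k * P.u v : ℤ) : ZMod (P.u v * P.u v))) := by
    intro m0
    choose s hs using fun k : Fin (P.u v) => h2 (pt (m0 + (k : ℕ) * P.u v) 0)
      (by simpa [pt, eu] using hc.mul_left _) (by simp [pt, eu]) v
    have hinj : Function.Injective s := by
      intro k k' e
      have a1 := k3 _ _ _ (hs k)
      have a2 := k3 _ _ _ (hs k')
      have f : ∀ k : ℕ, (0 : ZMod (P.u v * P.u v)) - ((m0 + k * P.u v : ℤ) : ZMod _) =
          -(m0 : ZMod _) + mu _ ((-k : ℤ) : ZMod (P.u v)) := fun k => by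
        rw [mu_int]; push_cast; ring
      rw [f, k2] at a1 a2
      rw [a1, e, add_right_inj] at a2
      push_cast at a2
      have := (ZMod.natCast_eq_natCast_iff' _ _ _).1 (neg_injective a2)
      rw [Nat.mod_eq_of_lt k.2, Nat.mod_eq_of_lt k'.2] at this
      exact Fin.ext this
    obtain ⟨k, hk⟩ := (Finite.injective_iff_surjective.1 hinj) (P.s0 v)
    refine ⟨(k : ℕ), fun t => k3 _ _ _ ?_⟩
    by_contra hf
    exact hcon ⟨_, 0, t, hk ▸ hs k, by simpa using hf⟩
  obtain ⟨k, hk⟩ := k4 0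
  obtain ⟨k', hk'⟩ := k4 1
  set d : ℤ := 1 + (k' - k) * P.u v with hd
  have k5 := const_of_step (fun j => θ (P.s0 v) ((j * d : ℤ) : ZMod (P.u v * P.u v))) (fun j => by
    have a1 := hk ((j * d + (1 + k' * P.u v) : ℤ) : ZMod (P.u v * P.u v))
    rw [hk', ← Int.cast_sub, ← Int.cast_sub] at a1
    rw [show (j + 1) * d = j * d + (1 + k' * P.u v) - (0 + k * P.u v) by rw [hd]; ring, ← a1,
      add_sub_cancel_right]) (P.u v)
  have k6 := k2 (P.s0 v) 0 d
  rw [mu_int, zero_add] at k6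
  simp only [zero_mul, Int.cast_zero, Int.cast_mul, Int.cast_natCast,
    mul_comm ((P.u v : ℕ) : ZMod (P.u v * P.u v))] at k5
  rw [k5, left_eq_add, hd] at k6
  simp at k6

theorem sound [Fintype V] (he : Equi P.ι κ) (hκ : P.M.Inv κ)
    (hv : ∀ l, ∀ h ∈ P.I' l, ∀ g, val l (g + h) = val l g) (S : P.Sys R Ω κ val)
    (hQ : (P.Q : ℤ) ∣ R) (hu : ∀ v, ((P.u v * P.u v : ℕ) : ℤ) ∣ R)
    (hp : ∀ p, ¬ (P.r (Sum.inl p) : ℤ) ∣ R) {R' : ℤ} (hp' : ∀ p, (P.r (Sum.inl p) : ℤ) ∣ R')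
    (hq : ¬ (P.q : ℤ) ∣ R * R') : ∃ g1 : P.G, ∃ y1 : ℤ × ℤ,
      let b := fun y v => val (Sum.inr v) (g1 + P.hz R (y1 + R' • y))
      (∀ x v, b (x + P.w v) v = b x v) ∧ (∀ x, b x ∈ Ω) ∧
        ∀ x, b (x + (0, 1)) P.v0 = !(b x P.v0) := by
  obtain ⟨g0, h1, h2, h3⟩ := coords he hv S
  choose m t1 t0 hm1 hm0 using layers he S h1 h2
  have h2R := P.two_Q.trans hQ
  set Mx : ℤ := ∑ v, m v * P.cu v with hMx
  have hMQ : (P.Q : ℤ) ∣ Mx :=
    Finset.dvd_sum fun v _ => (P.Q_q.trans (P.q_c (by simp))).mul_left _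
  let pt : (v : V) → ℤ × ℤ → ZMod (P.u v * P.u v) → P.G := fun v y t =>
    g0 + (P.hz Mx (1, 0) + P.hz R y + P.eu v t)
  have l1 : ∀ v y t, val (Sum.inl (PL.lam v (P.s0 v))) (pt v y t) =
      val (Sum.inl (PL.lam v (P.s0 v))) (g0 + (P.hz (m v * P.cu v) (1, 0) + P.eu v t)) := by
    intro v y t
    have e : pt v y t = g0 + (P.hz (m v * P.cu v) (1, 0) + P.eu v t) +
        (P.hz (Mx - m v * P.cu v) (1, 0) + P.hz R y) := by
      have := add_hz (P := P) (Mx - m v * P.cu v) (m v * P.cu v) (1, 0)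
      rw [sub_add_cancel] at this
      simp only [pt, this]; abel
    rw [e]
    refine hv (Sum.inl (PL.lam v (P.s0 v))) _ ⟨⟨?_, ?_⟩, by simp⟩ _
    · simpa [s0] using ((hMQ.sub ((P.Q_q.trans (P.q_c (i := Sum.inr (Sum.inl v))
        (by simp))).mul_left (m v))).mul_right (P.n v (1, 0))).add (hQ.mul_right (P.n v y))
    · have : ((P.u v * P.u v : ℕ) : ℤ) ∣ Mx - m v * P.cu v := by
        rw [hMx, ← Finset.sum_erase_eq_sub (f := fun v => m v * P.cu v) (Finset.mem_univ v)]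
        exact Finset.dvd_sum fun v' hv' => (P.u_c v (by
          simpa using (Finset.ne_of_mem_erase hv').symm)).mul_left _
      simpa using this.add ((hu v).mul_right y.1)
  have ev : ∀ v y t, 2 ∣ P.a v (P.hz Mx (1, 0) + P.hz R y + P.eu v t).1 := fun v y t => by
    simpa [eu] using ((P.two_Q.trans hMQ).mul_right _).add (h2R.mul_right _)
  have st : ∀ v y y' t, pt v (y + y') t = pt v y t + P.hz R y' := fun v y y' t => by
    simp only [pt, hz_add]; abel
  have a0 : ∀ v s y, (κ (pt v y (t0 v))).2.2 (Sum.inl (v, s)) =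
      (κ (pt v 0 (t0 v))).2.2 (Sum.inl (v, s)) := fun v s =>
    const_of_step2 _ fun e y => by
      rw [st]
      exact sub_eq_zero.1 (S.h0 v s e _ (by
        rw [← Bool.not_eq_true, h1, not_not]; exact ev _ _ _) ((l1 _ _ _).trans (hm0 v)))
  have a1 : ∀ v s y, (κ (pt v y (t1 v) + P.hz P.c2 (P.w v))).2.2 (Sum.inl (v, s)) +
      ((R * P.a v y : ℤ) : ZMod (P.r (Sum.inl (v, s)))) =
      (κ (pt v 0 (t1 v) + P.hz P.c2 (P.w v))).2.2 (Sum.inl (v, s)) := fun v s y => by
    have := const_of_step2 (fun y => (κ (pt v y (t1 v) + P.hz P.c2 (P.w v))).2.2 (Sum.inl (v, s)) +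
      ((R * P.a v y : ℤ) : ZMod (P.r (Sum.inl (v, s))))) (fun e y => by
        have := S.h1 v s e (pt v y (t1 v) + P.hz P.c2 (P.w v)) (by
          have hc2 : 2 ∣ P.c2 - 1 := P.two_Q.trans (P.Q_q.trans (P.c1 (Sum.inl ())))
          rw [add_assoc, h1, Prod.fst_add, map_add, dvd_add_right (ev _ _ _), hz_a, P.aw]
          omega)
        rw [← add_assoc, he] at this
        rw [st, add_right_comm (pt v y _), ← sub_eq_zero.1 this, map_add, mul_add, Int.cast_add]
        simp only [eo, Prod.snd_add, Pi.add_apply, Pi.single_eq_same]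
        ring) y
    simpa using this
  let δ : (p : V × Bool) → ZMod (P.r (Sum.inl p)) := fun p =>
    (κ (pt p.1 0 (t1 p.1) + P.hz P.c2 (P.w p.1))).2.2 (Sum.inl p) -
      (κ (pt p.1 0 (t0 p.1))).2.2 (Sum.inl p)
  classical
  let i : V × Bool → ℤ := fun p => if δ p = 0 then 1 else 0
  let y1 : ℤ × ℤ := ∑ p : V × Bool, (i p * P.c (P.cg p.1 p.2)) • P.w p.1
  have hy1 : ∀ v s y, ((P.a v (y1 + R' • y) : ℤ) : ZMod (P.r (Sum.inl (v, s)))) = (i (v, s) : ℤ) := by
    intro v s y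
    rw [map_add, map_zsmul, smul_eq_mul, Int.cast_add, cast_zero_of ((hp' _).mul_right _), add_zero,
      map_sum, Int.cast_sum, Finset.sum_eq_single (v, s)]
    · have : ((P.c (P.cg v s) : ℤ) : ZMod (P.r (Sum.inl (v, s)))) = 1 :=
        cast_one_of (P.c1 (P.cg v s))
      rw [map_zsmul, P.aw, smul_eq_mul, mul_one, Int.cast_mul, this, mul_one]
    · intro p _ hne
      rw [map_zsmul]
      exact cast_zero_of (((P.r_c _ (by simpa using hne.symm)).mul_left _).mul_right _)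
    · simp
  refine ⟨g0 + P.hz Mx (1, 0), y1, fun x v => ?_, fun x => ?_, fun x => ?_⟩
  · beta_reduce
    rw [smul_add, ← add_assoc, hz_add, ← add_assoc]
    exact hv _ _ (by simp [I', P.nw, -zsmul_eq_mul]) _
  · by_contra hΩ
    set y := y1 + R' • x with hy
    set p : V → Bool := fun v => val (Sum.inr v) (g0 + P.hz Mx (1, 0) + P.hz R y) with hpd
    have key : ∀ v, ∃ t, (κ (pt v y (t + 1))).2.2 (Sum.inl (v, p v)) ≠
        (κ (pt v y t)).2.2 (Sum.inl (v, p v)) := by
      intro v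
      by_contra hc
      push Not at hc
      have b0 : ∀ t, (κ (pt v y t)).2.2 (Sum.inl (v, p v)) =
          (κ (pt v y 0)).2.2 (Sum.inl (v, p v)) := fun t => by
        obtain ⟨t, rfl⟩ := ZMod.intCast_surjective t
        simpa using const_of_step (fun j => (κ (pt v y (j : ℤ))).2.2 (Sum.inl (v, p v)))
          (fun j => by simpa using hc j) t
      have b1 := S.h2 v (p v) (pt v y (t1 v)) ((l1 _ _ _).trans (hm1 v)) (by
        simp only [pt, ← add_assoc]
        exact hv _ _ (by simp [I', eu]) _)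
      have b2 := a1 v (p v) y
      rw [sub_eq_zero.1 b1, b0, ← b0 (t0 v), a0, Int.cast_mul, hy1] at b2
      have b3 : δ (v, p v) = R * (i (v, p v) : ℤ) := by
        simp only [δ]; linear_combination -b2
      by_cases hd : δ (v, p v) = 0
      · rw [hd] at b3
        simp only [i, if_pos hd, Int.cast_one, mul_one] at b3
        exact hp _ ((ZMod.intCast_zmod_eq_zero_iff_dvd _ _).1 b3.symm)
      · simp only [i, if_neg hd, Int.cast_zero, mul_zero] at b3
        exact hd b3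
    choose t ht using key
    obtain ⟨v, hv'⟩ := S.h3 p hΩ (pt P.v0 y 0 + (0, (0, t, 0)))
    refine ht v ?_
    let h : P.G := (0, (0, t - Pi.single v (t v), 0))
    have e : pt P.v0 y 0 + (0, (0, t, 0)) = pt v y (t v) + h := by
      simp only [pt, eu, add_assoc, h]
      simp
    rw [e] at hv'
    have hh : h ∈ P.M.I (P.cg v (p v)) := by simp [M, I, h]
    have := (hκ.shift hh le_rfl (pt v y (t v)) (P.eu v 1)).1 hv'
    change (κ (pt v y (t v) + P.eu v 1) - κ (pt v y (t v))).2.2 (Sum.inl (v, p v)) = 0 at this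
    rw [← sub_eq_zero.1 this]
    simp only [pt, eu_add, add_assoc]
  · simp only [add_assoc g0, h3]
    obtain ⟨R0, rfl⟩ := hQ
    have f : ∀ t : ℤ, (P.q : ℤ) ∣ P.Q * t ↔ 2 ∣ t := fun t => by
      rw [show ((P.q : ℕ) : ℤ) = P.Q * 2 by push_cast; ring, mul_dvd_mul_iff_left (by positivity)]
    rw [mul_assoc, f] at hq
    simp only [Prod.fst_add, Prod.snd_add, hz_12, mul_zero, zero_add, Prod.smul_snd, smul_eq_mul,
      mul_assoc, mul_add, mul_one, ← add_assoc]
    simp only [← mul_add (P.Q : ℤ), f]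
    generalize R0 * R' = z at hq ⊢
    generalize R0 * y1.2 + R0 * (R' * x.2) = A
    by_cases hA : 2 ∣ A
    · have : ¬ 2 ∣ A + z := by omega
      simp [hA, this]
    · have : 2 ∣ A + z := by omega
      simp [hA, this]

end Par

end Vale.Agent.P043
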