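import Vale.Agent.P043.Sound

/-! An aperiodic tile in `ℤ^d` for every `d ≥ 3`. -/

namespace Vale.Agent.P043

lemma crt {J : Type} [Finite J] (a : J → ℕ) (hcop : Pairwise (Function.onFun Nat.Coprime a))
    (y : (i : J) → ZMod (a i)) : ∃ s : ℤ, ∀ i, (s : ZMod (a i)) = y i := by
  have := Fintype.ofFinite J
  obtain ⟨x, hx⟩ := (ZMod.prodEquivPi a hcop).surjective y
  obtain ⟨s, rfl⟩ := ZMod.intCast_surjective x
  rw [map_intCast] at hx
  exact ⟨s, fun i => congrFun hx i⟩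

theorem Par.aperSys {V : Type} [Fintype V] [DecidableEq V] (P : Par V) (Ω : Set (V → Bool))
    (hex : ∃ b : ℤ × ℤ → V → Bool, (∀ x v, b (x + P.w v) v = b x v) ∧ (∀ x, b x ∈ Ω) ∧
      ∀ x, b (x + (0, 1)) P.v0 = !(b x P.v0))
    (hno : ∀ b : ℤ × ℤ → V → Bool, (∀ x v, b (x + P.w v) v = b x v) ∧ (∀ x, b x ∈ Ω) ∧
      (∀ x, b (x + (0, 1)) P.v0 = !(b x P.v0)) → ∀ N : ℕ, 0 < N →
      (∀ x g, b (x + N • g) = b x) → False) : AperSys ((ℤ × ℤ) × ℤ) := by
  classical
  have := Fintype.ofFinite (LL V P.q P.u)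
  let R0 : ℕ := (∏ v, P.u v * P.u v) * ∏ l, P.r (Sum.inr l)
  let R' : ℕ := ∏ p, P.r (Sum.inl p)
  have hQ : (P.Q : ℤ) ∣ (P.Q * R0 : ℕ) := Int.natCast_dvd_natCast.2 (dvd_mul_right _ _)
  have hu : ∀ v, ((P.u v * P.u v : ℕ) : ℤ) ∣ (P.Q * R0 : ℕ) := fun v => Int.natCast_dvd_natCast.2
    (((Finset.dvd_prod_of_mem (fun v => P.u v * P.u v) (Finset.mem_univ v)).mul_right _).mul_left _)
  have hr : ∀ l, (P.r (Sum.inr l) : ℤ) ∣ (P.Q * R0 : ℕ) := fun l => Int.natCast_dvd_natCast.2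
    (((Finset.dvd_prod_of_mem (fun l => P.r (Sum.inr l)) (Finset.mem_univ l)).mul_left _).mul_left _)
  have c0 : ∀ i : CC V P.q P.u, (∀ v, i ≠ Sum.inr (Sum.inl v)) → (∀ l, i ≠ P.cl l) →
      (modu _ P.u P.r i).Coprime R0 := fun i h1 h2 =>
    Nat.Coprime.mul_right (Nat.Coprime.prod_right fun v _ => P.cop (h1 v))
      (Nat.Coprime.prod_right fun l _ => P.cop (h2 l))
  have hp : ∀ p, ¬ (P.r (Sum.inl p) : ℤ) ∣ (P.Q * R0 : ℕ) := fun p h => by
    have h1 : (P.r (Sum.inl p)).Coprime P.q :=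
      P.cop (i := Sum.inr (Sum.inr (Sum.inl p))) (j := Sum.inl ()) (by simp)
    have h2 : (P.r (Sum.inl p)).Coprime R0 := c0 (Sum.inr (Sum.inr (Sum.inl p))) (by simp) (by simp)
    have h3 := (h1.coprime_mul_left_right.mul_right h2).eq_one_of_dvd (Int.natCast_dvd_natCast.1 h)
    have := P.hr (Sum.inl p)
    omega
  have hp' : ∀ p, (P.r (Sum.inl p) : ℤ) ∣ (R' : ℤ) := fun p => Int.natCast_dvd_natCast.2
    (Finset.dvd_prod_of_mem (fun p => P.r (Sum.inl p)) (Finset.mem_univ p))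
  have hq : ¬ (P.q : ℤ) ∣ (P.Q * R0 : ℕ) * (R' : ℤ) := fun h => by
    have h1 : P.q.Coprime R0 := c0 (Sum.inl ()) (by simp) (by simp)
    have h2 : P.q.Coprime R' := Nat.Coprime.prod_right fun p _ =>
      P.cop (i := Sum.inl ()) (j := Sum.inr (Sum.inr (Sum.inl p))) (by simp)
    rw [← Nat.cast_mul, Int.natCast_dvd_natCast, mul_assoc, show P.q = P.Q * 2 from mul_comm _ _,
      Nat.mul_dvd_mul_iff_left (by positivity)] at h
    have := (h1.mul_right h2).coprime_mul_right.eq_one_of_dvd h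
    omega
  have hG : AperSys P.G := by
    refine Mach.aperSys (P.expr _ hQ hu hr Ω) ?_ fun κ val he hκ h1 h2 h3 S N hN hper => ?_
    · obtain ⟨b, hw, hΩ, hm⟩ := hex
      obtain ⟨b, hw, hΩ, hm, h0⟩ : ∃ b : ℤ × ℤ → V → Bool, (∀ x v, b (x + P.w v) v = b x v) ∧
          (∀ x, b x ∈ Ω) ∧ (∀ x, b (x + (0, 1)) P.v0 = !(b x P.v0)) ∧ b 0 P.v0 = false := by
        cases h : b 0 P.v0
        · exact ⟨b, hw, hΩ, hm, h⟩
        · exact ⟨fun x => b (x + (0, 1)), fun x v => by simp only [add_right_comm x, hw], fun x => hΩ _,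
            fun x => hm _, by simp only [hm, h, Bool.not_true]⟩
      exact ⟨P.ka b, P.val0 b, P.equi_ka b, P.inv_ka b, P.lab_ka b, P.sys_ka b hQ hu hw hΩ hm h0⟩
    · obtain ⟨g1, y1, hb⟩ := Par.sound he hκ (Par.valI' h1 h2 h3) S hQ hu hp hp' hq
      refine hno (fun y v => val (Sum.inr v) (g1 + P.hz (P.Q * R0 : ℕ) (y1 + (R' : ℤ) • y))) hb N hN
        fun x g => funext fun v => ?_
      have e : P.hz (P.Q * R0 : ℕ) ((R' : ℤ) • N • g) = N • P.hz (P.Q * R0 : ℕ) ((R' : ℤ) • g) := by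
        simp only [Par.hz, Prod.smul_mk, smul_zero, smul_comm _ N]
      rw [smul_add, ← add_assoc, Par.hz_add, ← add_assoc, e, hper]
  let π : (ℤ × ℤ) × ℤ →+ P.G :=
    { toFun := fun p => (p.1, ((p.2 : ZMod _), fun v => (p.2 : ZMod _), fun o => (p.2 : ZMod _)))
      map_zero' := by ext <;> simp
      map_add' := by intro p q; ext <;> simp }
  obtain ⟨T, hT, hgen⟩ := exists_gen π.ker
  refine hG.lift π ?_ T hT (fun x => by rw [hgen, AddMonoidHom.mem_ker])
  rintro ⟨x, y, t, z⟩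
  obtain ⟨s, hs⟩ := crt _ P.cop fun i => match i with
    | Sum.inl _ => y
    | Sum.inr (Sum.inl v) => t v
    | Sum.inr (Sum.inr o) => z o
  exact ⟨(x, s), Prod.ext rfl (Prod.ext (hs (Sum.inl ())) (Prod.ext
    (funext fun v => hs (Sum.inr (Sum.inl v))) (funext fun o => hs (Sum.inr (Sum.inr o)))))⟩

lemma exists_params (V : Type) [Fintype V] : ∃ (j : ℕ) (u : V → ℕ)
    (r : OO V (2 * 2 ^ (j + 1)) u → ℕ) (c : CC V (2 * 2 ^ (j + 1)) u → ℤ),
    (∀ v, 1 < u v) ∧ (∀ v, u v ≤ 2 ^ (j + 1)) ∧ (∀ o, 1 < r o) ∧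
    Pairwise (Function.onFun Nat.Coprime (modu (2 * 2 ^ (j + 1)) u r)) ∧
    (∀ i, (modu _ u r i : ℤ) ∣ c i - 1) ∧ ∀ i i', i ≠ i' → (modu _ u r i : ℤ) ∣ c i' := by
  classical
  let e := Fintype.equivFin V
  let u : V → ℕ := fun v => Nat.nth Nat.Prime (e v + 1)
  let j := ∑ v, u v
  have : NeZero (2 * 2 ^ (j + 1)) := ⟨by positivity⟩
  obtain ⟨e', he'⟩ := Countable.exists_injective_nat' (α := OO V (2 * 2 ^ (j + 1)) u)
  let r : OO V (2 * 2 ^ (j + 1)) u → ℕ := fun o => Nat.nth Nat.Prime (e' o + Fintype.card V + 1)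
  let idx : CC V (2 * 2 ^ (j + 1)) u → ℕ := Sum.elim (fun _ => 0)
    (Sum.elim (fun v => e v + 1) fun o => e' o + Fintype.card V + 1)
  have hidx : Function.Injective idx := by
    rintro (_ | v | o) (_ | v' | o') h <;> simp only [idx, Sum.elim_inl, Sum.elim_inr] at h
    · rfl
    · omega
    · omega
    · omega
    · rw [e.injective (Fin.ext (by omega) : e v = e v')]
    · have := (e v).2; omega
    · omega
    · have := (e v').2; omega
    · rw [he' (by omega : e' o = e' o')]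
  have hpow : ∀ i, ∃ k, modu _ u r i = Nat.nth Nat.Prime (idx i) ^ k := by
    rintro (_ | v | o)
    · exact ⟨j + 2, by simp only [modu, idx, Sum.elim_inl, Nat.nth_prime_zero_eq_two]; ring⟩
    · exact ⟨2, (sq _).symm⟩
    · exact ⟨1, (pow_one _).symm⟩
  have hcop : Pairwise (Function.onFun Nat.Coprime (modu (2 * 2 ^ (j + 1)) u r)) := by
    intro i i' h
    obtain ⟨k, hk⟩ := hpow i
    obtain ⟨k', hk'⟩ := hpow i'
    rw [Function.onFun, hk, hk']
    exact Nat.Coprime.pow _ _ ((Nat.coprime_primes (Nat.prime_nth_prime _)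
      (Nat.prime_nth_prime _)).2 fun h' => h (hidx
        (Nat.nth_injective Nat.infinite_setOfPred_prime h')))
  choose c hc using fun i => crt _ hcop (Pi.single i 1)
  refine ⟨j, u, r, c, fun v => (Nat.prime_nth_prime _).one_lt, fun v => ?_,
    fun o => (Nat.prime_nth_prime _).one_lt, hcop, fun i => ?_, fun i i' h => ?_⟩
  · have h1 : u v ≤ j := Finset.single_le_sum (fun _ _ => Nat.zero_le _) (Finset.mem_univ v)
    have h2 := Nat.lt_two_pow_self (n := j + 1)
    omega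
  · rw [← ZMod.intCast_zmod_eq_zero_iff_dvd, Int.cast_sub, hc, Pi.single_eq_same]
    simp
  · rw [← ZMod.intCast_zmod_eq_zero_iff_dvd, hc, Pi.single_eq_of_ne h]

/-- the class and the slope of a bit -/
def sC : SV → Fin 3 × ℤ
  | Sum.inl (c, j) => (c, (j : ℕ))
  | Sum.inr c => (c, 0)

lemma sW_eq (v : SV) : sW v = dirW (sC v).1 (sC v).2 := by
  rcases v with ⟨c, j⟩ | c <;> rfl

/-- position along a line -/
def sA (c : Fin 3) : ℤ × ℤ →+ ℤ where
  toFun := formQ c
  map_zero' := by simp [formQ]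
  map_add' x y := by simp only [formQ]; split_ifs <;> simp

/-- index of a line -/
def sN (c : Fin 3) (j : ℤ) : ℤ × ℤ →+ ℤ where
  toFun := formL c j
  map_zero' := by simp [formL]
  map_add' x y := by simp only [formL]; split_ifs <;> simp <;> ring

theorem aperSys_three : AperSys ((ℤ × ℤ) × ℤ) := by
  obtain ⟨j, u, r, c, h1, h2, h3, h4, h5, h6⟩ := exists_params SV
  let P : Par SV :=
    { w := sW
      T := fun v => if (sC v).1 = 0 then (0, 1) else (1, 0)
      a := fun v => sA (sC v).1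
      n := fun v => sN (sC v).1 (sC v).2
      aw := fun v => by
        rw [sW_eq]; generalize sC v = p; obtain ⟨c, j⟩ := p
        fin_cases c <;> simp [sA, formQ, dirW]
      nw := fun v => by
        rw [sW_eq]; generalize sC v = p; obtain ⟨c, j⟩ := p
        fin_cases c <;> simp [sN, formL, dirW]
      aT := fun v => by
        generalize sC v = p; obtain ⟨c, j⟩ := p
        fin_cases c <;> simp [sA, formQ]
      nT := fun v => by
        generalize sC v = p; obtain ⟨c, j⟩ := p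
        fin_cases c <;> simp [sN, formL]
      dec := fun v x => by
        rw [sW_eq]; generalize sC v = p; obtain ⟨c, j⟩ := p
        fin_cases c <;> ext <;> simp [sA, sN, formQ, formL, dirW] <;> ring
      v0 := Sum.inr 0
      v1 := Sum.inr 1
      w0 := sW_zero
      n0 := fun x => by simp [sN, sC, formL]
      n1 := fun x => by simp [sN, sC, formL]
      j := j, u := u, hu := h1, huQ := h2, r := r, hr := h3, cop := h4, c := c, c1 := h5, c0 := h6 }
  exact P.aperSys SOmega exists_sol fun b hb N hN hp => not_periodic b hb N hN hp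

theorem exists_aperTile_three (d : ℕ) (hd : 3 ≤ d) : ∃ F : Finset (Fin d → ℤ), AperTile F := by
  classical
  obtain ⟨T, hT, hgen⟩ := exists_gen (⊤ : AddSubgroup (ℤ × ℤ))
  obtain ⟨F, hF⟩ := aperSys_three.tile T hT hgen
  let ι : (ℤ × ℤ) × ℤ →+ (Fin d → ℤ) :=
    { toFun := fun p i => if i.1 = 0 then p.1.1 else if i.1 = 1 then p.1.2 else
        if i.1 = 2 then p.2 else 0
      map_zero' := by ext; simp
      map_add' := by intro p q; ext i; simp only [Pi.add_apply]; split_ifs <;> simp }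
  refine ⟨_, hF.embed ι ?_⟩
  intro p q h
  have h0 := congrFun h ⟨0, by omega⟩
  have h1 := congrFun h ⟨1, by omega⟩
  have h2 := congrFun h ⟨2, by omega⟩
  simp [ι] at h0 h1 h2
  exact Prod.ext (Prod.ext h0 h1) h2

end Vale.Agent.P043
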